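import Crest.Agent.R30.Par

set_option autoImplicit false
open Finset Crest.CombinatoricsR.TriangleRemoval

namespace Crest.Agent.R30

/-! # The cavity recursion stays close to its homogeneous solution -/

variable {n : ℕ} {y z : ℝ}

theorem cavity_prod {ι : Type} (S : Finset ι) (e : ι → ℝ) (he : ∀ w ∈ S, 0 ≤ e w ∧ e w ≤ 1) :
    1 - ∑ w ∈ S, e w ≤ ∏ w ∈ S, (1 - e w) ∧
      ∏ w ∈ S, (1 - e w) ≤ 1 - ∑ w ∈ S, e w + (∑ w ∈ S, e w) ^ 2 / 2 := by
  classical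
  induction S using Finset.induction_on with
  | empty => simp
  | insert a S ha ih =>
    obtain ⟨h1, h2⟩ := ih fun w hw => he w (mem_insert_of_mem hw)
    obtain ⟨h3, h4⟩ := he a (mem_insert_self a S)
    have h5 : 0 ≤ ∑ w ∈ S, e w := sum_nonneg fun w hw => (he w (mem_insert_of_mem hw)).1
    rw [sum_insert ha, prod_insert ha]
    have h6 := mul_le_mul_of_nonneg_left h1 (sub_nonneg.2 h4)
    have h7 := mul_le_mul_of_nonneg_left h2 (sub_nonneg.2 h4)
    constructor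
    · nlinarith [mul_nonneg h3 h5]
    · nlinarith [mul_nonneg h3 (sq_nonneg (∑ w ∈ S, e w)), sq_nonneg (e a)]

theorem cavity_point {a b κ β : ℝ} (hβ : β ≤ 1 / 10) (ha : |a| ≤ β) (hb : |b| ≤ β) (h1 : 1 ≤ κ)
    (h2 : κ ≤ 1 + β ^ 2) : 0 ≤ (1 + a) * (1 + b) * κ ∧ (1 + a) * (1 + b) * κ ≤ 2 ∧
      |(1 + a) * (1 + b) * κ - 1 - (a + b)| ≤ 3 * β ^ 2 := by
  have hβ0 : 0 ≤ β := (abs_nonneg a).trans ha
  have hab : |a * b| ≤ β ^ 2 := by
    rw [abs_mul, sq]
    exact mul_le_mul ha hb (abs_nonneg b) hβ0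
  obtain ⟨a1, a2⟩ := abs_le.1 ha
  obtain ⟨b1, b2⟩ := abs_le.1 hb
  obtain ⟨c1, c2⟩ := abs_le.1 hab
  have hβ2 : β ^ 2 ≤ 1 / 100 := by nlinarith
  have p0 : 0 ≤ (1 + a) * (1 + b) := mul_nonneg (by linarith) (by linarith)
  have p1 : (1 + a) * (1 + b) ≤ 3 / 2 := by nlinarith
  have p2 : 0 ≤ (1 + a) * (1 + b) * (κ - 1) := mul_nonneg p0 (by linarith)
  have p3 : (1 + a) * (1 + b) * (κ - 1) ≤ 3 / 2 * β ^ 2 :=
    mul_le_mul p1 (by linarith) (by linarith) (by norm_num)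
  refine ⟨mul_nonneg p0 (by linarith), by nlinarith, abs_le.2 ⟨by nlinarith, by nlinarith⟩⟩

theorem cavity_kappa {i j k β : ℝ} (hβ0 : 0 ≤ β) (hβ : β ≤ 1 / 10) (hi : 0 ≤ i ∧ i ≤ β ^ 2 / 6)
    (hj : 0 ≤ j ∧ j ≤ β ^ 2 / 6) (hk : 0 ≤ k ∧ k ≤ β ^ 2 / 6) :
    ∃ κ, 1 ≤ κ ∧ κ ≤ 1 + β ^ 2 ∧ κ * ((1 - i) * (1 - j) * (1 - k)) = 1 := by
  have hβ2 : β ^ 2 ≤ 1 / 100 := by nlinarith
  have h1 : 1 - (i + j) ≤ (1 - i) * (1 - j) := by nlinarith [mul_nonneg hi.1 hj.1]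
  have h2 : (1 - i) * (1 - j) ≤ 1 := by nlinarith [mul_nonneg hi.1 (by linarith : 0 ≤ 1 - j)]
  have h3 : 1 - β ^ 2 / 2 ≤ (1 - i) * (1 - j) * (1 - k) := by nlinarith
  have h4 : (1 - i) * (1 - j) * (1 - k) ≤ 1 := by nlinarith
  have h5 : 0 < (1 - i) * (1 - j) * (1 - k) := by linarith
  refine ⟨1 / ((1 - i) * (1 - j) * (1 - k)), (one_le_div h5).2 h4, (div_le_iff₀ h5).2 ?_,
    one_div_mul_cancel h5.ne'⟩
  nlinarith [sq_nonneg β]

/-- one step of the recursion -/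
theorem cavity_step {ι : Type} (S : Finset ι) (a b κ : ι → ℝ) {D h β x : ℝ} (hD : 1 ≤ D)
    (hβ0 : 0 ≤ β) (hβ : β ≤ 1 / 10) (hh0 : 0 ≤ h) (hh : h ≤ β ^ 2)
    (hS : |(S.card : ℝ) - D| ≤ β ^ 2 * D) (hx : |x| ≤ β)
    (hw : ∀ w ∈ S, |a w| ≤ β ∧ |b w| ≤ β ∧ 1 ≤ κ w ∧ κ w ≤ 1 + β ^ 2) :
    |(1 + x) * (∏ w ∈ S, (1 - h / D * ((1 + a w) * (1 + b w) * κ w))) / (1 - h) - 1 - x +
      h * ((∑ w ∈ S, (a w + b w)) / D)| ≤ 50 * β ^ 2 * h := by
  have hβ2 : β ^ 2 ≤ 1 / 100 := by nlinarith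
  have hD0 : 0 < D := by linarith
  have hp := fun w hw' => cavity_point hβ (hw w hw').1 (hw w hw').2.1 (hw w hw').2.2.1
    (hw w hw').2.2.2
  have hhD : h / D ≤ 1 / 100 := (div_le_self hh0 hD).trans (by linarith)
  have hhD0 : 0 ≤ h / D := by positivity
  obtain ⟨p1, p2⟩ := cavity_prod S (fun w => h / D * ((1 + a w) * (1 + b w) * κ w)) fun w hw' =>
    ⟨mul_nonneg hhD0 (hp w hw').1, by nlinarith [(hp w hw').1, (hp w hw').2.1]⟩
  have hc : (S.card : ℝ) ≤ 2 * D := by nlinarith [(abs_le.1 hS).2]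
  have hA : |(∑ w ∈ S, (a w + b w)) / D| ≤ 4 * β := by
    rw [abs_div, abs_of_pos hD0, div_le_iff₀ hD0]
    refine (abs_sum_le_sum_abs _ _).trans ((sum_le_card_nsmul _ _ (2 * β) fun w hw' =>
      (abs_add_le _ _).trans (by linarith [(hw w hw').1, (hw w hw').2.1])).trans ?_)
    rw [nsmul_eq_mul]
    nlinarith
  have hT : |∑ w ∈ S, (1 + a w) * (1 + b w) * κ w - S.card - ∑ w ∈ S, (a w + b w)| ≤
      6 * β ^ 2 * D := by
    have e : ∑ w ∈ S, (1 + a w) * (1 + b w) * κ w - S.card - ∑ w ∈ S, (a w + b w) =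
        ∑ w ∈ S, ((1 + a w) * (1 + b w) * κ w - 1 - (a w + b w)) := by
      rw [sum_sub_distrib, sum_sub_distrib, sum_const, nsmul_eq_mul, mul_one]
    rw [e]
    refine (abs_sum_le_sum_abs _ _).trans ((sum_le_card_nsmul _ _ (3 * β ^ 2) fun w hw' =>
      (hp w hw').2.2).trans ?_)
    rw [nsmul_eq_mul]
    nlinarith [sq_nonneg β]
  rw [← mul_sum] at p1 p2
  have hU : |(∑ w ∈ S, (1 + a w) * (1 + b w) * κ w) / D - 1 - (∑ w ∈ S, (a w + b w)) / D| ≤
      7 * β ^ 2 := by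
    have e : (∑ w ∈ S, (1 + a w) * (1 + b w) * κ w) / D - 1 - (∑ w ∈ S, (a w + b w)) / D =
        ((∑ w ∈ S, (1 + a w) * (1 + b w) * κ w - S.card - ∑ w ∈ S, (a w + b w)) +
          (S.card - D)) / D := by
      field_simp
      ring
    rw [e, abs_div, abs_of_pos hD0, div_le_iff₀ hD0]
    exact (abs_add_le _ _).trans (by linarith)
  rw [div_mul_eq_mul_div, mul_div_assoc] at p1 p2
  generalize (∑ w ∈ S, (1 + a w) * (1 + b w) * κ w) / D = T at p1 p2 hU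
  generalize (∑ w ∈ S, (a w + b w)) / D = A at hA hU ⊢
  generalize ∏ w ∈ S, (1 - h / D * ((1 + a w) * (1 + b w) * κ w)) = P at p1 p2 ⊢
  obtain ⟨u1, u2⟩ := abs_le.1 hU
  obtain ⟨a1, a2⟩ := abs_le.1 hA
  have hT2 : T ^ 2 ≤ 4 := by nlinarith
  have hσ : (h * T) ^ 2 / 2 ≤ 2 * β ^ 2 * h := by
    have : h * h ≤ β ^ 2 * h := mul_le_mul_of_nonneg_right hh hh0
    nlinarith [mul_nonneg hh0 hh0]
  have he : |P - (1 - h - h * A)| ≤ 9 * β ^ 2 * h := by
    have v1 := mul_le_mul_of_nonneg_left u1 hh0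
    have v2 := mul_le_mul_of_nonneg_left u2 hh0
    have v3 : 0 ≤ β ^ 2 * h := by positivity
    rw [abs_le]
    constructor <;> nlinarith
  have h1h : 1 / 2 ≤ 1 - h := by linarith
  have e : (1 + x) * P / (1 - h) - 1 - x + h * A =
      ((1 + x) * (P - (1 - h - h * A)) - h * (x * A) - h * (h * A)) / (1 - h) := by
    field_simp
    ring
  have w1 : |(1 + x) * (P - (1 - h - h * A))| ≤ 2 * (9 * β ^ 2 * h) := by
    rw [abs_mul]
    refine mul_le_mul ((abs_add_le _ _).trans ?_) he (abs_nonneg _) (by norm_num)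
    rw [abs_one]
    linarith
  have w2 : |h * (x * A)| ≤ h * (β * (4 * β)) := by
    rw [abs_mul, abs_mul, abs_of_nonneg hh0]
    exact mul_le_mul_of_nonneg_left (mul_le_mul hx hA (abs_nonneg _) hβ0) hh0
  have w3 : |h * (h * A)| ≤ h * (β ^ 2 * 1) := by
    rw [abs_mul, abs_mul, abs_of_nonneg hh0]
    exact mul_le_mul_of_nonneg_left (mul_le_mul hh (by linarith) (abs_nonneg _) (sq_nonneg _)) hh0
  rw [e, abs_div, abs_of_pos (by linarith : 0 < 1 - h), div_le_iff₀ (by linarith)]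
  refine ((abs_sub _ _).trans (add_le_add ((abs_sub _ _).trans (add_le_add w1 w2)) w3)).trans ?_
  have v3 : 0 ≤ β ^ 2 * h := by positivity
  nlinarith

theorem cavity_root (E : Gr n) (u v : Fin n) (f : Node n → ℝ) :
    ∏ c ∈ ch E (u, u, v), f c = ∏ w ∈ cn E u v, f (u, v, w) := by
  have e : ch E (u, u, v) = (cn E u v).image fun w => (u, v, w) := by
    ext ⟨a, b, w⟩
    simp only [mem_ch, mem_image, mem_cn, or_self, Prod.mk.injEq]
    constructor
    · rintro ⟨rfl, rfl, -, -, h1, h2⟩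
      exact ⟨w, ⟨h1, h2⟩, rfl, rfl, rfl⟩
    · rintro ⟨w, ⟨h1, h2⟩, rfl, rfl, rfl⟩
      exact ⟨rfl, rfl, h1.1.symm, h1.1.symm, h1, h2⟩
  rw [e, prod_image fun a _ b _ h => by simpa using h]

theorem cavity_tri {E : Gr n} {a b w : Fin n} (h : vtri E (a, b, w)) (f : Node n → ℝ) :
    (∏ c ∈ ch E (a, b, w), f c) * (f (a, w, b) * f (b, w, a)) =
      (∏ c ∈ ch E (a, a, w), f c) * ∏ c ∈ ch E (b, b, w), f c := by
  obtain ⟨hab, haw, hbw⟩ := h
  have e : ch E (a, b, w) = (((cn E a w).erase b).image fun x => (a, w, x)) ∪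
      ((cn E b w).erase a).image fun x => (b, w, x) := by
    ext ⟨c, d, x⟩
    simp only [mem_ch, mem_union, mem_image, mem_erase, mem_cn, Prod.mk.injEq]
    constructor
    · rintro ⟨rfl, rfl | rfl, h1, h2, h3, h4⟩
      · exact Or.inl ⟨x, ⟨h2, h3, h4⟩, rfl, rfl, rfl⟩
      · exact Or.inr ⟨x, ⟨h1, h3, h4⟩, rfl, rfl, rfl⟩
    · rintro (⟨x, ⟨h1, h2, h3⟩, rfl, rfl, rfl⟩ | ⟨x, ⟨h1, h2, h3⟩, rfl, rfl, rfl⟩)
      · exact ⟨rfl, Or.inl rfl, h2.1.symm, h1, h2, h3⟩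
      · exact ⟨rfl, Or.inr rfl, h1, h2.1.symm, h2, h3⟩
  have hd : Disjoint (((cn E a w).erase b).image fun x => (a, w, x))
      (((cn E b w).erase a).image fun x => (b, w, x)) := by
    rw [disjoint_left]
    intro c h1 h2
    obtain ⟨x, -, rfl⟩ := mem_image.1 h1
    obtain ⟨x', -, h3⟩ := mem_image.1 h2
    exact hab.1 (congrArg Prod.fst h3).symm
  rw [e, prod_union hd, prod_image fun a _ b _ h => by simpa using h,
    prod_image fun a _ b _ h => by simpa using h, cavity_root, cavity_root,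
    ← prod_erase_mul _ _ (mem_cn.2 ⟨hab, adj_symm hbw⟩ : b ∈ cn E a w),
    ← prod_erase_mul _ _ (mem_cn.2 ⟨adj_symm hab, adj_symm haw⟩ : a ∈ cn E b w)]
  ring

theorem cavity_II (E : Gr n) (L s : ℕ) (c : Node n) :
    II E L s c = ∑ i ∈ range s, qq E L i c / L := by
  induction s with
  | zero => rfl
  | succ s ih => rw [sum_range_succ, ← ih]; rfl

/-- relative deviation -/
noncomputable def cavityY (E : Gr n) (D : ℝ) (L s : ℕ) (u v : Fin n) : ℝ :=
  qq E L s (u, u, v) / qb D L s - 1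

/-- the invariant at time `s` -/
def cavityInv (E : Gr n) (D β : ℝ) (L s : ℕ) : Prop :=
  (∀ u v, adj E u v → |cavityY E D L s u v| ≤ β) ∧
    ∀ c, vtri E c → 0 ≤ II E L s c ∧ II E L s c ≤ β ^ 2 / 6

theorem cavity_qq {E : Gr n} {D β : ℝ} {L s : ℕ} (hβ0 : 0 ≤ β) (hβ : β ≤ 1 / 10)
    (hq : 0 < qb D L s) (hI : cavityInv E D β L s) {a b w : Fin n} (h : vtri E (a, b, w)) {k : ℝ}
    (hk : 0 ≤ k ∧ k ≤ β ^ 2 / 6) : ∃ κ, 1 ≤ κ ∧ κ ≤ 1 + β ^ 2 ∧ qq E L s (a, b, w) =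
      qb D L s ^ 2 * ((1 + cavityY E D L s a w) * (1 + cavityY E D L s b w) * κ) * (1 - k) := by
  obtain ⟨κ, h1, h2, h3⟩ := cavity_kappa hβ0 hβ (hI.2 (a, w, b) ⟨h.2.1, h.1, adj_symm h.2.2⟩)
    (hI.2 (b, w, a) ⟨h.2.2, adj_symm h.1, adj_symm h.2.1⟩) hk
  refine ⟨κ, h1, h2, ?_⟩
  have h4 : qq E L s (a, b, w) * ((1 - II E L s (a, w, b)) * (1 - II E L s (b, w, a))) =
      qq E L s (a, a, w) * qq E L s (b, b, w) := cavity_tri h fun c => 1 - II E L s c
  have h5 : qb D L s ^ 2 * ((1 + cavityY E D L s a w) * (1 + cavityY E D L s b w) * κ) * (1 - k) =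
      qq E L s (a, a, w) * qq E L s (b, b, w) * κ * (1 - k) := by
    unfold cavityY
    field_simp
    ring
  rw [h5, ← h4]
  linear_combination (-qq E L s (a, b, w)) * h3

theorem cavity_qq_le {E : Gr n} {D β : ℝ} {L s : ℕ} (hβ0 : 0 ≤ β) (hβ : β ≤ 1 / 10)
    (hq : 0 < qb D L s) (hI : cavityInv E D β L s) {c : Node n} (h : vtri E c) :
    0 ≤ qq E L s c ∧ qq E L s c ≤ 2 * qb D L s ^ 2 := by
  obtain ⟨a, b, w⟩ := c
  obtain ⟨κ, h1, h2, h3⟩ := cavity_qq hβ0 hβ hq hI h (k := 0) ⟨le_rfl, by positivity⟩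
  obtain ⟨p1, p2, -⟩ := cavity_point hβ (hI.1 a w h.2.1) (hI.1 b w h.2.2) h1 h2
  rw [h3, sub_zero, mul_one, mul_comm 2]
  exact ⟨mul_nonneg (sq_nonneg _) p1, mul_le_mul_of_nonneg_left p2 (sq_nonneg _)⟩

theorem cavity_rec {E : Gr n} {D β : ℝ} {L s : ℕ} (hβ0 : 0 ≤ β) (hβ : β ≤ 1 / 10) (hD : 1 ≤ D)
    (hq : 0 < qb D L s) (hh : D * qb D L s ^ 2 / L ≤ β ^ 2) (hA : Areg E D (β ^ 2))
    (hI : cavityInv E D β L s) {u v : Fin n} (h : adj E u v) :
    |cavityY E D L (s + 1) u v - cavityY E D L s u v +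
      D * qb D L s ^ 2 / L * Aop E D (cavityY E D L s) u v| ≤ 50 * β ^ 2 * (D * qb D L s ^ 2 / L) := by
  have ht : ∀ w ∈ cn E u v, vtri E (u, v, w) := fun w hw => ⟨h, (mem_cn.1 hw).1, (mem_cn.1 hw).2⟩
  choose! κ h1 h2 h3 using fun w (hw : w ∈ cn E u v) =>
    cavity_qq hβ0 hβ hq hI (ht w hw) (hI.2 _ (ht w hw))
  have h4 := cavity_step (cn E u v) (cavityY E D L s u) (cavityY E D L s v) κ hD hβ0 hβ
    (by positivity) hh (hA u v h) (hI.1 u v h) fun w hw =>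
      ⟨hI.1 u w (mem_cn.1 hw).1, hI.1 v w (mem_cn.1 hw).2, h1 w hw, h2 w hw⟩
  have h5 : qq E L (s + 1) (u, u, v) = qq E L s (u, u, v) * ∏ w ∈ cn E u v,
      (1 - D * qb D L s ^ 2 / L / D *
        ((1 + cavityY E D L s u w) * (1 + cavityY E D L s v w) * κ w)) := by
    unfold qq
    rw [cavity_root, cavity_root, ← prod_mul_distrib]
    refine prod_congr rfl fun w hw => ?_
    have e1 : II E L (s + 1) (u, v, w) = II E L s (u, v, w) + qq E L s (u, v, w) / L := rfl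
    have e2 : D * qb D L s ^ 2 / L / D = qb D L s ^ 2 / L := by
      field_simp
    rw [e1, e2, h3 w hw]
    ring
  generalize ∏ w ∈ cn E u v, (1 - D * qb D L s ^ 2 / L / D *
    ((1 + cavityY E D L s u w) * (1 + cavityY E D L s v w) * κ w)) = Pp at h4 h5
  have h6 : cavityY E D L (s + 1) u v =
      (1 + cavityY E D L s u v) * Pp / (1 - D * qb D L s ^ 2 / L) - 1 := by
    unfold cavityY
    rw [h5, qb, add_sub_cancel, div_mul_eq_mul_div, div_div]
  rw [h6]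
  exact h4

theorem cavity (hP : Par n y z) (E : Gr n) (D : ℝ) (hD1 : z ^ 8 / 2 ≤ D) (hD2 : D ≤ z ^ 8)
    (hA : Areg E D (1 / z ^ 2)) (hG : Gap E D (20 / y ^ 2)) :
    (∀ r ≤ n ^ 8, ∀ u v, adj E u v →
      |qq E (n ^ 8) r (u, u, v) - qb D (n ^ 8) r| ≤ 1 / z * qb D (n ^ 8) r) ∧
    (∀ r ≤ n ^ 8, ∀ c, vtri E c → II E (n ^ 8) r c ≤ 1 / 2) ∧
    (∀ r < n ^ 8, ∀ c, vtri E c → qq E (n ^ 8) r c ≤ 2 * qb D (n ^ 8) r ^ 2) := by
  have hy := hP.hy
  have hz : 1000 * y ^ 2 ≤ z := by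
    refine le_trans ?_ hP.big
    exact mul_le_mul (by norm_num) (pow_le_pow_right₀ (by linarith) (by norm_num)) (by positivity)
      (by positivity)
  have hyz : 1000 * y ≤ z := by nlinarith
  have hz1 : 1000 ≤ z := by linarith
  have hz0 : 0 < z := by linarith
  have hpow : ∀ k, 1000 * z ^ k ≤ z ^ (k + 1) := fun k => by
    rw [pow_succ']
    exact mul_le_mul_of_nonneg_right hz1 (by positivity)
  have hmono : ∀ {k l}, k ≤ l → z ^ k ≤ z ^ l := fun h => pow_le_pow_right₀ (by linarith) h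
  have hτ : Real.log n ≤ y := by nlinarith [hP.one_le_log, hP.log_le]
  have hn : z ^ 20 ≤ n := by
    rw [hP.hn]
    exact hmono (by norm_num)
  have hn1 : (1 : ℝ) ≤ n := (one_le_pow₀ (by linarith)).trans hn
  obtain ⟨L, hL⟩ : ∃ L, L = n ^ 8 := ⟨_, rfl⟩
  have hLz : z ^ 20 ≤ L := by
    rw [hL, Nat.cast_pow]
    exact hn.trans (le_self_pow₀ hn1 (by norm_num))
  rw [← hL]
  have hz8 : 1000 ≤ z ^ 8 := hz1.trans (le_self_pow₀ (by linarith) (by norm_num))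
  have hD : 2 ≤ D := by linarith
  have hD0 : 0 < D := by linarith
  have hL0 : (0 : ℝ) < L := lt_of_lt_of_le (by positivity) hLz
  obtain ⟨hq, -, hq2, hq3⟩ := qb_facts D L hD (by
    have h1 : D ^ 2 ≤ z ^ 16 := (pow_le_pow_left₀ hD0.le hD2 2).trans_eq (by ring)
    have h2 := hpow 16
    have h3 : z ^ (16 + 1) ≤ z ^ 20 := hmono (by norm_num)
    have h4 : 0 ≤ z ^ 16 := by positivity
    linarith)
  obtain ⟨β, hβ⟩ : ∃ β, β = 1 / z := ⟨_, rfl⟩
  have hβ0 : 0 < β := by rw [hβ]; positivity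
  have hβ1 : β ≤ 1 / 10 := by
    rw [hβ]
    exact one_div_le_one_div_of_le (by norm_num) (by linarith)
  have hβ2 : β ^ 2 = 1 / z ^ 2 := by rw [hβ, one_div_pow]
  rw [← hβ2] at hA
  rw [← hβ]
  have hh0 : ∀ s, 0 ≤ D * qb D L s ^ 2 / L := fun s => by positivity
  have hh : ∀ s, D * qb D L s ^ 2 / L ≤ β ^ 2 := fun s => by
    rw [hβ2, div_le_div_iff₀ hL0 (by positivity), one_mul]
    have h1 : D * qb D L s ^ 2 ≤ z ^ 8 :=
      (mul_le_of_le_one_right hD0.le (pow_le_one₀ (hq s).1.le (hq s).2)).trans hD2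
    calc D * qb D L s ^ 2 * z ^ 2 ≤ z ^ 8 * z ^ 2 := mul_le_mul_of_nonneg_right h1 (by positivity)
      _ = z ^ 10 := by ring
      _ ≤ L := (hmono (by norm_num)).trans hLz
  have hsum : ∀ r ≤ L, ∑ s ∈ range r, D * qb D L s ^ 2 / L ≤ Real.log n := fun r hr => by
    refine (sum_le_sum_of_subset_of_nonneg (range_mono hr) fun s _ _ => hh0 s).trans ?_
    rw [Real.le_log_iff_exp_le (by linarith)]
    have h1 : 1 / qb D L L ≤ 1 / qb D L L ^ 2 :=
      one_div_le_one_div_of_le (pow_pos (hq L).1 2) (by nlinarith [(hq L).1, (hq L).2])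
    have h2 := hpow 8
    have h3 : z ^ (8 + 1) ≤ z ^ 20 := hmono (by norm_num)
    linarith
  have hι : 2 / D * Real.log n ≤ β ^ 2 / 6 := by
    rw [hβ2, div_mul_eq_mul_div, div_div, div_le_div_iff₀ hD0 (by positivity), one_mul]
    have h1 : Real.log n * z ^ 2 ≤ z * z ^ 2 :=
      mul_le_mul_of_nonneg_right (by linarith) (by positivity)
    have h2 := hpow 3
    have h3 : z ^ (3 + 1) ≤ z ^ 8 := hmono (by norm_num)
    have h4 : 0 ≤ z ^ 3 := by positivity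
    nlinarith
  have hμ : 50 * β ^ 2 * Real.log n * y + 2 / z ^ 4 ≤ β := by
    have h1 : 50 * β ^ 2 * Real.log n * y ≤ β / 2 := by
      have h2 : Real.log n * y ≤ y ^ 2 := by nlinarith
      have h3 : β * z = 1 := by rw [hβ]; field_simp
      have h4 : β * (1000 * y ^ 2) ≤ β * z := mul_le_mul_of_nonneg_left hz hβ0.le
      have h5 : β * (Real.log n * y) ≤ β * y ^ 2 := mul_le_mul_of_nonneg_left h2 hβ0.le
      have h6 : β * (β * (Real.log n * y)) ≤ β * (1 / 1000) :=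
        mul_le_mul_of_nonneg_left (by linarith) hβ0.le
      nlinarith
    have h2 : 2 / z ^ 4 ≤ β / 2 := by
      rw [hβ, div_div, div_le_div_iff₀ (by positivity) (by positivity)]
      have h2 := hpow 1
      have h3 : z ^ (1 + 1) ≤ z ^ 4 := hmono (by norm_num)
      rw [pow_one] at h2
      linarith
    linarith
  have hY0 : ∀ u v, cavityY E D L 0 u v = 0 := fun u v => by simp [cavityY, qq, II, qb]
  have key : ∀ r ≤ L, cavityInv E D β L r := by
    intro r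
    induction r using Nat.strong_induction_on with
    | _ r ih =>
      intro hr
      have hI : ∀ s < r, cavityInv E D β L s := fun s hs => ih s hs (by omega)
      refine ⟨fun u v huv => le_trans (lin_par hP r (fun _ => E) (fun _ => D)
        (fun s => D * qb D L s ^ 2 / L) (cavityY E D L) (50 * β ^ 2 * Real.log n)
        (mul_nonneg (by positivity) (by linarith [hP.one_le_log])) (fun _ _ => Subset.refl _)
        (fun s _ => hh0 s) (fun s _ => (hh s).trans (by nlinarith)) (hsum r hr) (fun _ _ => hD0)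
        (fun _ _ u v h => ?_) (fun _ _ => hG) (fun s hs u v h => ((hI s hs).1 u v h).trans
          (by linarith)) (fun i hi u v h => ?_) u v huv) hμ, fun c hc => ?_⟩
      · have h1 := (abs_le.1 (hA u v h)).2
        have h2 : β ^ 2 ≤ 1 := by nlinarith
        nlinarith
      · refine le_trans ?_ (mul_le_mul_of_nonneg_left (hsum i (hi.trans hr)) (by positivity))
        have e : cavityY E D L i u v + ∑ j ∈ range i, D * qb D L j ^ 2 / L *
            Aop E D (cavityY E D L j) u v = ∑ j ∈ range i, (cavityY E D L (j + 1) u v -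
              cavityY E D L j u v + D * qb D L j ^ 2 / L * Aop E D (cavityY E D L j) u v) := by
          rw [sum_add_distrib, sum_range_sub (fun j => cavityY E D L j u v), hY0, sub_zero]
        rw [e, mul_sum]
        exact (abs_sum_le_sum_abs _ _).trans (sum_le_sum fun j hj => cavity_rec hβ0.le hβ1
          (by linarith) (hq j).1 (hh j) hA (hI j ((mem_range.1 hj).trans_le hi)) h)
      · have h1 := fun s (hs : s ∈ range r) =>
          cavity_qq_le hβ0.le hβ1 (hq s).1 (hI s (mem_range.1 hs)) hc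
        rw [cavity_II]
        refine ⟨sum_nonneg fun s hs => div_nonneg (h1 s hs).1 hL0.le, le_trans ?_
          ((mul_le_mul_of_nonneg_left (hsum r hr) (by positivity)).trans hι)⟩
        rw [mul_sum]
        refine sum_le_sum fun s hs => (div_le_div_of_nonneg_right (h1 s hs).2 hL0.le).trans
          (le_of_eq ?_)
        field_simp
  refine ⟨fun r hr u v h => ?_, fun r hr c hc => ((key r hr).2 c hc).2.trans (by nlinarith),
    fun r hr c hc => (cavity_qq_le hβ0.le hβ1 (hq r).1 (key r hr.le) hc).2⟩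
  have h1 := (key r hr).1 u v h
  unfold cavityY at h1
  rwa [div_sub_one (hq r).1.ne', abs_div, abs_of_pos (hq r).1, div_le_iff₀ (hq r).1] at h1

end Crest.Agent.R30
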