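import Crest.Agent.R30.CountA

set_option autoImplicit false
set_option linter.unusedVariables false
set_option linter.unusedSectionVars false
open Finset Crest.CombinatoricsR.TriangleRemoval

namespace Crest.Agent.R30

/-! # Counting collisions -/

variable {n : ℕ}

/-- Pair collisions with depths `j`, `j'` below `c₀`. -/
noncomputable def fA (E : Gr n) (j j' : ℕ) (c₀ : Node n) : ℝ :=
  ∑ c₁ ∈ ch E c₀, ∑ c₂ ∈ (ch E c₀).erase c₁, desc E (fun d' => desc E (dk (key d')) j' c₂) j c₁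

/-- Self collisions with depth `j + 1` below `c₀`. -/
noncomputable def fB (E : Gr n) (j : ℕ) (c₀ : Node n) : ℝ :=
  ∑ c₁ ∈ ch E c₀, desc E (dk (key c₁)) (j + 1) c₁

theorem desc_add (E : Gr n) (f g : Node n → ℝ) (i : ℕ) (c : Node n) :
    desc E (fun c₀ => f c₀ + g c₀) i c = desc E f i c + desc E g i c := by
  induction i generalizing c with
  | zero => rfl
  | succ i ih => simp only [desc, ih, sum_add_distrib]

theorem desc_sum {ι : Type} (E : Gr n) (s : Finset ι) (f : ι → Node n → ℝ) (i : ℕ) (c : Node n) :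
    desc E (fun c₀ => ∑ j ∈ s, f j c₀) i c = ∑ j ∈ s, desc E (f j) i c := by
  induction i generalizing c with
  | zero => rfl
  | succ i ih => simp only [desc, ih]; rw [sum_comm]

theorem sum_desc_dk (E : Gr n) (g : Finset (Fin n) → ℝ) (j : ℕ) (c : Node n) :
    ∑ k, desc E (dk k) j c * g k = desc E (fun d => g (key d)) j c := by
  induction j generalizing c with
  | zero => exact sum_dk_mul c g
  | succ j ih => simp only [desc, sum_mul]; rw [sum_comm]; exact sum_congr rfl (fun c' _ => ih c')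

theorem XX_eq (E : Gr n) (lam : ℝ) (W : ℕ) (c : Node n) :
    XX E lam W c = (∑ j ∈ range (W + 1), ∑ j' ∈ range (W + 1),
      (1 / (lam ^ j * lam ^ j')) * fA E j j' c) +
      ∑ j ∈ range W, (1 / lam ^ (j + 1)) * fB E j c := by
  unfold XX fA fB
  congr 1
  · have : ∀ c₁ c₂ : Node n, ∑ k : Finset (Fin n), nu0 E lam W (dk k) c₁ * nu0 E lam W (dk k) c₂ =
        ∑ j ∈ range (W + 1), ∑ j' ∈ range (W + 1), (1 / (lam ^ j * lam ^ j')) *
          desc E (fun d' => desc E (dk (key d')) j' c₂) j c₁ := by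
      intro c₁ c₂
      simp only [nu0, sum_mul_sum]
      rw [sum_comm]
      refine sum_congr rfl (fun j _ => ?_)
      rw [sum_comm]
      refine sum_congr rfl (fun j' _ => ?_)
      rw [← sum_desc_dk E (fun k => desc E (dk k) j' c₂), mul_sum]
      exact sum_congr rfl (fun k _ => by ring)
    simp only [this, mul_sum]
    rw [sum_congr rfl (fun c₁ _ => sum_comm), sum_comm]
    refine sum_congr rfl (fun j _ => ?_)
    rw [sum_congr rfl (fun c₁ _ => sum_comm), sum_comm]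
  · simp only [nu1, mul_sum]
    rw [sum_comm]
    exact sum_congr rfl (fun j _ => sum_congr rfl (fun c₁ _ => by ring))

/-- Sum over the root edges. -/
noncomputable def rootSum (E : Gr n) (f : Node n → ℝ) (i : ℕ) : ℝ :=
  ∑ u, ∑ v ∈ nb E u, desc E f i (u, u, v)

theorem Col_eq (E : Gr n) (lam : ℝ) (W : ℕ) :
    Col E lam W = (∑ i ∈ range (W + 1), ∑ j ∈ range (W + 1), ∑ j' ∈ range (W + 1),
      (1 / lam ^ (i + j + j')) * rootSum E (fA E j j') i) +
      ∑ i ∈ range (W + 1), ∑ j ∈ range W, (1 / lam ^ (i + j + 1)) * rootSum E (fB E j) i := by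
  have : ∀ c, nu0 E lam W (XX E lam W) c =
      (∑ i ∈ range (W + 1), ∑ j ∈ range (W + 1), ∑ j' ∈ range (W + 1),
        (1 / lam ^ (i + j + j')) * desc E (fA E j j') i c) +
      ∑ i ∈ range (W + 1), ∑ j ∈ range W, (1 / lam ^ (i + j + 1)) * desc E (fB E j) i c := by
    intro c
    have e : XX E lam W = fun c => _ := funext (XX_eq E lam W)
    rw [nu0, e, ← sum_add_distrib]
    refine sum_congr rfl (fun i _ => ?_)
    simp only [desc_add, desc_sum, desc_mul, add_div, sum_div]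
    congr 1
    · exact sum_congr rfl (fun j _ => sum_congr rfl (fun j' _ => by ring))
    · exact sum_congr rfl (fun j _ => by ring)
  simp only [Col, this, sum_add_distrib, rootSum, mul_sum]
  congr 1
  · rw [sum_congr rfl (fun u _ => sum_comm), sum_comm]
    refine sum_congr rfl (fun i _ => ?_)
    rw [sum_congr rfl (fun u _ => sum_comm), sum_comm]
    refine sum_congr rfl (fun j _ => ?_)
    rw [sum_congr rfl (fun u _ => sum_comm), sum_comm]
  · rw [sum_congr rfl (fun u _ => sum_comm), sum_comm]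
    refine sum_congr rfl (fun i _ => ?_)
    rw [sum_congr rfl (fun u _ => sum_comm), sum_comm]

/-! ### Deterministic bounds -/

section det
variable {E : Gr n} {D : ℝ} (hD : 1 ≤ D)
  (hcod : ∀ u v, adj E u v → ((cn E u v).card : ℝ) ≤ 2 * D)
include hD hcod

theorem Count_card_ch {c : Node n} (h1 : adj E c.1 c.2.2) (h2 : adj E c.2.1 c.2.2) :
    ((ch E c).card : ℝ) ≤ 4 * D := by
  have hsub : ch E c ⊆ (cn E c.1 c.2.2).image (fun x => (c.1, c.2.2, x)) ∪
      (cn E c.2.1 c.2.2).image (fun x => (c.2.1, c.2.2, x)) := by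
    rintro ⟨x, w, w'⟩ hc
    obtain ⟨e1, e2, -, -, g1, g2⟩ := mem_ch.1 hc
    simp only at e1 e2 g1 g2
    subst e1
    rcases e2 with rfl | rfl
    · exact mem_union_left _ (mem_image.2 ⟨w', mem_cn.2 ⟨g1, g2⟩, rfl⟩)
    · exact mem_union_right _ (mem_image.2 ⟨w', mem_cn.2 ⟨g1, g2⟩, rfl⟩)
  have h3 := (card_le_card hsub).trans ((card_union_le _ _).trans
    (add_le_add card_image_le card_image_le))
  have h4 : ((ch E c).card : ℝ) ≤ (cn E c.1 c.2.2).card + (cn E c.2.1 c.2.2).card := by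
    exact_mod_cast h3
  linarith [hcod _ _ h1, hcod _ _ h2]

theorem Count_sum_le {c : Node n} (h1 : adj E c.1 c.2.2) (h2 : adj E c.2.1 c.2.2)
    (C : Finset (Node n)) (hC : C ⊆ ch E c) (f : Node n → ℝ) (B : ℝ) (hB : 0 ≤ B)
    (hf : ∀ c', adj E c'.1 c'.2.2 → adj E c'.2.1 c'.2.2 → f c' ≤ B) :
    ∑ c' ∈ C, f c' ≤ 4 * D * B := by
  have := sum_le_card_nsmul C f B (fun c' hc' => hf c' (mem_ch.1 (hC hc')).2.2.2.2.1
    (mem_ch.1 (hC hc')).2.2.2.2.2)
  rw [nsmul_eq_mul] at this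
  refine this.trans (mul_le_mul_of_nonneg_right (le_trans ?_ (Count_card_ch hD hcod h1 h2)) hB)
  exact_mod_cast card_le_card hC

theorem Count_desc_le (f : Node n → ℝ) (B : ℝ) (hB : 0 ≤ B)
    (hf : ∀ c', adj E c'.1 c'.2.2 → adj E c'.2.1 c'.2.2 → f c' ≤ B) (i : ℕ) :
    ∀ c, adj E c.1 c.2.2 → adj E c.2.1 c.2.2 → desc E f i c ≤ (4 * D) ^ i * B := by
  induction i with
  | zero => intro c h1 h2; simpa [desc] using hf c h1 h2
  | succ i ih =>
    intro c h1 h2
    refine (Count_sum_le hD hcod h1 h2 _ Subset.rfl _ _ (by positivity) ih).trans (le_of_eq ?_)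
    ring

theorem Count_root_le (f : Node n → ℝ) (B : ℝ) (hB : 0 ≤ B)
    (hf : ∀ c', adj E c'.1 c'.2.2 → adj E c'.2.1 c'.2.2 → f c' ≤ B) (i : ℕ) :
    rootSum E f i ≤ (n : ℝ) ^ 2 * ((4 * D) ^ i * B) := by
  have h1 : ∀ u, ∑ v ∈ nb E u, desc E f i (u, u, v) ≤ n * ((4 * D) ^ i * B) := by
    intro u
    have := sum_le_card_nsmul (nb E u) (fun v => desc E f i (u, u, v)) _
      (fun v hv => Count_desc_le hD hcod f B hB hf i (u, u, v) (mem_nb.1 hv) (mem_nb.1 hv))
    rw [nsmul_eq_mul] at this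
    refine this.trans (mul_le_mul_of_nonneg_right ?_ (by positivity))
    exact_mod_cast (card_le_univ _).trans (by simp)
  refine (sum_le_sum (fun u _ => h1 u)).trans (le_of_eq ?_)
  simp; ring

theorem fA_le (j j' : ℕ) (c : Node n) (h1 : adj E c.1 c.2.2) (h2 : adj E c.2.1 c.2.2) :
    fA E j j' c ≤ (4 * D) ^ (j + j' + 2) := by
  have : ∀ c₁, adj E c₁.1 c₁.2.2 → adj E c₁.2.1 c₁.2.2 → ∑ c₂ ∈ (ch E c).erase c₁,
      desc E (fun d' => desc E (dk (key d')) j' c₂) j c₁ ≤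
      4 * D * ((4 * D) ^ j * ((4 * D) ^ j' * 1)) := fun c₁ g1 g2 =>
    Count_sum_le hD hcod h1 h2 _ (erase_subset _ _) _ _ (by positivity) (fun c₂ k1 k2 =>
      Count_desc_le hD hcod _ _ (by positivity) (fun d' _ _ =>
        Count_desc_le hD hcod _ 1 zero_le_one (fun _ _ _ => ind_le_one _) j' c₂ k1 k2) j c₁ g1 g2)
  refine (Count_sum_le hD hcod h1 h2 _ Subset.rfl _ _ (by positivity) this).trans (le_of_eq ?_)
  ring

theorem fB_le (j : ℕ) (c : Node n) (h1 : adj E c.1 c.2.2) (h2 : adj E c.2.1 c.2.2) :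
    fB E j c ≤ (4 * D) ^ (j + 2) := by
  refine (Count_sum_le hD hcod h1 h2 _ Subset.rfl _ _ (by positivity) (fun c₁ k1 k2 =>
    Count_desc_le hD hcod _ 1 zero_le_one (fun _ _ _ => ind_le_one _) (j + 1) c₁ k1 k2)).trans
    (le_of_eq ?_)
  ring

end det

/-! ### The averaged bounds -/

/-- The root state. -/
def rootSt (u v : Fin n) : St n := ⟨{u, v}, {s(u, v)}, True⟩

theorem root_base {u v : Fin n} (h : u ≠ v) {R i : ℕ} (hi : i ≤ R + 2) :
    (rootSt u v).Base R i (u, u, v) := by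
  refine ⟨?_, ?_, ⟨h, h⟩, ?_, ?_, ?_⟩
  · intro x hx; rcases mem_key.1 hx with rfl | rfl | rfl <;> simp [rootSt]
  · intro x y hxy
    simp only [rootSt, mem_singleton, Sym2.eq_iff] at hxy
    rcases hxy with ⟨_, rfl⟩ | ⟨_, rfl⟩ <;> simp [rootSt]
  · intro _ x hx
    simp only [rootSt, mem_singleton, Sym2.eq_iff] at hx
    rcases hx with ⟨e, _⟩ | ⟨_, e⟩
    · exact Or.inl e
    · exact absurd e.symm h
  · have : (rootSt u v).V.card ≤ 2 := card_le_two
    omega
  · have : (rootSt u v).S.card = 1 := card_singleton _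
    omega

theorem Phi_root (w : Gr n → ℝ) (f : Gr n → Node n → ℝ) (i m : ℕ) {P B : ℝ} (hP : 0 ≤ P)
    (hB : 0 ≤ B)
    (h : ∀ u v, u ≠ v → ∑ E, w E * (ind ((rootSt u v).S ⊆ E) * desc E (f E) i (u, u, v)) ≤
      B * psi P m (rootSt u v)) :
    ∑ E, w E * rootSum E (f E) i ≤ (n : ℝ) ^ 2 * (B * (P ^ 2 * m)) := by
  have e : ∑ E, w E * rootSum E (f E) i = ∑ u, ∑ v, ind (u ≠ v) *
      ∑ E, w E * (ind ((rootSt u v).S ⊆ E) * desc E (f E) i (u, u, v)) := by
    simp only [rootSum, mul_sum, nb, sum_filter]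
    rw [sum_comm]
    refine sum_congr rfl (fun u _ => ?_)
    rw [sum_comm]
    refine sum_congr rfl (fun v _ => sum_congr rfl (fun E _ => ?_))
    have : ind (u ≠ v) * ind ((rootSt u v).S ⊆ E) = ind (adj E u v) := by
      rw [← ind_and]; exact ind_congr (by simp [rootSt, adj])
    split_ifs with h'
    · rw [ind_pos h'] at this
      linear_combination (-(w E * desc E (f E) i (u, u, v))) * this
    · rw [ind_neg h'] at this
      linear_combination (-(w E * desc E (f E) i (u, u, v))) * this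
  rw [e]
  have h1 : ∀ u v : Fin n, ind (u ≠ v) *
      ∑ E, w E * (ind ((rootSt u v).S ⊆ E) * desc E (f E) i (u, u, v)) ≤ B * (P ^ 2 * m) := by
    intro u v
    by_cases huv : u ≠ v
    · rw [ind_pos huv, one_mul]
      refine (h u v huv).trans (le_of_eq ?_)
      simp only [psi, rootSt, card_singleton, not_true_eq_false, ind_neg not_false]
      ring
    · rw [ind_neg huv, zero_mul]; positivity
  refine (sum_le_sum (fun u _ => sum_le_sum (fun v _ => h1 u v))).trans (le_of_eq ?_)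
  simp; ring

theorem Count_term (w : Gr n → ℝ) (hw : ∀ E, 0 ≤ w E) (hw1 : ∑ E, w E ≤ 1) {D P : ℝ} {R : ℕ}
    (hD : 1 ≤ D) (hP0 : 0 ≤ P) (g : Gr n → ℝ) (k e : ℕ) (he : e ≤ 2)
    (h1 : k ≤ R → ∑ E, w E * g E ≤ (n : ℝ) ^ 2 * ((10 * D) ^ (k + e) * (P ^ 2 * (k + e : ℕ))))
    (h2 : ∀ E, w E ≠ 0 → g E ≤ (n : ℝ) ^ 2 * (4 * D) ^ (k + e)) :
    (1 / (20 * D) ^ k) * ∑ E, w E * g E ≤
      100 * D ^ 2 * (n : ℝ) ^ 2 * (P ^ 2 * (R + 3) + 1 / 2 ^ R) * (1 / 2) ^ k := by
  have hD0 : 0 < D := by linarith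
  by_cases hk : k ≤ R
  · have a1 : (10 * D) ^ e ≤ (10 * D) ^ 2 := pow_le_pow_right₀ (by linarith) he
    have a2 : ((k + e : ℕ) : ℝ) ≤ R + 3 := by exact_mod_cast (by omega : k + e ≤ R + 3)
    calc _ ≤ (1 / (20 * D) ^ k) * ((n : ℝ) ^ 2 * ((10 * D) ^ (k + e) * (P ^ 2 * (k + e : ℕ)))) :=
          mul_le_mul_of_nonneg_left (h1 hk) (by positivity)
      _ = (10 * D) ^ e * (n : ℝ) ^ 2 * (P ^ 2 * (k + e : ℕ)) * (1 / 2) ^ k := by
          have : (20 * D) ^ k = 2 ^ k * (10 * D) ^ k := by rw [← mul_pow]; ring_nf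
          rw [this, pow_add, one_div_pow]; field_simp
      _ ≤ (10 * D) ^ 2 * (n : ℝ) ^ 2 * (P ^ 2 * (R + 3) + 1 / 2 ^ R) * (1 / 2) ^ k := by
          gcongr
          have : (0 : ℝ) ≤ 1 / 2 ^ R := by positivity
          nlinarith [mul_le_mul_of_nonneg_left a2 (sq_nonneg P)]
      _ = _ := by ring
  · have a0 : ∑ E, w E * g E ≤ (n : ℝ) ^ 2 * (4 * D) ^ (k + e) := by
      calc ∑ E, w E * g E ≤ ∑ E, w E * ((n : ℝ) ^ 2 * (4 * D) ^ (k + e)) := by
            refine sum_le_sum (fun E _ => ?_)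
            by_cases h : w E = 0
            · simp [h]
            · exact mul_le_mul_of_nonneg_left (h2 E h) (hw E)
        _ ≤ _ := by
            rw [← sum_mul]
            exact mul_le_of_le_one_left (by positivity) hw1
    have a1 : (4 * D) ^ e ≤ (10 * D) ^ 2 :=
      (pow_le_pow_right₀ (by linarith) he).trans (by gcongr; norm_num)
    have a2 : ((1 : ℝ) / 5) ^ k ≤ 1 / 2 ^ R * (1 / 2) ^ k := by
      have : ((1 : ℝ) / 5) ^ k ≤ (1 / 2) ^ k * (1 / 2) ^ k := by
        rw [← mul_pow]; gcongr; norm_num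
      refine this.trans (mul_le_mul_of_nonneg_right ?_ (by positivity))
      rw [← one_div_pow]
      exact pow_le_pow_of_le_one (by norm_num) (by norm_num) (by omega)
    calc _ ≤ (1 / (20 * D) ^ k) * ((n : ℝ) ^ 2 * (4 * D) ^ (k + e)) :=
          mul_le_mul_of_nonneg_left a0 (by positivity)
      _ = (4 * D) ^ e * (n : ℝ) ^ 2 * (1 / 5) ^ k := by
          have : (20 * D) ^ k = 5 ^ k * (4 * D) ^ k := by rw [← mul_pow]; ring_nf
          rw [this, pow_add, one_div_pow]; field_simp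
      _ ≤ (10 * D) ^ 2 * (n : ℝ) ^ 2 * (1 / 2 ^ R * (1 / 2) ^ k) := by gcongr
      _ ≤ (10 * D) ^ 2 * (n : ℝ) ^ 2 * ((P ^ 2 * (R + 3) + 1 / 2 ^ R) * (1 / 2) ^ k) := by
          gcongr
          have : 0 ≤ P ^ 2 * (R + 3) := by positivity
          linarith
      _ = _ := by ring

theorem col_bound (w : Gr n → ℝ) (hw : ∀ E, 0 ≤ w E) (hw1 : ∑ E, w E ≤ 1) (D P : ℝ) (R W : ℕ)
    (hD : 1 ≤ D) (hP0 : 0 ≤ P) (hP1 : P ≤ 1)
    (hcod : ∀ E, w E ≠ 0 → ∀ u v, adj E u v → ((cn E u v).card : ℝ) ≤ 2 * D)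
    (hS : ∀ S : Gr n, S.card ≤ 2 * R + 7 → ∑ E, w E * ind (S ⊆ E) ≤ P ^ S.card)
    (hb : (n : ℝ) * P ^ 2 + R + 5 ≤ 5 * D) :
    ∑ E, w E * Col E (20 * D) W ≤
      10000 * D ^ 2 * (n : ℝ) ^ 2 * (P ^ 2 * (R + 3) + 1 / 2 ^ R) := by
  have hb' : 2 * ((n : ℝ) * P ^ 2 + R + 5) ≤ 10 * D := by linarith
  set Z := 100 * D ^ 2 * (n : ℝ) ^ 2 * (P ^ 2 * (R + 3) + 1 / 2 ^ R) with hZ
  have hZ0 : 0 ≤ Z := by positivity
  have hA : ∀ i j j', (1 / (20 * D) ^ (i + j + j')) * ∑ E, w E * rootSum E (fA E j j') i ≤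
      Z * (1 / 2) ^ (i + j + j') := by
    intro i j j'
    refine Count_term w hw hw1 hD hP0 _ (i + j + j') 2 le_rfl (fun hk => ?_) (fun E hE => ?_)
    · have e : i + j + j' + 2 = j' + j + 1 + 1 + i := by omega
      rw [e]
      exact Phi_root w (fun E => fA E j j') i _ hP0 (by positivity) (fun u v huv =>
        pair_bound w hw hP0 hP1 hb' hS j j' i _ _ (root_base huv (by omega)))
    · refine (Count_root_le hD (hcod E hE) _ _ (by positivity)
        (fA_le hD (hcod E hE) j j') i).trans (le_of_eq ?_)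
      ring
  have hB : ∀ i j, (1 / (20 * D) ^ (i + j + 1)) * ∑ E, w E * rootSum E (fB E j) i ≤
      Z * (1 / 2) ^ (i + j + 1) := by
    intro i j
    refine Count_term w hw hw1 hD hP0 _ (i + j + 1) 1 (by norm_num) (fun hk => ?_) (fun E hE => ?_)
    · have e : i + j + 1 + 1 = j + 1 + 1 + i := by omega
      rw [e]
      exact Phi_root w (fun E => fB E j) i _ hP0 (by positivity) (fun u v huv =>
        self_bound w hw hP0 hP1 hb' hS j i _ _ (root_base huv (by omega)))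
    · refine (Count_root_le hD (hcod E hE) _ _ (by positivity)
        (fB_le hD (hcod E hE) j) i).trans (le_of_eq ?_)
      ring
  have e : ∑ E, w E * Col E (20 * D) W =
      (∑ i ∈ range (W + 1), ∑ j ∈ range (W + 1), ∑ j' ∈ range (W + 1),
        (1 / (20 * D) ^ (i + j + j')) * ∑ E, w E * rootSum E (fA E j j') i) +
      ∑ i ∈ range (W + 1), ∑ j ∈ range W,
        (1 / (20 * D) ^ (i + j + 1)) * ∑ E, w E * rootSum E (fB E j) i := by
    simp only [Col_eq, mul_add, sum_add_distrib, mul_sum]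
    congr 1
    · rw [sum_comm]
      refine sum_congr rfl (fun i _ => ?_)
      rw [sum_comm]
      refine sum_congr rfl (fun j _ => ?_)
      rw [sum_comm]
      exact sum_congr rfl (fun j' _ => sum_congr rfl (fun E _ => by ring))
    · rw [sum_comm]
      refine sum_congr rfl (fun i _ => ?_)
      rw [sum_comm]
      exact sum_congr rfl (fun j _ => sum_congr rfl (fun E _ => by ring))
  have g : ∀ N, ∑ i ∈ range N, ((1 : ℝ) / 2) ^ i ≤ 2 := sum_geometric_two_le
  have g0 : ∀ N, 0 ≤ ∑ i ∈ range N, ((1 : ℝ) / 2) ^ i := fun N => by positivity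
  have s1 : ∑ i ∈ range (W + 1), ∑ j ∈ range (W + 1), ∑ j' ∈ range (W + 1),
      Z * ((1 : ℝ) / 2) ^ (i + j + j') ≤ Z * 8 := by
    simp only [pow_add, ← mul_sum, ← sum_mul]
    refine mul_le_mul_of_nonneg_left ?_ hZ0
    have := g (W + 1); have := g0 (W + 1)
    calc _ ≤ (2 : ℝ) * 2 * 2 := by gcongr
      _ = 8 := by norm_num
  have s2 : ∑ i ∈ range (W + 1), ∑ j ∈ range W, Z * ((1 : ℝ) / 2) ^ (i + j + 1) ≤ Z * 8 := by
    simp only [pow_add, ← mul_sum, ← sum_mul]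
    refine mul_le_mul_of_nonneg_left ?_ hZ0
    have := g (W + 1); have := g0 (W + 1); have := g W; have := g0 W
    calc _ ≤ (2 : ℝ) * 2 * (1 / 2) ^ 1 := by gcongr
      _ ≤ 8 := by norm_num
  rw [e]
  have t1 := sum_le_sum (s := range (W + 1)) (fun i _ => sum_le_sum (s := range (W + 1))
    (fun j _ => sum_le_sum (s := range (W + 1)) (fun j' _ => hA i j j')))
  have t2 := sum_le_sum (s := range (W + 1)) (fun i _ => sum_le_sum (s := range W)
    (fun j _ => hB i j))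
  have : 10000 * D ^ 2 * (n : ℝ) ^ 2 * (P ^ 2 * (R + 3) + 1 / 2 ^ R) = 100 * Z := by
    rw [hZ]; ring
  rw [this]
  linarith

end Crest.Agent.R30
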