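import Crest.Agent.R30.ExpB

set_option autoImplicit false
set_option linter.unusedVariables false
set_option linter.unusedSectionVars false
open Finset Crest.CombinatoricsR.TriangleRemoval

namespace Crest.Agent.R30

/-! # Counting collisions: the potential argument in the complete graph -/

variable {n : ℕ}

/-- The two edges that a node adds. -/
def ed (c : Node n) : Gr n := {s(c.1, c.2.2), s(c.2.1, c.2.2)}

/-- State of a partial structure: vertices, edges, "all apexes so far were new". -/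
structure St (n : ℕ) where
  V : Finset (Fin n)
  S : Gr n
  T : Prop

def St.add (σ : St n) (c : Node n) : St n :=
  ⟨insert c.2.2 σ.V, σ.S ∪ ed c, σ.T ∧ c.2.2 ∉ σ.V⟩

noncomputable def psi (P : ℝ) (m : ℕ) (σ : St n) : ℝ := P ^ σ.S.card * (ind (¬ σ.T) + m * P)

def St.Cl (σ : St n) : Prop := ∀ x y, s(x, y) ∈ σ.S → y ∈ σ.V

def Nd (c : Node n) : Prop := c.1 ≠ c.2.2 ∧ c.2.1 ≠ c.2.2

def St.Lf (σ : St n) (c : Node n) : Prop := σ.T → ∀ x, s(x, c.2.2) ∈ σ.S → x = c.1 ∨ x = c.2.1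

def St.Base (R i : ℕ) (σ : St n) (c : Node n) : Prop :=
  key c ⊆ σ.V ∧ σ.Cl ∧ Nd c ∧ σ.Lf c ∧ σ.V.card + i ≤ R + 5 ∧ σ.S.card + 2 * i ≤ 2 * R + 7

theorem adj_all {u v : Fin n} : adj (allEdges n) u v ↔ u ≠ v := by
  simp [adj, allEdges]

theorem mem_chK {c c' : Node n} : c' ∈ ch (allEdges n) c ↔
    c'.2.1 = c.2.2 ∧ (c'.1 = c.1 ∨ c'.1 = c.2.1) ∧ c'.2.2 ≠ c.1 ∧
    c'.2.2 ≠ c.2.1 ∧ c'.1 ≠ c'.2.2 ∧ c'.2.1 ≠ c'.2.2 := by
  rw [mem_ch, adj_all, adj_all]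

theorem mem_ch_iff {E : Gr n} {c c' : Node n} :
    c' ∈ ch E c ↔ c' ∈ ch (allEdges n) c ∧ ed c' ⊆ E := by
  rw [mem_chK, mem_ch]
  simp only [adj, ed, insert_subset_iff, singleton_subset_iff]
  tauto

theorem mem_key {c : Node n} {x : Fin n} : x ∈ key c ↔ x = c.1 ∨ x = c.2.1 ∨ x = c.2.2 := by
  simp [key]

theorem mem_ed {c : Node n} {x y : Fin n} (h : s(x, y) ∈ ed c) :
    (x = c.1 ∧ y = c.2.2) ∨ (x = c.2.2 ∧ y = c.1) ∨ (x = c.2.1 ∧ y = c.2.2) ∨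
      (x = c.2.2 ∧ y = c.2.1) := by
  simp only [ed, mem_insert, mem_singleton, Sym2.eq_iff] at h
  tauto

theorem card_ed_le (c : Node n) : (ed c).card ≤ 2 := card_le_two

theorem psi_nonneg {P : ℝ} (hP : 0 ≤ P) (m : ℕ) (σ : St n) : 0 ≤ psi P m σ :=
  mul_nonneg (pow_nonneg hP _) (add_nonneg (ind_nonneg _) (mul_nonneg (Nat.cast_nonneg _) hP))

theorem St.cl_add {σ : St n} {c : Node n} (h : σ.Cl) (h1 : c.1 ∈ σ.V) (h2 : c.2.1 ∈ σ.V) :
    (σ.add c).Cl := by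
  intro x y hxy
  rcases mem_union.1 hxy with h' | h'
  · exact mem_insert_of_mem (h x y h')
  · rcases mem_ed h' with ⟨_, rfl⟩ | ⟨_, rfl⟩ | ⟨_, rfl⟩ | ⟨_, rfl⟩
    · exact mem_insert_self _ _
    · exact mem_insert_of_mem h1
    · exact mem_insert_self _ _
    · exact mem_insert_of_mem h2

theorem St.lf_add {σ : St n} {c : Node n} (h : σ.Cl) : (σ.add c).Lf c := by
  rintro ⟨_, hT⟩ x hx
  rcases mem_union.1 hx with h' | h'
  · exact absurd (h _ _ h') hT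
  · rcases mem_ed h' with ⟨e, _⟩ | ⟨e, e'⟩ | ⟨e, _⟩ | ⟨e, e'⟩
    · exact Or.inl e
    · exact Or.inl (e.trans e')
    · exact Or.inr e
    · exact Or.inr (e.trans e')

theorem St.lf_keep {σ : St n} {c d : Node n} (h : σ.Lf c) (hd : (σ.add d).T → c.2.2 ∉ key d) :
    (σ.add d).Lf c := by
  intro hT x hx
  rcases mem_union.1 hx with h' | h'
  · exact h hT.1 x h'
  · exfalso
    apply hd hT
    rw [mem_key]
    rcases mem_ed h' with ⟨_, e⟩ | ⟨_, e⟩ | ⟨_, e⟩ | ⟨_, e⟩ <;> simp [e]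

theorem ch_base {σ : St n} {c c' : Node n} (hk : key c ⊆ σ.V) (hc : c' ∈ ch (allEdges n) c) :
    c'.1 ∈ σ.V ∧ c'.2.1 ∈ σ.V ∧ c'.1 ∈ key c ∧ c'.2.1 ∈ key c ∧ Nd c' := by
  obtain ⟨e1, e2, -, -, g1, g2⟩ := mem_chK.1 hc
  have a1 : c'.1 ∈ key c := by rw [mem_key]; tauto
  have a2 : c'.2.1 ∈ key c := by rw [mem_key]; tauto
  exact ⟨hk a1, hk a2, a1, a2, g1, g2⟩

theorem key_add {σ : St n} {c : Node n} (h1 : c.1 ∈ σ.V) (h2 : c.2.1 ∈ σ.V) :
    key c ⊆ (σ.add c).V := by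
  intro x hx
  rcases mem_key.1 hx with rfl | rfl | rfl
  · exact mem_insert_of_mem h1
  · exact mem_insert_of_mem h2
  · exact mem_insert_self _ _

theorem size_add (σ : St n) (c : Node n) :
    (σ.add c).V.card ≤ σ.V.card + 1 ∧ (σ.add c).S.card ≤ σ.S.card + 2 :=
  ⟨card_insert_le _ _, (card_union_le _ _).trans (by have := card_ed_le c; omega)⟩

theorem St.base_add {R i : ℕ} {σ : St n} {c c' : Node n} (h : σ.Base R (i + 1) c)
    (hc : c' ∈ ch (allEdges n) c) : (σ.add c').Base R i c' := by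
  obtain ⟨hk, hcl, hnd, hlf, s1, s2⟩ := h
  obtain ⟨a1, a2, -, -, a5⟩ := ch_base hk hc
  have := size_add σ c'
  exact ⟨key_add a1 a2, St.cl_add hcl a1 a2, a5, St.lf_add hcl, by omega, by omega⟩

/-- One step of the potential argument. -/
theorem psi_step {P : ℝ} (hP0 : 0 ≤ P) (hP1 : P ≤ 1) (m : ℕ) (σ : St n) (c : Node n)
    (hnd : Nd c) (hcl : σ.Cl) (C : Finset (Node n)) (hC : C ⊆ ch (allEdges n) c)
    (hold : σ.T → ∀ c' ∈ C, ¬ ed c' ⊆ σ.S) :
    ∑ c' ∈ C, psi P m (σ.add c') ≤ 2 * ((n : ℝ) * P ^ 2 + σ.V.card) * psi P (m + 1) σ := by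
  have hψ := psi_nonneg hP0 (m + 1) σ
  have hcount : ∀ U : Finset (Fin n), (C.filter (fun c' => c'.2.2 ∈ U)).card ≤ 2 * U.card := by
    intro U
    have : (C.filter (fun c' => c'.2.2 ∈ U)).card ≤ (({c.1, c.2.1} : Finset (Fin n)) ×ˢ U).card := by
      refine card_le_card_of_injOn (fun c' => (c'.1, c'.2.2)) (fun c' hc' => ?_) ?_
      · have h1 := mem_filter.1 (mem_coe.1 hc')
        have h2 := mem_chK.1 (hC h1.1)
        simp only [coe_product, Set.mem_prod, mem_coe, mem_insert, mem_singleton]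
        exact ⟨h2.2.1, h1.2⟩
      · rintro ⟨x, w, w'⟩ h1 ⟨y, z, z'⟩ h2 e
        have e1 := (mem_chK.1 (hC (mem_filter.1 (mem_coe.1 h1)).1)).1
        have e2 := (mem_chK.1 (hC (mem_filter.1 (mem_coe.1 h2)).1)).1
        simp only [Prod.mk.injEq] at e e1 e2 ⊢
        exact ⟨e.1, e1.trans e2.symm, e.2⟩
    rw [card_product] at this
    exact this.trans (Nat.mul_le_mul_right _ card_le_two)
  have hnew : ∀ c' ∈ C.filter (fun c' => c'.2.2 ∈ σ.Vᶜ),
      psi P m (σ.add c') ≤ P ^ 2 * psi P (m + 1) σ := by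
    intro c' hc'
    obtain ⟨h1, h2⟩ := mem_filter.1 hc'
    rw [mem_compl] at h2
    obtain ⟨e1, e2, -, -, g1, g2⟩ := mem_chK.1 (hC h1)
    have hne : c'.1 ≠ c'.2.1 := by
      rw [e1]; rcases e2 with e | e <;> rw [e]
      · exact hnd.1
      · exact hnd.2
    have hcard : (σ.add c').S.card = σ.S.card + 2 := by
      show (σ.S ∪ ed c').card = _
      rw [card_union_of_disjoint, ed, card_pair]
      · intro e
        rcases Sym2.eq_iff.1 e with ⟨e, _⟩ | ⟨e, _⟩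
        · exact hne e
        · exact g1 e
      · rw [disjoint_right]
        intro e he hS
        simp only [ed, mem_insert, mem_singleton] at he
        rcases he with rfl | rfl <;> exact h2 (hcl _ _ hS)
    have hT : ind (¬ (σ.add c').T) = ind (¬ σ.T) :=
      ind_congr (not_congr ⟨fun h => h.1, fun h => ⟨h, h2⟩⟩)
    unfold psi
    rw [hcard, hT, pow_add]
    push_cast
    have := mul_nonneg (pow_nonneg hP0 σ.S.card) (mul_nonneg (sq_nonneg P) hP0)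
    nlinarith
  have holdc : ∀ c' ∈ C.filter (fun c' => c'.2.2 ∈ σ.V),
      psi P m (σ.add c') ≤ psi P (m + 1) σ := by
    intro c' hc'
    obtain ⟨h1, h2⟩ := mem_filter.1 hc'
    have hT : ind (¬ (σ.add c').T) = 1 := ind_pos (fun h => h.2 h2)
    have hm : (0 : ℝ) ≤ m := Nat.cast_nonneg _
    unfold psi
    rw [hT]
    push_cast
    by_cases hT' : σ.T
    · have hlt : σ.S.card + 1 ≤ (σ.add c').S.card := by
        refine card_lt_card ⟨subset_union_left, fun h => hold hT' c' h1 ?_⟩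
        exact subset_union_right.trans h
      have := pow_le_pow_of_le_one hP0 hP1 hlt
      rw [ind_neg (not_not.2 hT'), pow_succ] at *
      have p1 := pow_nonneg hP0 σ.S.card
      have p2 : 0 ≤ 1 + m * P := by positivity
      calc _ ≤ P ^ σ.S.card * P * (1 + m * P) := mul_le_mul_of_nonneg_right this p2
        _ ≤ _ := by
          have := mul_nonneg (mul_nonneg p1 hP0) (mul_nonneg hm (sub_nonneg.2 hP1))
          nlinarith
    · have hle : σ.S.card ≤ (σ.add c').S.card := card_le_card subset_union_left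
      have := pow_le_pow_of_le_one hP0 hP1 hle
      rw [ind_pos hT']
      exact mul_le_mul this (by nlinarith) (by positivity) (pow_nonneg hP0 _)
  rw [← sum_filter_add_sum_filter_not C (fun c' => c'.2.2 ∈ σ.V)]
  have e : C.filter (fun c' => ¬ c'.2.2 ∈ σ.V) = C.filter (fun c' => c'.2.2 ∈ σ.Vᶜ) :=
    filter_congr (fun c' _ => by rw [mem_compl])
  rw [e]
  have b1 := sum_le_card_nsmul _ _ _ holdc
  have b2 := sum_le_card_nsmul _ _ _ hnew
  rw [nsmul_eq_mul] at b1 b2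
  have c1 : ((C.filter (fun c' => c'.2.2 ∈ σ.V)).card : ℝ) ≤ 2 * σ.V.card := by
    exact_mod_cast hcount σ.V
  have c2 : ((C.filter (fun c' => c'.2.2 ∈ σ.Vᶜ)).card : ℝ) ≤ 2 * n := by
    have h1 := hcount σ.Vᶜ
    have h2 : σ.Vᶜ.card ≤ n := by simpa using card_le_univ σ.Vᶜ
    exact_mod_cast h1.trans (by omega)
  nlinarith [mul_le_mul_of_nonneg_right c1 hψ,
    mul_le_mul_of_nonneg_right c2 (mul_nonneg (sq_nonneg P) hψ)]

theorem hold_leaf {σ : St n} {c : Node n} (h : σ.Lf c) (hT : σ.T) :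
    ∀ c' ∈ ch (allEdges n) c, ¬ ed c' ⊆ σ.S := by
  intro c' hc' hs
  obtain ⟨e1, -, g1, g2, -, -⟩ := mem_chK.1 hc'
  have : s(c'.2.2, c.2.2) ∈ σ.S := by
    rw [← e1, Sym2.eq_swap]; exact hs (by simp [ed])
  rcases h hT _ this with e | e
  · exact g1 e
  · exact g2 e

theorem hold_second {σ : St n} {c c₁ : Node n} (hcl : σ.Cl) (hnd : Nd c) (h : σ.Lf c)
    (hc₁ : c₁ ∈ ch (allEdges n) c) (hT : (σ.add c₁).T) :
    ∀ c₂ ∈ (ch (allEdges n) c).erase c₁, ¬ ed c₂ ⊆ (σ.add c₁).S := by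
  rintro ⟨x₂, w₂, z₂⟩ hc₂ hs
  obtain ⟨x₁, w₁, z₁⟩ := c₁
  obtain ⟨a, b, w⟩ := c
  obtain ⟨hne, hc₂⟩ := mem_erase.1 hc₂
  obtain ⟨e1, e2, g1, g2, g3, g4⟩ := mem_chK.1 hc₂
  obtain ⟨f1, f2, k1, k2, k3, k4⟩ := mem_chK.1 hc₁
  obtain ⟨n1, n2⟩ := hnd
  simp only at e1 e2 g1 g2 g3 g4 f1 f2 k1 k2 k3 k4 n1 n2
  subst e1
  subst f1
  have x1w : x₁ ≠ w₁ := by rcases f2 with rfl | rfl <;> assumption
  have x2w : x₂ ≠ w₁ := by rcases e2 with rfl | rfl <;> assumption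
  have h1 : s(z₂, w₁) ∈ (σ.add (x₁, w₁, z₁)).S := by
    rw [Sym2.eq_swap]; exact hs (by simp [ed])
  have hz : z₂ = z₁ := by
    rcases mem_union.1 h1 with h' | h'
    · rcases h hT.1 _ h' with e | e
      · exact absurd e g1
      · exact absurd e g2
    · rcases mem_ed h' with ⟨_, e⟩ | ⟨e, _⟩ | ⟨_, e⟩ | ⟨e, _⟩
      · exact absurd e k4
      · exact e
      · exact absurd e k4
      · exact e
  subst hz
  have h2 : s(x₂, z₂) ∈ (σ.add (x₁, w₁, z₂)).S := hs (by simp [ed])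
  rcases St.lf_add (c := (x₁, w₁, z₂)) hcl hT _ h2 with e | e
  · simp only at e; subst e; exact hne rfl
  · exact x2w e

/-! ### Weighted averages over graphs -/

theorem Phi_ch (w : Gr n → ℝ) (σ : St n) (C : Finset (Node n)) (CE : Gr n → Finset (Node n))
    (hC : ∀ E c', c' ∈ CE E ↔ c' ∈ C ∧ ed c' ⊆ E) (g : Gr n → Node n → ℝ) :
    ∑ E, w E * (ind (σ.S ⊆ E) * ∑ c' ∈ CE E, g E c') =
      ∑ c' ∈ C, ∑ E, w E * (ind ((σ.add c').S ⊆ E) * g E c') := by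
  rw [sum_comm]
  refine sum_congr rfl (fun E _ => ?_)
  have : CE E = C.filter (fun c' => ed c' ⊆ E) := by ext c'; rw [hC, mem_filter]
  rw [this, sum_filter, mul_sum, mul_sum]
  refine sum_congr rfl (fun c' _ => ?_)
  have e : ind ((σ.add c').S ⊆ E) = ind (σ.S ⊆ E) * ind (ed c' ⊆ E) := by
    rw [← ind_and]; exact ind_congr union_subset_iff
  rw [e]
  split_ifs with h
  · rw [ind_pos h]; ring
  · rw [ind_neg h]; ring

section
variable (w : Gr n → ℝ) (hw : ∀ E, 0 ≤ w E) {P b : ℝ} (hP0 : 0 ≤ P) (hP1 : P ≤ 1) {R : ℕ}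
  (hb : 2 * ((n : ℝ) * P ^ 2 + R + 5) ≤ b)
include hP0 hP1 hb

theorem psi_step' (m i : ℕ) (σ : St n) (c : Node n) (hnd : Nd c) (hcl : σ.Cl)
    (hs : σ.V.card ≤ R + 5) (C : Finset (Node n)) (hC : C ⊆ ch (allEdges n) c)
    (hold : σ.T → ∀ c' ∈ C, ¬ ed c' ⊆ σ.S) :
    ∑ c' ∈ C, b ^ i * psi P m (σ.add c') ≤ b ^ (i + 1) * psi P (m + 1) σ := by
  have h0 : 0 ≤ b := le_trans (by positivity) hb
  rw [← mul_sum, pow_succ, mul_assoc]
  refine mul_le_mul_of_nonneg_left ((psi_step hP0 hP1 m σ c hnd hcl C hC hold).trans ?_)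
    (pow_nonneg h0 _)
  refine mul_le_mul_of_nonneg_right (le_trans ?_ hb) (psi_nonneg hP0 _ _)
  have : (σ.V.card : ℝ) ≤ R + 5 := by exact_mod_cast hs
  linarith

/-- Following a path of descendants. -/
theorem path_bound (m : ℕ) (Inv : ℕ → St n → Node n → Prop) (f : Gr n → Node n → ℝ)
    (hbase : ∀ σ c, Inv 0 σ c → ∑ E, w E * (ind (σ.S ⊆ E) * f E c) ≤ b ^ m * psi P m σ)
    (hpres : ∀ i σ c c', Inv (i + 1) σ c → c' ∈ ch (allEdges n) c → Inv i (σ.add c') c')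
    (hB : ∀ i σ c, Inv i σ c → σ.Base R 0 c) :
    ∀ i σ c, Inv i σ c →
      ∑ E, w E * (ind (σ.S ⊆ E) * desc E (f E) i c) ≤ b ^ (m + i) * psi P (m + i) σ := by
  intro i
  induction i with
  | zero => exact hbase
  | succ i ih =>
    intro σ c hI
    obtain ⟨hk, hcl, hnd, hlf, s1, s2⟩ := hB _ _ _ hI
    simp only [desc]
    rw [Phi_ch w σ (ch (allEdges n) c) (fun E => ch E c) (fun E c' => mem_ch_iff)]
    refine (sum_le_sum (fun c' hc' => ih _ _ (hpres i σ c c' hI hc'))).trans ?_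
    exact psi_step' hP0 hP1 hb _ _ σ c hnd hcl (by omega) _ Subset.rfl (hold_leaf hlf)

theorem St.base_mono {R i j : ℕ} {σ : St n} {c : Node n} (h : σ.Base R i c) (hij : j ≤ i) :
    σ.Base R j c := by
  obtain ⟨hk, hcl, hnd, hlf, s1, s2⟩ := h
  exact ⟨hk, hcl, hnd, hlf, by omega, by omega⟩

variable (hS : ∀ S : Gr n, S.card ≤ 2 * R + 7 → ∑ E, w E * ind (S ⊆ E) ≤ P ^ S.card)
include hw hS

theorem inner_bound (k : Finset (Fin n)) (i : ℕ) (σ : St n) (c : Node n) (h1 : σ.Base R i c)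
    (h2 : k ⊆ σ.V) (h3 : i = 0 → σ.T → key c ≠ k) :
    ∑ E, w E * (ind (σ.S ⊆ E) * desc E (dk k) i c) ≤ b ^ i * psi P i σ := by
  have := path_bound w hP0 hP1 hb 0
    (fun i σ c => σ.Base R i c ∧ k ⊆ σ.V ∧ (i = 0 → σ.T → key c ≠ k)) (fun _ => dk k)
    (fun σ c hI => ?_) (fun i σ c c' hI hc' => ?_)
    (fun i σ c hI => St.base_mono hP0 hP1 hb hI.1 (Nat.zero_le _)) i σ c ⟨h1, h2, h3⟩
  · simpa using this
  · have hs := hS σ.S (by have := hI.1.2.2.2.2.2; omega)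
    have e : ∑ E, w E * (ind (σ.S ⊆ E) * dk k c) = (∑ E, w E * ind (σ.S ⊆ E)) * dk k c := by
      rw [sum_mul]; exact sum_congr rfl (fun E _ => by ring)
    rw [e]
    simp only [psi, pow_zero, one_mul, Nat.cast_zero, zero_mul, add_zero]
    exact mul_le_mul hs (ind_mono (fun e hT => hI.2.2 rfl hT e)) (dk_nonneg _ _)
      (pow_nonneg hP0 _)
  · refine ⟨St.base_add hI.1 hc', hI.2.1.trans (subset_insert _ _), fun _ hT e => ?_⟩
    exact hT.2 (hI.2.1 (e ▸ mem_key.2 (Or.inr (Or.inr rfl))))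

theorem middle_bound (c₂ : Node n) (j' i : ℕ) (σ : St n) (d : Node n)
    (h1 : σ.Base R (i + j') d) (h2 : key c₂ ⊆ σ.V ∧ Nd c₂ ∧ σ.Lf c₂)
    (h3 : σ.T → c₂.2.2 ∉ key d) :
    ∑ E, w E * (ind (σ.S ⊆ E) * desc E (fun d' => desc E (dk (key d')) j' c₂) i d) ≤
      b ^ (j' + i) * psi P (j' + i) σ := by
  refine path_bound w hP0 hP1 hb j'
    (fun i σ d => σ.Base R (i + j') d ∧ (key c₂ ⊆ σ.V ∧ Nd c₂ ∧ σ.Lf c₂) ∧
      (σ.T → c₂.2.2 ∉ key d)) (fun E d' => desc E (dk (key d')) j' c₂)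
    (fun σ d hI => ?_) (fun i σ d d' hI hd' => ?_)
    (fun i σ c hI => St.base_mono hP0 hP1 hb hI.1 (Nat.zero_le _)) i σ d ⟨h1, h2, h3⟩
  · obtain ⟨⟨hk, hcl, hnd, hlf, s1, s2⟩, ⟨g1, g2, g3⟩, g4⟩ := hI
    refine inner_bound w hw hP0 hP1 hb hS (key d) j' σ c₂
      ⟨g1, hcl, g2, g3, by omega, by omega⟩ hk (fun _ hT e => g4 hT ?_)
    rw [← e]; exact mem_key.2 (Or.inr (Or.inr rfl))
  · obtain ⟨hB, ⟨g1, g2, g3⟩, g4⟩ := hI
    have hB' : σ.Base R (i + j' + 1) d := by rwa [add_right_comm] at hB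
    obtain ⟨a1, a2, a3, a4, a5⟩ := ch_base hB.1 hd'
    have g5 : (σ.add d').T → c₂.2.2 ∉ key d' := by
      intro hT hm
      rcases mem_key.1 hm with e | e | e
      · exact g4 hT.1 (e ▸ a3)
      · exact g4 hT.1 (e ▸ a4)
      · exact hT.2 (e ▸ g1 (mem_key.2 (Or.inr (Or.inr rfl))))
    exact ⟨St.base_add hB' hd', ⟨g1.trans (subset_insert _ _), g2, St.lf_keep g3 g5⟩, g5⟩

theorem pair_bound (j j' i : ℕ) (σ : St n) (c : Node n) (h : σ.Base R (i + (j + j' + 2)) c) :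
    ∑ E, w E * (ind (σ.S ⊆ E) * desc E (fun c₀ => ∑ c₁ ∈ ch E c₀, ∑ c₂ ∈ (ch E c₀).erase c₁,
      desc E (fun d' => desc E (dk (key d')) j' c₂) j c₁) i c) ≤
      b ^ (j' + j + 1 + 1 + i) * psi P (j' + j + 1 + 1 + i) σ := by
  refine path_bound w hP0 hP1 hb (j' + j + 1 + 1)
    (fun i σ c => σ.Base R (i + (j + j' + 2)) c) (fun E c₀ => ∑ c₁ ∈ ch E c₀,
      ∑ c₂ ∈ (ch E c₀).erase c₁, desc E (fun d' => desc E (dk (key d')) j' c₂) j c₁)
    (fun σ c hI => ?_) (fun i σ c c' hI hc' => ?_)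
    (fun i σ c hI => St.base_mono hP0 hP1 hb hI (Nat.zero_le _)) i σ c h
  · obtain ⟨hk, hcl, hnd, hlf, s1, s2⟩ := hI
    rw [Phi_ch w σ (ch (allEdges n) c) (fun E => ch E c) (fun E c' => mem_ch_iff)]
    refine le_trans (sum_le_sum (fun c₁ hc₁ => ?_))
      (psi_step' hP0 hP1 hb _ _ σ c hnd hcl (by omega) _ Subset.rfl (hold_leaf hlf))
    obtain ⟨a1, a2, a3, a4, a5⟩ := ch_base hk hc₁
    have z1 := size_add σ c₁
    have hcl₁ := St.cl_add hcl a1 a2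
    rw [Phi_ch w (σ.add c₁) ((ch (allEdges n) c).erase c₁) (fun E => (ch E c).erase c₁)
      (fun E c' => by rw [mem_erase, mem_erase, mem_ch_iff, and_assoc])]
    refine le_trans (sum_le_sum (fun c₂ hc₂ => ?_))
      (psi_step' hP0 hP1 hb _ _ (σ.add c₁) c hnd hcl₁ (by omega) _ (erase_subset _ _)
        (hold_second hcl hnd hlf hc₁))
    obtain ⟨b1, b2, b3, b4, b5⟩ := ch_base hk (mem_of_mem_erase hc₂)
    have b1' : c₂.1 ∈ (σ.add c₁).V := mem_insert_of_mem b1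
    have b2' : c₂.2.1 ∈ (σ.add c₁).V := mem_insert_of_mem b2
    have z2 := size_add (σ.add c₁) c₂
    refine middle_bound w hw hP0 hP1 hb hS c₂ j' j _ c₁
      ⟨(key_add a1 a2).trans (subset_insert _ _), St.cl_add hcl₁ b1' b2', a5,
        St.lf_keep (St.lf_add hcl) (fun hT hm => ?_), by omega, by omega⟩
      ⟨key_add b1' b2', b5, St.lf_add hcl₁⟩ (fun hT hm => hT.2 (key_add a1 a2 hm))
    rcases mem_key.1 hm with e | e | e
    · exact hT.1.2 (e ▸ b1)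
    · exact hT.1.2 (e ▸ b2)
    · exact hT.2 (e ▸ mem_insert_self _ _)
  · exact St.base_add (by rwa [add_right_comm] at hI) hc'

theorem self_bound (j i : ℕ) (σ : St n) (c : Node n) (h : σ.Base R (i + (j + 2)) c) :
    ∑ E, w E * (ind (σ.S ⊆ E) * desc E (fun c₀ => ∑ c₁ ∈ ch E c₀,
      desc E (dk (key c₁)) (j + 1) c₁) i c) ≤
      b ^ (j + 1 + 1 + i) * psi P (j + 1 + 1 + i) σ := by
  refine path_bound w hP0 hP1 hb (j + 1 + 1)
    (fun i σ c => σ.Base R (i + (j + 2)) c) (fun E c₀ => ∑ c₁ ∈ ch E c₀,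
      desc E (dk (key c₁)) (j + 1) c₁)
    (fun σ c hI => ?_) (fun i σ c c' hI hc' => ?_)
    (fun i σ c hI => St.base_mono hP0 hP1 hb hI (Nat.zero_le _)) i σ c h
  · have hI' : σ.Base R (j + 1 + 1) c := by rwa [zero_add] at hI
    obtain ⟨hk, hcl, hnd, hlf, s1, s2⟩ := hI
    rw [Phi_ch w σ (ch (allEdges n) c) (fun E => ch E c) (fun E c' => mem_ch_iff)]
    refine le_trans (sum_le_sum (fun c₁ hc₁ => ?_))
      (psi_step' hP0 hP1 hb _ _ σ c hnd hcl (by omega) _ Subset.rfl (hold_leaf hlf))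
    have hB := St.base_add hI' hc₁
    exact inner_bound w hw hP0 hP1 hb hS (key c₁) (j + 1) _ c₁ hB hB.1 (fun e => by omega)
  · exact St.base_add (by rwa [add_right_comm] at hI) hc'

end

end Crest.Agent.R30
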