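import Crest.Agent.R30.Drift

set_option autoImplicit false
open Finset Crest.CombinatoricsR.TriangleRemoval

namespace Crest.Agent.R30

/-! # Collisions between the explorations of two edges -/

variable {n : ℕ}

instance cross_decVtri (E : Gr n) (c : Node n) : Decidable (vtri E c) := by
  unfold vtri; infer_instance

/-- all triangle nodes -/
def crossVT (E : Gr n) : Finset (Node n) := univ.filter (vtri E)

theorem cross_adj_symm {E : Gr n} {u v : Fin n} (h : adj E u v) : adj E v u :=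
  ⟨h.1.symm, by rw [Sym2.eq_swap]; exact h.2⟩

theorem cross_root (E : Gr n) (g : Node n → ℝ) :
    ∑ u, ∑ v ∈ nb E u, ∑ c ∈ ch E (u, u, v), g c = ∑ c ∈ crossVT E, g c := by
  have h1 : ∀ u, ∀ v ∈ nb E u, ∑ c ∈ ch E (u, u, v), g c
      = ∑ w, if vtri E (u, v, w) then g (u, v, w) else 0 := by
    intro u v hv
    have huv : adj E u v := (mem_filter.1 hv).2
    rw [← sum_filter]
    symm
    refine sum_bij (fun w _ => (u, v, w)) ?_ ?_ ?_ (fun _ _ => rfl)
    · intro w hw
      obtain ⟨-, k2, k3⟩ := (mem_filter.1 hw).2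
      simp only [ch, mem_filter, mem_univ, true_and, or_self]
      exact ⟨k2.1.symm, k2.1.symm, k2, k3⟩
    · intro w _ w' _ h
      simpa using h
    · rintro ⟨a, b, w⟩ hc
      simp only [ch, mem_filter, mem_univ, true_and, or_self] at hc
      obtain ⟨rfl, rfl, -, -, k2, k3⟩ := hc
      exact ⟨w, mem_filter.2 ⟨mem_univ _, huv, k2, k3⟩, rfl⟩
  rw [crossVT, sum_filter, Fintype.sum_prod_type]
  refine sum_congr rfl fun u _ => ?_
  rw [Fintype.sum_prod_type, sum_congr rfl (h1 u), nb, sum_filter]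
  refine sum_congr rfl fun v _ => ?_
  split_ifs with h
  · rfl
  · symm
    refine sum_eq_zero fun w _ => if_neg fun h' => h h'.1

theorem cross_child {E : Gr n} {c c' : Node n} (hc : vtri E c) (h : c' ∈ ch E c) : vtri E c' := by
  simp only [ch, mem_filter, mem_univ, true_and] at h
  obtain ⟨k1, k2, -, -, k5, k6⟩ := h
  refine ⟨?_, k5, k6⟩
  rw [k1]
  rcases k2 with k2 | k2 <;> rw [k2]
  · exact hc.2.1
  · exact hc.2.2

theorem cross_parents {E : Gr n} {D : ℝ}
    (hcod : ∀ u v, adj E u v → ((cn E u v).card : ℝ) ≤ 2 * D) {c' : Node n} (hc' : vtri E c') :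
    (((crossVT E).filter (fun c => c' ∈ ch E c)).card : ℝ) ≤ 4 * D := by
  obtain ⟨x, w, w'⟩ := c'
  have hsub : (crossVT E).filter (fun c => (x, w, w') ∈ ch E c) ⊆
      (cn E x w).image (fun o => (x, o, w)) ∪ (cn E x w).image (fun o => (o, x, w)) := by
    rintro ⟨a, b, z⟩ hc
    simp only [crossVT, ch, mem_filter, mem_univ, true_and, vtri] at hc
    obtain ⟨⟨v1, v2, v3⟩, rfl, k2, -⟩ := hc
    rcases k2 with rfl | rfl
    · exact mem_union_left _ (mem_image.2 ⟨b, mem_filter.2 ⟨mem_univ _, v1, cross_adj_symm v3⟩, rfl⟩)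
    · exact mem_union_right _
        (mem_image.2 ⟨a, mem_filter.2 ⟨mem_univ _, cross_adj_symm v1, cross_adj_symm v2⟩, rfl⟩)
  have h1 := (card_le_card hsub).trans (card_union_le _ _)
  have h2 := h1.trans (add_le_add card_image_le card_image_le)
  have h3 := hcod x w hc'.1
  have h4 : (((crossVT E).filter (fun c => (x, w, w') ∈ ch E c)).card : ℝ)
      ≤ ((cn E x w).card : ℝ) + (cn E x w).card := by exact_mod_cast h2
  linarith

theorem cross_step {E : Gr n} {D : ℝ}
    (hcod : ∀ u v, adj E u v → ((cn E u v).card : ℝ) ≤ 2 * D) {f : Node n → ℝ}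
    (hf : ∀ c, 0 ≤ f c) :
    ∑ c ∈ crossVT E, ∑ c' ∈ ch E c, f c' ≤ 4 * D * ∑ c ∈ crossVT E, f c := by
  have h1 : ∑ c ∈ crossVT E, ∑ c' ∈ ch E c, f c'
      = ∑ c' ∈ crossVT E, ∑ _c ∈ (crossVT E).filter (fun c => c' ∈ ch E c), f c' := by
    refine sum_comm' fun c c' => ?_
    constructor
    · rintro ⟨k1, k2⟩
      exact ⟨mem_filter.2 ⟨k1, k2⟩,
        mem_filter.2 ⟨mem_univ _, cross_child (mem_filter.1 k1).2 k2⟩⟩
    · rintro ⟨k1, -⟩
      exact mem_filter.1 k1
  rw [h1, mul_sum]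
  refine sum_le_sum fun c' hc' => ?_
  rw [sum_const, nsmul_eq_mul]
  exact mul_le_mul_of_nonneg_right (cross_parents hcod (mem_filter.1 hc').2) (hf c')

theorem cross_desc_nonneg (E : Gr n) {f : Node n → ℝ} (hf : ∀ c, 0 ≤ f c) (i : ℕ) :
    ∀ c, 0 ≤ desc E f i c := by
  induction i with
  | zero => exact hf
  | succ i ih => exact fun c => sum_nonneg fun c' _ => ih c'

theorem cross_desc {E : Gr n} {D : ℝ} (hD : 1 ≤ D)
    (hcod : ∀ u v, adj E u v → ((cn E u v).card : ℝ) ≤ 2 * D) {f : Node n → ℝ}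
    (hf : ∀ c, 0 ≤ f c) (i : ℕ) :
    ∑ c ∈ crossVT E, desc E f i c ≤ (4 * D) ^ i * ∑ c ∈ crossVT E, f c := by
  induction i with
  | zero => simp [desc]
  | succ i ih =>
    simp only [desc]
    refine (cross_step hcod (cross_desc_nonneg E hf i)).trans ?_
    rw [pow_succ', mul_assoc (4 * D)]
    exact mul_le_mul_of_nonneg_left ih (by linarith)

theorem cross_geom (W : ℕ) : ∑ i ∈ range W, (1 / 5 : ℝ) ^ i ≤ 5 / 4 - 5 / 4 * (1 / 5) ^ W := by
  induction W with
  | zero => simp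
  | succ W ih => rw [sum_range_succ, pow_succ]; linarith

theorem cross_nu0 {E : Gr n} {D : ℝ} (hD : 1 ≤ D) (W : ℕ)
    (hcod : ∀ u v, adj E u v → ((cn E u v).card : ℝ) ≤ 2 * D) {f : Node n → ℝ}
    (hf : ∀ c, 0 ≤ f c) :
    ∑ c ∈ crossVT E, nu0 E (20 * D) W f c ≤ 5 / 4 * ∑ c ∈ crossVT E, f c := by
  have hS : 0 ≤ ∑ c ∈ crossVT E, f c := sum_nonneg fun c _ => hf c
  simp only [nu0]
  rw [sum_comm]
  have h1 : ∀ i ∈ range (W + 1), ∑ c ∈ crossVT E, desc E f i c / (20 * D) ^ i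
      ≤ (1 / 5 : ℝ) ^ i * ∑ c ∈ crossVT E, f c := by
    intro i _
    have hp : (0 : ℝ) < (20 * D) ^ i := by positivity
    rw [← sum_div, div_le_iff₀ hp]
    refine (cross_desc hD hcod hf i).trans (le_of_eq ?_)
    rw [mul_right_comm, ← mul_pow]
    congr 2
    ring
  refine (sum_le_sum h1).trans ?_
  rw [← sum_mul]
  refine mul_le_mul_of_nonneg_right ((cross_geom _).trans ?_) hS
  have : (0 : ℝ) ≤ (1 / 5) ^ (W + 1) := by positivity
  linarith

theorem cross_dk_nonneg (k : Finset (Fin n)) (c : Node n) : 0 ≤ dk k c := by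
  unfold dk ind; split_ifs <;> norm_num

theorem cross_dk_sum (E : Gr n) (k : Finset (Fin n)) : ∑ c ∈ crossVT E, dk k c ≤ 27 := by
  classical
  by_cases hk : k.card ≤ 3
  · have h1 : ∑ c ∈ crossVT E, dk k c ≤ ∑ c ∈ k ×ˢ k ×ˢ k, (1 : ℝ) := by
      have : ∑ c ∈ crossVT E, dk k c = ∑ c ∈ (crossVT E).filter (fun c => key c = k), (1 : ℝ) := by
        rw [sum_filter]
        refine sum_congr rfl fun c _ => ?_
        unfold dk ind
        congr
      rw [this]
      refine sum_le_sum_of_subset_of_nonneg ?_ fun _ _ _ => zero_le_one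
      intro c hc
      have hck : key c = k := (mem_filter.1 hc).2
      rw [← hck]
      simp [key]
    refine h1.trans ?_
    rw [sum_const, card_product, card_product, nsmul_eq_mul, mul_one]
    have : k.card * (k.card * k.card) ≤ 3 * (3 * 3) :=
      Nat.mul_le_mul hk (Nat.mul_le_mul hk hk)
    exact_mod_cast this
  · rw [sum_eq_zero]
    · norm_num
    · intro c _
      unfold dk ind
      rw [if_neg]
      rintro rfl
      exact hk card_le_three

theorem cross_card {E : Gr n} {D : ℝ} (hD : 1 ≤ D)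
    (hcod : ∀ u v, adj E u v → ((cn E u v).card : ℝ) ≤ 2 * D) :
    ∑ _c ∈ crossVT E, (1 : ℝ) ≤ (n : ℝ) ^ 2 * (2 * D) := by
  rw [crossVT, sum_filter, Fintype.sum_prod_type]
  have h1 : ∀ u : Fin n, ∑ p : Fin n × Fin n, (if vtri E (u, p) then (1 : ℝ) else 0)
      ≤ n * (2 * D) := by
    intro u
    rw [Fintype.sum_prod_type]
    have h2 : ∀ v : Fin n, ∑ w : Fin n, (if vtri E (u, v, w) then (1 : ℝ) else 0) ≤ 2 * D := by
      intro v
      by_cases huv : adj E u v
      · refine le_trans (le_of_eq ?_) (hcod u v huv)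
        rw [← sum_filter, sum_const, nsmul_eq_mul, mul_one, cn]
        congr 2
        ext w
        simp [vtri, huv]
      · rw [sum_eq_zero fun w _ => if_neg fun h' => huv h'.1]
        linarith
    refine (sum_le_sum fun v _ => h2 v).trans (le_of_eq ?_)
    simp
  refine (sum_le_sum fun u _ => h1 u).trans (le_of_eq ?_)
  simp only [sum_const, card_univ, Fintype.card_fin, nsmul_eq_mul]
  ring

theorem cross_bound (E : Gr n) (D : ℝ) (hD : 1 ≤ D) (W : ℕ)
    (hcod : ∀ u v, adj E u v → ((cn E u v).card : ℝ) ≤ 2 * D) :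
    Cross E (20 * D) W ≤ 100 * (n : ℝ) ^ 2 * D := by
  classical
  simp only [Cross, cross_root]
  have hT0 : ∀ k : Finset (Fin n), 0 ≤ ∑ c ∈ crossVT E, nu0 E (20 * D) W (dk k) c := fun k =>
    sum_nonneg fun c _ => sum_nonneg fun i _ =>
      div_nonneg (cross_desc_nonneg E (cross_dk_nonneg k) i c) (by positivity)
  have hT1 : ∀ k : Finset (Fin n), ∑ c ∈ crossVT E, nu0 E (20 * D) W (dk k) c
      ≤ 5 / 4 * ∑ c ∈ crossVT E, dk k c := fun k => cross_nu0 hD W hcod (cross_dk_nonneg k)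
  have hT2 : ∀ k : Finset (Fin n), (∑ c ∈ crossVT E, nu0 E (20 * D) W (dk k) c) ^ 2
      ≤ 5 / 4 * 27 * (5 / 4 * ∑ c ∈ crossVT E, dk k c) := by
    intro k
    rw [sq]
    have := cross_dk_sum E k
    exact mul_le_mul (by linarith [hT1 k]) (hT1 k) (hT0 k) (by norm_num)
  refine (sum_le_sum fun k _ => hT2 k).trans ?_
  rw [← mul_sum, ← mul_sum, sum_comm]
  have h1 : ∀ c ∈ crossVT E, ∑ k : Finset (Fin n), dk k c = 1 := by
    intro c _
    rw [sum_eq_single (key c)]
    · simp [dk, ind]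
    · intro k _ hk
      simp [dk, ind, hk.symm]
    · simp
  rw [sum_congr rfl h1]
  have h2 := cross_card hD hcod
  have h3 : 0 ≤ (n : ℝ) ^ 2 * D := by positivity
  nlinarith

end Crest.Agent.R30
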