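import Crest.Prelude.Def_TriangleRemoval

/-!
# Row 30 (triangle removal process): definitions

Plan of the proof (see the docstrings of the modules `Crest.Agent.R30.*`).
* Phase 1: run the lazy process (uniform random triple each step) from `K_n` until the predicted
  codegree `DD` drops to `z^8`; the graph stays codegree-regular (`Areg`) with expanding links
  (`Gap`).
* Phase 2: finish with iid labels (`run`), compare with a branching exploration (`Prog`),
  solve the cavity recursion (`II`, `qq`) and bound the collisions (`Col`, `Cross`).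
-/

set_option autoImplicit false
open Finset Crest.CombinatoricsR.TriangleRemoval

namespace Crest.Agent.R30

noncomputable section

/-! ### Finite probability -/

open Classical in
/-- Indicator of a proposition. -/
def ind (p : Prop) : ℝ := if p then 1 else 0

/-- Average over a finite set (`0` on the empty set). -/
def avg {α : Type} (A : Finset α) (f : α → ℝ) : ℝ := (∑ a ∈ A, f a) / (A.card : ℝ)

/-- Expectation of `f` over a history of `N` iid uniform elements of `A`; the most recent
element is the head of the list. -/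
def Ex {α : Type} (A : Finset α) : ℕ → (List α → ℝ) → ℝ
  | 0, f => f []
  | N + 1, f => Ex A N (fun h => avg A (fun a => f (a :: h)))

/-- `P` held at some time so far (for some suffix of the history). -/
def ever {α : Type} (P : List α → Prop) (h : List α) : Prop := ∃ h', h' <:+ h ∧ P h'

/-- Sum of the increments `ξ` along a history. -/
def mart {α : Type} (ξ : List α → α → ℝ) : List α → ℝ
  | [] => 0
  | a :: h => mart ξ h + ξ h a

/-! ### Graphs -/

abbrev Gr (n : ℕ) := Finset (Sym2 (Fin n))

variable {n : ℕ}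

def adj (E : Gr n) (u v : Fin n) : Prop := u ≠ v ∧ s(u, v) ∈ E

instance (E : Gr n) (u v : Fin n) : Decidable (adj E u v) := by unfold adj; infer_instance

/-- Neighbourhood. -/
def nb (E : Gr n) (u : Fin n) : Finset (Fin n) := univ.filter (fun v => adj E u v)

/-- Common neighbourhood. -/
def cn (E : Gr n) (u v : Fin n) : Finset (Fin n) := univ.filter (fun w => adj E u w ∧ adj E v w)

/-- All triples. -/
def tri3 (n : ℕ) : Finset (Finset (Fin n)) := (univ : Finset (Fin n)).powersetCard 3

/-- One lazy step: remove `t` if it is a triangle. -/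
def step (E : Gr n) (t : Finset (Fin n)) : Gr n := if t ∈ triangles E then E \ t.sym2 else E

/-- The graph after a history of triples. -/
def G (n : ℕ) : List (Finset (Fin n)) → Gr n
  | [] => allEdges n
  | t :: h => step (G n h) t

/-- The value function of the process. -/
def V (φ : ℕ → ℝ) (E : Gr n) : ℝ := expectFinal φ (n ^ 2) E

/-- The test function of the theorem. -/
def phi (n : ℕ) (e : ℕ) : ℝ := ((e : ℝ) / (n : ℝ) ^ ((3 : ℝ) / 2) - 1 / (2 * Real.sqrt 2)) ^ 2

/-- Codegrees of edges are `D (1 ± β)`. -/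
def Areg (E : Gr n) (D β : ℝ) : Prop :=
  ∀ u v, adj E u v → |((cn E u v).card : ℝ) - D| ≤ β * D

/-- Every link is an expander: its adjacency operator over `D` is within `η` of the mean. -/
def Gap (E : Gr n) (D η : ℝ) : Prop :=
  ∀ (u : Fin n) (f : Fin n → ℝ),
    ∑ v ∈ nb E u, ((∑ w ∈ cn E u v, f w) / D - avg (nb E u) f) ^ 2 ≤ η ^ 2 * ∑ w ∈ nb E u, f w ^ 2

/-- The linearised drift operator on functions of ordered pairs. -/
def Aop (E : Gr n) (D : ℝ) (x : Fin n → Fin n → ℝ) (u v : Fin n) : ℝ :=
  (∑ w ∈ cn E u v, (x u w + x v w)) / D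

/-- Closed walks of length `k + 1` in the link of `u`. -/
def cw (E : Gr n) (u : Fin n) (k : ℕ) : Finset (Fin (k + 1) → Fin n) :=
  univ.filter (fun x => ∀ j, adj E u (x j) ∧ adj E (x j) (x (j + 1)))

/-! ### The phase-1 trajectory -/

def N3 (n : ℕ) : ℝ := (n.choose 3 : ℝ)

/-- Predicted edge density after `i` lazy steps. -/
def pp (n : ℕ) : ℕ → ℝ
  | 0 => 1
  | i + 1 => pp n i * (1 - ((n : ℝ) - 2) * pp n i ^ 2 / N3 n)

/-- Predicted codegree. -/
def DD (n i : ℕ) : ℝ := ((n : ℝ) - 2) * pp n i ^ 2

/-- Predicted probability that a given edge dies in step `i`. -/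
def hh (n i : ℕ) : ℝ := DD n i / N3 n

/-- `i₀` is the first time with `DD ≤ Δ`. -/
def I0 (n : ℕ) (Δ : ℝ) (i₀ : ℕ) : Prop := DD n i₀ ≤ Δ ∧ ∀ i < i₀, Δ < DD n i

/-- Regularity and expansion held at all times up to and including now. -/
def ok (n : ℕ) (β η : ℝ) : List (Finset (Fin n)) → Prop
  | [] => Areg (G n []) (DD n 0) β ∧ Gap (G n []) (DD n 0) η
  | t :: h => ok n β η h ∧ Areg (G n (t :: h)) (DD n (h.length + 1)) β ∧
      Gap (G n (t :: h)) (DD n (h.length + 1)) η

/-- Regularity and expansion held at all times strictly before now. -/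
def okb (n : ℕ) (β η : ℝ) : List (Finset (Fin n)) → Prop
  | [] => True
  | _ :: h => ok n β η h

/-- The number of Neumann iterations. -/
def JJ : ℕ := 1200 * 2404

/-- The parameters: `n = z ^ 2400`, `z = y ^ 1200`, `y` above a power of `log n`. -/
structure Par (n : ℕ) (y z : ℝ) : Prop where
  hy : 1000 ≤ y
  hz : z = y ^ 1200
  hn : (n : ℝ) = z ^ 2400
  hK : 1 + (JJ : ℝ) * (6 * (Real.log n * (1 + 2 * Real.log n))) ^ JJ ≤ y

/-- The good event at the end of phase 1. -/
def Good (n : ℕ) (y z : ℝ) (h : List (Finset (Fin n))) : Prop :=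
  ok n (1 / z ^ 2) (20 / y ^ 2) h ∧
    |((G n h).card : ℝ) - (n.choose 2 : ℝ) * pp n h.length| ≤
      2 / z * ((n.choose 2 : ℝ) * pp n h.length)

/-! ### Phase 2: labels -/

/-- At time `r` remove all present triangles whose label is `r`. -/
def stepL {L : ℕ} (E : Gr n) (ω : Finset (Fin n) → Fin L) (r : ℕ) : Gr n :=
  E \ ((triangles E).filter (fun t => (ω t).val = r)).biUnion (fun t => t.sym2)

/-- The graph at time `s` of the labelled process. -/
def run {L : ℕ} (E : Gr n) (ω : Finset (Fin n) → Fin L) : ℕ → Gr n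
  | 0 => E
  | s + 1 => stepL (run E ω s) ω s

/-! ### Query programs -/

/-- Programs that query labels (`Lb`) of keys (`K`) adaptively and return a value. -/
inductive Prog (K Lb α : Type) : Type
  | ret : α → Prog K Lb α
  | ask : K → (Lb → Prog K Lb α) → Prog K Lb α

namespace Prog
variable {K Lb α β : Type}

def bind : Prog K Lb α → (α → Prog K Lb β) → Prog K Lb β
  | ret a, f => f a
  | ask k g, f => ask k (fun l => (g l).bind f)

/-- Oracle semantics: the label of a key is `ω k`, the same each time it is asked. -/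
def orun (ω : K → Lb) : Prog K Lb α → α
  | ret a => a
  | ask k g => (g (ω k)).orun ω

/-- Fresh semantics: every query gets a fresh uniform label; expectation of `F` of the output. -/
def Ff [Fintype Lb] (F : α → ℝ) : Prog K Lb α → ℝ
  | ret a => F a
  | ask _ g => avg univ (fun l => (g l).Ff F)

/-- Expected number of queries of the key `k'` (fresh semantics). -/
def m [Fintype Lb] (k' : K) : Prog K Lb α → ℝ
  | ret _ => 0
  | ask k g => ind (k = k') + avg univ (fun l => (g l).m k')

/-- Expected number of pairs of queries of the same key (fresh semantics). -/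
def d [Fintype Lb] : Prog K Lb α → ℝ
  | ret _ => 0
  | ask k g => avg univ (fun l => (g l).d + (g l).m k)

end Prog

/-! ### The exploration tree -/

/-- The node `(a, b, w)` is the triangle `{a, b, w}` entered through the edge `ab`; the degenerate
node `(u, u, v)` stands for the root edge `uv`. -/
abbrev Node (n : ℕ) := Fin n × Fin n × Fin n

def key (c : Node n) : Finset (Fin n) := {c.1, c.2.1, c.2.2}

/-- The children of `(a, b, w)`: the triangles on `aw` or `bw` other than `abw`. -/
def ch (E : Gr n) (c : Node n) : Finset (Node n) :=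
  univ.filter (fun c' => c'.2.1 = c.2.2 ∧ (c'.1 = c.1 ∨ c'.1 = c.2.1) ∧ c'.2.2 ≠ c.1 ∧
    c'.2.2 ≠ c.2.1 ∧ adj E c'.1 c'.2.2 ∧ adj E c'.2.1 c'.2.2)

/-- The node is a triangle of `E`. -/
def vtri (E : Gr n) (c : Node n) : Prop :=
  adj E c.1 c.2.1 ∧ adj E c.1 c.2.2 ∧ adj E c.2.1 c.2.2

/-- Probability in the branching model that the node has label `< s` and is removed. -/
def II (E : Gr n) (L : ℕ) : ℕ → Node n → ℝ
  | 0, _ => 0
  | s + 1, c => II E L s c + (∏ c' ∈ ch E c, (1 - II E L s c')) / (L : ℝ)

/-- Probability in the branching model that no child is removed before time `s`. -/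
def qq (E : Gr n) (L s : ℕ) (c : Node n) : ℝ := ∏ c' ∈ ch E c, (1 - II E L s c')

/-- Predicted number of surviving ordered edges. -/
def SS (E : Gr n) (L : ℕ) : ℝ := ∑ u, ∑ v ∈ nb E u, qq E L L (u, u, v)

/-- Homogeneous solution of the cavity recursion. -/
def qb (D : ℝ) (L : ℕ) : ℕ → ℝ
  | 0 => 1
  | r + 1 => qb D L r * (1 - D * qb D L r ^ 2 / (L : ℝ))

/-- Sum of `f` over the descendants of depth `i` (counted along paths). -/
def desc (E : Gr n) (f : Node n → ℝ) : ℕ → Node n → ℝ
  | 0, c => f c
  | i + 1, c => ∑ c' ∈ ch E c, desc E f i c'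

/-- Discounted sum over the descendants of depth `0, …, W`. -/
def nu0 (E : Gr n) (lam : ℝ) (W : ℕ) (f : Node n → ℝ) (c : Node n) : ℝ :=
  ∑ i ∈ range (W + 1), desc E f i c / lam ^ i

/-- Discounted sum over the descendants of depth `1, …, W`. -/
def nu1 (E : Gr n) (lam : ℝ) (W : ℕ) (f : Node n → ℝ) (c : Node n) : ℝ :=
  ∑ i ∈ range W, desc E f (i + 1) c / lam ^ (i + 1)

/-- Indicator of the key `k`. -/
def dk (k : Finset (Fin n)) (c : Node n) : ℝ := ind (key c = k)

/-- Discounted number of collisions whose last common ancestor is `c`. -/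
def XX (E : Gr n) (lam : ℝ) (W : ℕ) (c : Node n) : ℝ :=
  (∑ c₁ ∈ ch E c, ∑ c₂ ∈ (ch E c).erase c₁, ∑ k : Finset (Fin n),
      nu0 E lam W (dk k) c₁ * nu0 E lam W (dk k) c₂) +
    ∑ c₁ ∈ ch E c, nu1 E lam W (dk (key c₁)) c₁

/-- Discounted number of collisions inside the exploration of one edge, summed over the edges. -/
def Col (E : Gr n) (lam : ℝ) (W : ℕ) : ℝ :=
  ∑ u, ∑ v ∈ nb E u, nu0 E lam W (XX E lam W) (u, u, v)

/-- Discounted number of collisions between the explorations of two edges. -/
def Cross (E : Gr n) (lam : ℝ) (W : ℕ) : ℝ :=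
  ∑ k : Finset (Fin n), (∑ u, ∑ v ∈ nb E u, ∑ c ∈ ch E (u, u, v), nu0 E lam W (dk k) c) ^ 2

end

end Crest.Agent.R30
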