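import Crest.Agent.R30.Prob

set_option autoImplicit false
open Finset Crest.CombinatoricsR.TriangleRemoval

namespace Crest.Agent.R30

/-! # Graph combinatorics of one lazy step -/

variable {n : ℕ}

theorem adj_symm {E : Gr n} {u v : Fin n} (h : adj E u v) : adj E v u :=
  ⟨h.1.symm, by rw [Sym2.eq_swap]; exact h.2⟩

theorem adj_mono {E F : Gr n} (hEF : E ⊆ F) {u v : Fin n} (h : adj E u v) : adj F u v :=
  ⟨h.1, hEF h.2⟩

theorem mem_nb {E : Gr n} {u v : Fin n} : v ∈ nb E u ↔ adj E u v := by simp [nb]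

theorem mem_cn {E : Gr n} {u v w : Fin n} : w ∈ cn E u v ↔ adj E u w ∧ adj E v w := by simp [cn]

theorem mem_ch {E : Gr n} {c c' : Node n} : c' ∈ ch E c ↔
    c'.2.1 = c.2.2 ∧ (c'.1 = c.1 ∨ c'.1 = c.2.1) ∧ c'.2.2 ≠ c.1 ∧
    c'.2.2 ≠ c.2.1 ∧ adj E c'.1 c'.2.2 ∧ adj E c'.2.1 c'.2.2 := by simp [ch]

theorem step_subset (E : Gr n) (t : Finset (Fin n)) : step E t ⊆ E := by
  unfold step; split_ifs
  · exact sdiff_subset
  · exact Subset.refl _

theorem G_subset (h : List (Finset (Fin n))) : G n h ⊆ allEdges n := by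
  induction h with
  | nil => exact Subset.refl _
  | cons t h ih => exact (step_subset _ _).trans ih

theorem G_suffix {h h' : List (Finset (Fin n))} (hs : h' <:+ h) : G n h ⊆ G n h' := by
  induction h with
  | nil => rw [List.suffix_nil.1 hs]
  | cons t h ih =>
    rcases List.suffix_cons_iff.1 hs with rfl | hs
    · exact Subset.refl _
    · exact (step_subset _ _).trans (ih hs)

theorem card_tri3 : ((tri3 n).card : ℝ) = N3 n := by simp [tri3, N3]

theorem tri3_nonempty (hn : 3 ≤ n) : (tri3 n).Nonempty := by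
  rw [← card_pos, tri3, card_powersetCard, card_univ, Fintype.card_fin]
  exact Nat.choose_pos hn

theorem triangles_subset (E : Gr n) : triangles E ⊆ tri3 n := filter_subset _ _

theorem ok_okb {β η : ℝ} {h : List (Finset (Fin n))} (hk : ok n β η h) : okb n β η h := by
  cases h with
  | nil => trivial
  | cons t h => exact hk.1

theorem ok_now {β η : ℝ} {h : List (Finset (Fin n))} (hk : ok n β η h) :
    Areg (G n h) (DD n h.length) β ∧ Gap (G n h) (DD n h.length) η := by
  cases h with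
  | nil => exact hk
  | cons t h => exact hk.2

theorem ok_of_okb {β η : ℝ} {h : List (Finset (Fin n))} (hk : okb n β η h)
    (hA : Areg (G n h) (DD n h.length) β) (hG : Gap (G n h) (DD n h.length) η) : ok n β η h := by
  cases h with
  | nil => exact ⟨hA, hG⟩
  | cons t h => exact ⟨hk, hA, hG⟩

theorem ok_suffix {β η : ℝ} {h h' : List (Finset (Fin n))} (hk : ok n β η h) (hs : h' <:+ h) :
    ok n β η h' := by
  induction h with
  | nil => rw [List.suffix_nil.1 hs]; exact hk
  | cons t h ih =>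
    rcases List.suffix_cons_iff.1 hs with rfl | hs
    · exact hk
    · exact ih hk.1 hs

theorem okb_suffix {β η : ℝ} {h h' : List (Finset (Fin n))} (hk : okb n β η h) (hs : h' <:+ h)
    (hl : h'.length < h.length) : ok n β η h' := by
  cases h with
  | nil => simp at hl
  | cons t h =>
    rcases List.suffix_cons_iff.1 hs with rfl | hs
    · simp at hl
    · exact ok_suffix hk hs

theorem drift_mem_tri {E : Gr n} {t : Finset (Fin n)} :
    t ∈ triangles E ↔ t.card = 3 ∧ ∀ u ∈ t, ∀ v ∈ t, u ≠ v → s(u, v) ∈ E := by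
  simp [triangles, mem_powersetCard]

theorem drift_adj_step {E : Gr n} {t : Finset (Fin n)} {u v : Fin n} :
    adj (step E t) u v ↔ adj E u v ∧ ¬ (t ∈ triangles E ∧ u ∈ t ∧ v ∈ t) := by
  unfold step adj
  split_ifs with h
  · rw [mem_sdiff, Finset.mk_mem_sym2_iff]; tauto
  · tauto

theorem drift_sum_ind {ι : Type} (A : Finset ι) (p : ι → Prop) [DecidablePred p] :
    ∑ t ∈ A, ind (p t) = ((A.filter p).card : ℝ) := by
  rw [card_filter]
  push_cast
  refine sum_congr rfl (fun t _ => ?_)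
  by_cases h : p t <;> simp [ind, h]

theorem drift_incl (p q : Prop) : 1 - ind (¬ p ∧ ¬ q) = ind p + ind q - ind (p ∧ q) := by
  by_cases hp : p <;> by_cases hq : q <;> simp [ind, hp, hq]

theorem drift_triple_mem {E : Gr n} {a b w : Fin n} (hab : adj E a b) (haw : adj E a w)
    (hbw : adj E b w) : ({a, b, w} : Finset (Fin n)) ∈ triangles E := by
  refine drift_mem_tri.2 ⟨card_eq_three.2 ⟨a, b, w, hab.1, haw.1, hbw.1, rfl⟩, ?_⟩
  intro x hx y hy hxy
  simp only [mem_insert, mem_singleton] at hx hy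
  rcases hx with rfl | rfl | rfl <;> rcases hy with rfl | rfl | rfl <;>
    first
    | exact absurd rfl hxy
    | exact hab.2
    | exact haw.2
    | exact hbw.2
    | exact (adj_symm hab).2
    | exact (adj_symm haw).2
    | exact (adj_symm hbw).2

theorem drift_eq_triple {t : Finset (Fin n)} (ht : t.card = 3) {a b c : Fin n} (ha : a ∈ t)
    (hb : b ∈ t) (hc : c ∈ t) (hab : a ≠ b) (hac : a ≠ c) (hbc : b ≠ c) :
    t = {a, b, c} := by
  symm
  refine eq_of_subset_of_card_le ?_ ?_
  · intro x hx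
    simp only [mem_insert, mem_singleton] at hx
    rcases hx with rfl | rfl | rfl <;> assumption
  · rw [ht, card_eq_three.2 ⟨a, b, c, hab, hac, hbc, rfl⟩]

theorem drift_count {E : Gr n} {a b : Fin n} (h : adj E a b) :
    ∑ t ∈ tri3 n, ind (t ∈ triangles E ∧ a ∈ t ∧ b ∈ t) = ((cn E a b).card : ℝ) := by
  rw [drift_sum_ind]
  congr 1
  symm
  refine card_bij (fun w _ => ({a, b, w} : Finset (Fin n))) ?_ ?_ ?_
  · intro w hw
    have hw' := mem_cn.1 hw
    have ht := drift_triple_mem h hw'.1 hw'.2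
    exact mem_filter.2 ⟨triangles_subset E ht, ht, by simp, by simp⟩
  · intro w hw w' _ e
    have hw' := mem_cn.1 hw
    have : w ∈ ({a, b, w'} : Finset (Fin n)) := by rw [← e]; simp
    simp only [mem_insert, mem_singleton] at this
    rcases this with rfl | rfl | rfl
    · exact absurd rfl hw'.1.1
    · exact absurd rfl hw'.2.1
    · rfl
  · intro t ht
    obtain ⟨-, ht, ha, hb⟩ := mem_filter.1 ht
    obtain ⟨h3, hE⟩ := drift_mem_tri.1 ht
    have hlt : ({a, b} : Finset (Fin n)).card < t.card := by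
      rw [h3, card_pair h.1]; norm_num
    obtain ⟨w, hw, hw'⟩ := exists_mem_notMem_of_card_lt_card hlt
    simp only [mem_insert, mem_singleton, not_or] at hw'
    have haw : a ≠ w := fun e => hw'.1 e.symm
    have hbw : b ≠ w := fun e => hw'.2 e.symm
    exact ⟨w, mem_cn.2 ⟨⟨haw, hE a ha w hw haw⟩, ⟨hbw, hE b hb w hw hbw⟩⟩,
      (drift_eq_triple h3 ha hb hw h.1 haw hbw).symm⟩

theorem cn_step_le (E : Gr n) (t : Finset (Fin n)) (u v : Fin n) :
    (cn (step E t) u v).card ≤ (cn E u v).card :=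
  card_le_card (fun _ hw => mem_cn.2 ⟨adj_mono (step_subset _ _) (mem_cn.1 hw).1,
    adj_mono (step_subset _ _) (mem_cn.1 hw).2⟩)

/-- Only vertices of `t` can leave a common neighbourhood. -/
theorem cn_step_ge (E : Gr n) (t : Finset (Fin n)) (u v : Fin n) :
    (cn E u v).card ≤ (cn (step E t) u v).card + 3 := by
  by_cases h : t ∈ triangles E
  · have h3 := (drift_mem_tri.1 h).1
    have hsub : cn E u v ⊆ cn (step E t) u v ∪ t := by
      intro w hw
      have hw' := mem_cn.1 hw
      by_cases hwt : w ∈ t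
      · exact mem_union_right _ hwt
      · refine mem_union_left _ (mem_cn.2 ⟨drift_adj_step.2 ⟨hw'.1, ?_⟩,
          drift_adj_step.2 ⟨hw'.2, ?_⟩⟩) <;> tauto
    calc (cn E u v).card ≤ (cn (step E t) u v ∪ t).card := card_le_card hsub
      _ ≤ (cn (step E t) u v).card + t.card := card_union_le _ _
      _ = _ := by rw [h3]
  · have : step E t = E := by unfold step; rw [if_neg h]
    rw [this]; omega

/-- For `w ∈ cn E u v`, the triangles killing `w` are those on `uw` or on `vw`; `uvw` is on both. -/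
theorem sum_cn_drop (E : Gr n) (u v : Fin n) (h : adj E u v) :
    ∑ t ∈ tri3 n, (((cn E u v).card : ℝ) - ((cn (step E t) u v).card : ℝ)) =
      ∑ w ∈ cn E u v, (((cn E u w).card : ℝ) + ((cn E v w).card : ℝ) - 1) := by
  have h1 : ∀ t : Finset (Fin n), ((cn E u v).card : ℝ) - ((cn (step E t) u v).card : ℝ) =
      ∑ w ∈ cn E u v, (ind (t ∈ triangles E ∧ u ∈ t ∧ w ∈ t) +
        ind (t ∈ triangles E ∧ v ∈ t ∧ w ∈ t) - ind (t = {u, v, w})) := by
    intro t
    have e1 : cn (step E t) u v = (cn E u v).filter (fun w => w ∈ cn (step E t) u v) := by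
      ext w
      rw [mem_filter]
      refine ⟨fun hw => ⟨?_, hw⟩, fun hw => hw.2⟩
      exact mem_cn.2 ⟨adj_mono (step_subset _ _) (mem_cn.1 hw).1,
        adj_mono (step_subset _ _) (mem_cn.1 hw).2⟩
    rw [e1, ← drift_sum_ind, card_eq_sum_ones (cn E u v)]
    push_cast
    rw [← sum_sub_distrib]
    refine sum_congr rfl (fun w hw => ?_)
    have hw' := mem_cn.1 hw
    have e2 : (w ∈ cn (step E t) u v) ↔ ¬ (t ∈ triangles E ∧ u ∈ t ∧ w ∈ t) ∧
        ¬ (t ∈ triangles E ∧ v ∈ t ∧ w ∈ t) := by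
      rw [mem_cn, drift_adj_step, drift_adj_step]; tauto
    have e3 : t = {u, v, w} ↔ (t ∈ triangles E ∧ u ∈ t ∧ w ∈ t) ∧
        (t ∈ triangles E ∧ v ∈ t ∧ w ∈ t) := by
      constructor
      · rintro rfl
        have := drift_triple_mem h hw'.1 hw'.2
        exact ⟨⟨this, by simp, by simp⟩, this, by simp, by simp⟩
      · rintro ⟨⟨ht, hu, hwt⟩, -, hv, -⟩
        exact drift_eq_triple (drift_mem_tri.1 ht).1 hu hv hwt h.1 hw'.1.1 hw'.2.1
    rw [ind_congr e2, ind_congr e3]
    exact drift_incl _ _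
  simp only [h1]
  rw [sum_comm]
  refine sum_congr rfl (fun w hw => ?_)
  have hw' := mem_cn.1 hw
  rw [sum_sub_distrib, sum_add_distrib, drift_count hw'.1, drift_count hw'.2, drift_sum_ind,
    filter_eq', if_pos (triangles_subset E (drift_triple_mem h hw'.1 hw'.2))]
  simp

theorem card_step (E : Gr n) (hE : E ⊆ allEdges n) (t : Finset (Fin n)) :
    ((step E t).card : ℝ) = (E.card : ℝ) - 3 * ind (t ∈ triangles E) := by
  by_cases h : t ∈ triangles E
  · obtain ⟨h3, hE'⟩ := drift_mem_tri.1 h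
    have e1 : E ∩ t.sym2 = t.offDiag.image Sym2.mk.uncurry := by
      ext e
      induction e using Sym2.ind with
      | h a b =>
        rw [mem_inter, Finset.mk_mem_sym2_iff, mem_image]
        constructor
        · rintro ⟨he, ha, hb⟩
          have : a ≠ b := by simpa [allEdges] using hE he
          exact ⟨(a, b), mem_offDiag.2 ⟨ha, hb, this⟩, rfl⟩
        · rintro ⟨⟨c, d⟩, hcd, e⟩
          obtain ⟨hc, hd, hne⟩ := mem_offDiag.1 hcd
          have e' : s(c, d) = s(a, b) := e
          refine ⟨e' ▸ hE' c hc d hd hne, ?_⟩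
          rcases Sym2.eq_iff.1 e' with ⟨rfl, rfl⟩ | ⟨rfl, rfl⟩
          · exact ⟨hc, hd⟩
          · exact ⟨hd, hc⟩
    have e2 := card_sdiff_add_card_inter E t.sym2
    rw [e1, Sym2.card_image_offDiag, h3] at e2
    have e3 : step E t = E \ t.sym2 := by unfold step; rw [if_pos h]
    rw [ind_pos h, e3, ← e2]
    simp
  · have : step E t = E := by unfold step; rw [if_neg h]
    rw [this, ind_neg h]; ring

theorem drift_sum_nb (E : Gr n) (u : Fin n) (f : Fin n → ℝ) :
    ∑ v ∈ nb E u, f v = ∑ v, ind (adj E u v) * f v := by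
  rw [nb, sum_filter]
  refine sum_congr rfl (fun v _ => ?_)
  by_cases h : adj E u v <;> simp [ind, h]

theorem six_tri (E : Gr n) :
    6 * ((triangles E).card : ℝ) = ∑ u, ∑ v ∈ nb E u, ((cn E u v).card : ℝ) := by
  have e1 : ∑ u, ∑ v ∈ nb E u, ((cn E u v).card : ℝ) =
      ∑ u, ∑ v, ∑ t ∈ tri3 n, ind (adj E u v) * ind (t ∈ triangles E ∧ u ∈ t ∧ v ∈ t) := by
    refine sum_congr rfl (fun u _ => ?_)
    rw [sum_congr rfl (fun v hv => (drift_count (mem_nb.1 hv)).symm), drift_sum_nb]
    simp only [mul_sum]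
  have e2 : ∀ t : Finset (Fin n), ∑ u, ∑ v, ind (adj E u v) *
      ind (t ∈ triangles E ∧ u ∈ t ∧ v ∈ t) = 6 * ind (t ∈ triangles E) := by
    intro t
    by_cases h : t ∈ triangles E
    · obtain ⟨h3, hE'⟩ := drift_mem_tri.1 h
      rw [ind_pos h, ← Fintype.sum_prod_type']
      have : ∀ p : Fin n × Fin n, ind (adj E p.1 p.2) * ind (t ∈ triangles E ∧ p.1 ∈ t ∧ p.2 ∈ t)
          = ind (p ∈ t.offDiag) := by
        intro p
        rw [← ind_and]
        refine ind_congr ?_
        rw [mem_offDiag]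
        constructor
        · rintro ⟨h1, -, h2, h3⟩; exact ⟨h2, h3, h1.1⟩
        · rintro ⟨h1, h2, h3⟩; exact ⟨⟨h3, hE' _ h1 _ h2 h3⟩, h, h1, h2⟩
      simp only [this]
      rw [drift_sum_ind, filter_mem_eq_inter, univ_inter, offDiag_card, h3]
      norm_num
    · rw [ind_neg h, mul_zero]
      refine sum_eq_zero (fun u _ => sum_eq_zero (fun v _ => ?_))
      rw [ind_neg (p := t ∈ triangles E ∧ u ∈ t ∧ v ∈ t) (fun x => h x.1), mul_zero]
  rw [e1]
  simp only [sum_comm (t := tri3 n), e2]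
  rw [← mul_sum, drift_sum_ind, filter_mem_eq_inter, inter_eq_right.2 (triangles_subset E)]

theorem two_card (E : Gr n) (hE : E ⊆ allEdges n) :
    2 * (E.card : ℝ) = ∑ u, ((nb E u).card : ℝ) := by
  have e1 : ∑ u, ((nb E u).card : ℝ) =
      ∑ p : Fin n × Fin n, ∑ e ∈ E, ind (s(p.1, p.2) = e) := by
    rw [Fintype.sum_prod_type]
    refine sum_congr rfl (fun u _ => ?_)
    rw [nb, ← drift_sum_ind]
    refine sum_congr rfl (fun v _ => ?_)
    rw [drift_sum_ind, filter_eq]
    by_cases h : s(u, v) ∈ E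
    · have : u ≠ v := by simpa [allEdges] using hE h
      rw [if_pos h, ind_pos ⟨this, h⟩]; simp
    · rw [if_neg h, ind_neg (fun x => h x.2)]; simp
  rw [e1, sum_comm, card_eq_sum_ones E]
  push_cast
  rw [mul_sum]
  refine sum_congr rfl (fun e he => ?_)
  induction e using Sym2.ind with
  | h a b =>
    have hab : a ≠ b := by simpa [allEdges] using hE he
    have : univ.filter (fun p : Fin n × Fin n => s(p.1, p.2) = s(a, b)) = {(a, b), (b, a)} := by
      ext ⟨c, d⟩
      simp
    rw [drift_sum_ind, this, card_pair (by simp [hab])]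
    norm_num

theorem cn_allEdges {u v : Fin n} (h : u ≠ v) :
    ((cn (allEdges n) u v).card : ℝ) = (n : ℝ) - 2 := by
  have e1 : cn (allEdges n) u v = univ \ {u, v} := by
    ext w
    simp [mem_cn, adj, allEdges, eq_comm]
  have e2 := card_sdiff_add_card_eq_card (subset_univ ({u, v} : Finset (Fin n)))
  rw [card_pair h, card_univ, Fintype.card_fin, ← e1] at e2
  have e3 : ((cn (allEdges n) u v).card : ℝ) + 2 = n := by exact_mod_cast e2
  linarith

theorem card_allEdges : (allEdges n).card = n.choose 2 := by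
  have := Sym2.card_subtype_not_diag (α := Fin n)
  rw [Fintype.card_subtype, Fintype.card_fin] at this
  exact this

theorem drift_bonf {ι : Type} [DecidableEq ι] (S : Finset ι) (K : ι → Prop) :
    ∑ e ∈ S, (ind (K e) - ∑ e' ∈ S.erase e, ind (K e ∧ K e')) ≤ ind (∃ e ∈ S, K e) := by
  by_cases h : ∃ e ∈ S, K e
  · rw [ind_pos h]
    obtain ⟨e₀, he₀, hK⟩ := h
    rw [← add_sum_erase _ _ he₀]
    have h1 : ind (K e₀) - ∑ e' ∈ S.erase e₀, ind (K e₀ ∧ K e') ≤ 1 := by
      have := sum_nonneg (s := S.erase e₀) (fun e' _ => ind_nonneg (K e₀ ∧ K e'))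
      linarith [ind_le_one (K e₀)]
    have h2 : ∑ e ∈ S.erase e₀, (ind (K e) - ∑ e' ∈ S.erase e, ind (K e ∧ K e')) ≤ 0 := by
      refine sum_nonpos (fun e he => ?_)
      have hm : e₀ ∈ S.erase e := mem_erase.2 ⟨(mem_erase.1 he).1.symm, he₀⟩
      have := single_le_sum (f := fun e' => ind (K e ∧ K e')) (fun e' _ => ind_nonneg _) hm
      have e2 : ind (K e ∧ K e₀) = ind (K e) := ind_congr ⟨fun x => x.1, fun x => ⟨x, hK⟩⟩
      linarith
    linarith
  · rw [ind_neg h]
    refine sum_nonpos (fun e he => ?_)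
    rw [ind_neg (fun x => h ⟨e, he, x⟩)]
    have := sum_nonneg (s := S.erase e) (fun e' _ => ind_nonneg (K e ∧ K e'))
    linarith

theorem drift_two_edges {e e' : Sym2 (Fin n)} (he : ¬ e.IsDiag) (he' : ¬ e'.IsDiag) (hne : e' ≠ e)
    {t t' : Finset (Fin n)} (ht : t.card = 3) (ht' : t'.card = 3) (h1 : e ∈ t.sym2)
    (h2 : e' ∈ t.sym2) (h3 : e ∈ t'.sym2) (h4 : e' ∈ t'.sym2) : t = t' := by
  induction e using Sym2.ind with
  | h a b =>
  induction e' using Sym2.ind with
  | h c d =>
    rw [Finset.mk_mem_sym2_iff] at h1 h2 h3 h4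
    rw [Sym2.mk_isDiag_iff] at he he'
    have key : ∀ x, x ≠ a → x ≠ b → x ∈ t → x ∈ t' → t = t' := by
      intro x ha hb hx hx'
      rw [drift_eq_triple ht h1.1 h1.2 hx he ha.symm hb.symm,
        drift_eq_triple ht' h3.1 h3.2 hx' he ha.symm hb.symm]
    by_cases hc : c = a ∨ c = b
    · refine key d ?_ ?_ h2.2 h4.2
      · rintro rfl
        rcases hc with rfl | rfl
        · exact he' rfl
        · exact hne Sym2.eq_swap
      · rintro rfl
        rcases hc with rfl | rfl
        · exact hne rfl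
        · exact he' rfl
    · exact key c (fun x => hc (Or.inl x)) (fun x => hc (Or.inr x)) h2.1 h4.1

/-- Bonferroni: two distinct edges lie in at most one common triangle. -/
theorem hit_count (E S : Gr n) (hE : E ⊆ allEdges n) (hS : S ⊆ E) (Y : ℝ)
    (hY : ∀ u v, adj E u v → Y ≤ ((cn E u v).card : ℝ)) :
    (S.card : ℝ) * Y - (S.card : ℝ) ^ 2 ≤ ∑ t ∈ tri3 n, ind (¬ S ⊆ step E t) := by
  have hnd : ∀ e ∈ S, ¬ e.IsDiag := fun e he => by simpa [allEdges] using hE (hS he)
  have h1 : ∀ t : Finset (Fin n),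
      ∑ e ∈ S, (ind (t ∈ triangles E ∧ e ∈ t.sym2) - ∑ e' ∈ S.erase e,
        ind ((t ∈ triangles E ∧ e ∈ t.sym2) ∧ (t ∈ triangles E ∧ e' ∈ t.sym2))) ≤
        ind (¬ S ⊆ step E t) := by
    intro t
    refine (drift_bonf S (fun e => t ∈ triangles E ∧ e ∈ t.sym2)).trans (ind_mono ?_)
    rintro ⟨e, he, ht, het⟩ hsub
    have := hsub he
    unfold step at this
    rw [if_pos ht] at this
    exact (mem_sdiff.1 this).2 het
  refine le_trans ?_ (sum_le_sum (fun t _ => h1 t))
  rw [sum_comm]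
  have h2 : ∀ e ∈ S, Y - (S.card : ℝ) ≤ ∑ t ∈ tri3 n,
      (ind (t ∈ triangles E ∧ e ∈ t.sym2) - ∑ e' ∈ S.erase e,
        ind ((t ∈ triangles E ∧ e ∈ t.sym2) ∧ (t ∈ triangles E ∧ e' ∈ t.sym2))) := by
    intro e he
    rw [sum_sub_distrib, sum_comm]
    have a1 : Y ≤ ∑ t ∈ tri3 n, ind (t ∈ triangles E ∧ e ∈ t.sym2) := by
      have hd := hnd e he
      have hm := hS he
      induction e using Sym2.ind with
      | h a b =>
        have hab : adj E a b := ⟨by simpa using hd, hm⟩
        simp only [Finset.mk_mem_sym2_iff]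
        rw [drift_count hab]
        exact hY a b hab
    have a2 : ∑ e' ∈ S.erase e, ∑ t ∈ tri3 n,
        ind ((t ∈ triangles E ∧ e ∈ t.sym2) ∧ (t ∈ triangles E ∧ e' ∈ t.sym2)) ≤
        (S.card : ℝ) := by
      calc _ ≤ ∑ e' ∈ S.erase e, (1 : ℝ) := by
            refine sum_le_sum (fun e' he' => ?_)
            rw [drift_sum_ind]
            have : ((tri3 n).filter (fun t => (t ∈ triangles E ∧ e ∈ t.sym2) ∧
                (t ∈ triangles E ∧ e' ∈ t.sym2))).card ≤ 1 := by
              refine card_le_one.2 (fun t ht t' ht' => ?_)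
              obtain ⟨-, ⟨b1, b2⟩, -, b3⟩ := mem_filter.1 ht
              obtain ⟨-, ⟨c1, c2⟩, -, c3⟩ := mem_filter.1 ht'
              exact drift_two_edges (hnd e he) (hnd e' (mem_erase.1 he').2) (mem_erase.1 he').1
                (drift_mem_tri.1 b1).1 (drift_mem_tri.1 c1).1 b2 b3 c2 c3
            exact_mod_cast this
        _ ≤ _ := by
            rw [sum_const, nsmul_eq_mul, mul_one]
            exact_mod_cast card_erase_le
    linarith
  calc (S.card : ℝ) * Y - (S.card : ℝ) ^ 2 = ∑ e ∈ S, (Y - (S.card : ℝ)) := by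
        rw [sum_const, nsmul_eq_mul]; ring
    _ ≤ _ := sum_le_sum h2

end Crest.Agent.R30
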