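import Crest.Agent.R30.Drift

set_option autoImplicit false
open Finset Crest.CombinatoricsR.TriangleRemoval

namespace Crest.Agent.R30

/-! # The value function `V`: harmonicity, the lazy process, the labelled process -/

variable {n : ℕ}

theorem Labels_edge {E : Gr n} {t : Finset (Fin n)} (ht : t ∈ triangles E) :
    ∃ z ∈ E, z ∈ t.sym2 := by
  unfold triangles at ht
  rw [mem_filter, mem_powersetCard] at ht
  obtain ⟨u, hu, v, hv, huv⟩ := one_lt_card.1 (show 1 < t.card by rw [ht.1.2]; norm_num)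
  exact ⟨s(u, v), ht.2 u hu v hv huv, mk_mem_sym2_iff.2 ⟨hu, hv⟩⟩

theorem Labels_card_lt {E : Gr n} {t : Finset (Fin n)} (ht : t ∈ triangles E) :
    (E \ t.sym2).card < E.card := by
  obtain ⟨z, hz, hz'⟩ := Labels_edge ht
  exact card_lt_card ((ssubset_iff_of_subset sdiff_subset).2
    ⟨z, hz, fun h => (mem_sdiff.1 h).2 hz'⟩)

theorem Labels_tri_mono {E E' : Gr n} (h : E ⊆ E') : triangles E ⊆ triangles E' := by
  intro t ht
  unfold triangles at ht ⊢
  rw [mem_filter] at ht ⊢
  exact ⟨ht.1, fun u hu v hv huv => h (ht.2 u hu v hv huv)⟩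

theorem Labels_no_tri (φ : ℕ → ℝ) (f : ℕ) {E : Gr n} (h : triangles E = ∅) :
    expectFinal φ f E = φ E.card := by
  cases f with
  | zero => rfl
  | succ f => rw [expectFinal, if_pos (by rw [h, card_empty])]

theorem Labels_tri_empty {E : Gr n} (h : E.card ≤ 0) : triangles E = ∅ :=
  eq_empty_of_forall_notMem fun _ ht => by
    have := Labels_card_lt ht
    omega

theorem Labels_fuel (φ : ℕ → ℝ) (f f' : ℕ) (E : Gr n) (h : E.card ≤ f) (h' : E.card ≤ f') :
    expectFinal φ f E = expectFinal φ f' E := by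
  induction f generalizing f' E with
  | zero => rw [Labels_no_tri φ _ (Labels_tri_empty h), Labels_no_tri φ _ (Labels_tri_empty h)]
  | succ f ih =>
    cases f' with
    | zero => rw [Labels_no_tri φ _ (Labels_tri_empty h'), Labels_no_tri φ _ (Labels_tri_empty h')]
    | succ f' =>
      rw [expectFinal, expectFinal]
      split_ifs
      · rfl
      · congr 1
        refine sum_congr rfl fun t ht => ih _ _ ?_ ?_
        · have := Labels_card_lt ht
          omega
        · have := Labels_card_lt ht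
          omega

theorem Labels_card_le (E : Gr n) : E.card ≤ n ^ 2 := by
  refine (card_le_univ E).trans ?_
  have h := Fintype.card_le_of_surjective (fun p : Fin n × Fin n => s(p.1, p.2))
    (fun z => by
      induction z using Sym2.ind with
      | _ a b => exact ⟨(a, b), rfl⟩)
  rw [Fintype.card_prod, Fintype.card_fin] at h
  rw [sq]
  exact h

theorem Labels_V_rec (φ : ℕ → ℝ) (E : Gr n) :
    ∑ t ∈ triangles E, V φ (E \ t.sym2) = ((triangles E).card : ℝ) * V φ E := by
  by_cases h : (triangles E).card = 0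
  · rw [h, card_eq_zero.1 h]
    simp
  · have h1 : V φ E = expectFinal φ (n ^ 2 + 1) E :=
      Labels_fuel φ _ _ E (Labels_card_le E) ((Labels_card_le E).trans (Nat.le_succ _))
    rw [h1, expectFinal, if_neg h, mul_inv_cancel_left₀ (by exact_mod_cast h)]
    rfl

/-- `V` is harmonic for the lazy step over any set of triples containing the triangles.
(First: `expectFinal φ fuel E` does not depend on `fuel ≥ E.card`, and `E.card ≤ n ^ 2`.) -/
theorem V_step (φ : ℕ → ℝ) (E : Gr n) (A : Finset (Finset (Fin n))) (hA : triangles E ⊆ A) :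
    ∑ t ∈ A, V φ (step E t) = (A.card : ℝ) * V φ E := by
  have h1 : ∑ t ∈ A \ triangles E, V φ (step E t) = ((A \ triangles E).card : ℝ) * V φ E := by
    rw [← nsmul_eq_mul, ← sum_const]
    exact sum_congr rfl fun t ht => by rw [step, if_neg (mem_sdiff.1 ht).2]
  have h2 : ∑ t ∈ triangles E, V φ (step E t) = ((triangles E).card : ℝ) * V φ E := by
    rw [← Labels_V_rec]
    exact sum_congr rfl fun t ht => by rw [step, if_pos ht]
  rw [← sum_sdiff hA, h1, h2, ← add_mul, ← Nat.cast_add, card_sdiff_add_card_eq_card hA]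

theorem V_of_no_triangle (φ : ℕ → ℝ) (E : Gr n) (h : triangles E = ∅) : V φ E = φ E.card :=
  Labels_no_tri φ _ h

theorem V_eq_Ex (φ : ℕ → ℝ) (hn : 3 ≤ n) (N : ℕ) :
    V φ (allEdges n) = Ex (tri3 n) N (fun h => V φ (G n h)) := by
  have hne : (tri3 n).Nonempty := powersetCard_nonempty.2 (by simpa using hn)
  have hc : ((tri3 n).card : ℝ) ≠ 0 := by exact_mod_cast hne.card_pos.ne'
  induction N with
  | zero => rfl
  | succ N ih =>
    rw [Ex, ih]
    refine Ex_congr _ _ fun l _ _ => ?_
    simp only [avg, G]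
    rw [V_step φ (G n l) (tri3 n) (filter_subset _ _), mul_div_cancel_left₀ _ hc]

theorem Labels_le (φ : ℕ → ℝ) (B : ℝ) (f : ℕ) (E : Gr n) (h : ∀ k ≤ E.card, φ k ≤ B) :
    expectFinal φ f E ≤ B := by
  induction f generalizing E with
  | zero => exact h _ le_rfl
  | succ f ih =>
    rw [expectFinal]
    split_ifs with h0
    · exact h _ le_rfl
    · have hc : (0 : ℝ) < (triangles E).card := by exact_mod_cast Nat.pos_of_ne_zero h0
      rw [← div_eq_inv_mul, div_le_iff₀ hc, mul_comm, ← nsmul_eq_mul, ← sum_const]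
      exact sum_le_sum fun t ht => ih _ fun k hk => h k (hk.trans (Labels_card_lt ht).le)

theorem Labels_ge (φ : ℕ → ℝ) (B : ℝ) (f : ℕ) (E : Gr n) (h : ∀ k ≤ E.card, B ≤ φ k) :
    B ≤ expectFinal φ f E := by
  induction f generalizing E with
  | zero => exact h _ le_rfl
  | succ f ih =>
    rw [expectFinal]
    split_ifs with h0
    · exact h _ le_rfl
    · have hc : (0 : ℝ) < (triangles E).card := by exact_mod_cast Nat.pos_of_ne_zero h0
      rw [← div_eq_inv_mul, le_div_iff₀ hc, mul_comm, ← nsmul_eq_mul, ← sum_const]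
      exact sum_le_sum fun t ht => ih _ fun k hk => h k (hk.trans (Labels_card_lt ht).le)

theorem V_le (φ : ℕ → ℝ) (E : Gr n) (B : ℝ) (h : ∀ k ≤ E.card, φ k ≤ B) : V φ E ≤ B :=
  Labels_le φ B _ E h

theorem V_ge (φ : ℕ → ℝ) (E : Gr n) (B : ℝ) (h : ∀ k ≤ E.card, B ≤ φ k) : B ≤ V φ E :=
  Labels_ge φ B _ E h

theorem run_subset {L : ℕ} (E : Gr n) (ω : Finset (Fin n) → Fin L) (s : ℕ) : run E ω s ⊆ E := by
  induction s with
  | zero => exact Subset.refl _
  | succ s ih => exact sdiff_subset.trans ih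

/-- `k` steps of the labelled process at the times `r, r + 1, …` -/
noncomputable def Labels_from {L : ℕ} (ω : Finset (Fin n) → Fin L) : ℕ → ℕ → Gr n → Gr n
  | 0, _, E => E
  | k + 1, r, E => Labels_from ω k (r + 1) (stepL E ω r)

theorem Labels_run {L : ℕ} (ω : Finset (Fin n) → Fin L) (E : Gr n) (k r : ℕ) :
    run E ω (r + k) = Labels_from ω k r (run E ω r) := by
  induction k generalizing r with
  | zero => rfl
  | succ k ih =>
    rw [show r + (k + 1) = (r + 1) + k by omega, ih]
    rfl

/-- no tie on `A` and all labels on `A` are at least `r` -/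
def Labels_good {K : Type} {L : ℕ} (A : Finset K) (r : ℕ) (ω : K → Fin L) : Prop :=
  (∀ t ∈ A, ∀ t' ∈ A, ω t = ω t' → t = t') ∧ ∀ t ∈ A, r ≤ (ω t).val

theorem Labels_good_erase {K : Type} [DecidableEq K] {L : ℕ} {A : Finset K} {r : ℕ} {ω : K → Fin L}
    {t : K} (ht : t ∈ A) (hr : (ω t).val = r) :
    Labels_good A r ω ↔ Labels_good (A.erase t) (r + 1) ω := by
  constructor
  · rintro ⟨h1, h2⟩
    refine ⟨fun a ha b hb => h1 a (mem_of_mem_erase ha) b (mem_of_mem_erase hb), fun a ha => ?_⟩
    have h3 := h2 a (mem_of_mem_erase ha)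
    have h4 : (ω a).val ≠ r := fun h =>
      (mem_erase.1 ha).1 (h1 a (mem_of_mem_erase ha) t ht (Fin.ext (h.trans hr.symm)))
    omega
  · rintro ⟨h1, h2⟩
    refine ⟨fun a ha b hb hab => ?_, fun a ha => ?_⟩
    · by_cases h3 : a = t <;> by_cases h4 : b = t
      · rw [h3, h4]
      · have := h2 b (mem_erase.2 ⟨h4, hb⟩)
        rw [← hab, h3] at this
        omega
      · have := h2 a (mem_erase.2 ⟨h3, ha⟩)
        rw [hab, h4] at this
        omega
      · exact h1 a (mem_erase.2 ⟨h3, ha⟩) b (mem_erase.2 ⟨h4, hb⟩) hab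
    · by_cases h3 : a = t
      · rw [h3, hr]
      · have := h2 a (mem_erase.2 ⟨h3, ha⟩)
        omega

theorem Labels_good_split {K : Type} {L : ℕ} (A : Finset K) (r : ℕ) (ω : K → Fin L) :
    ind (Labels_good A r ω) = ind (Labels_good A (r + 1) ω) +
      ∑ t ∈ A, ind ((ω t).val = r) * ind (Labels_good A r ω) := by
  by_cases hg : Labels_good A r ω
  · by_cases h : ∃ t ∈ A, (ω t).val = r
    · obtain ⟨t, ht, hr⟩ := h
      rw [ind_neg (p := Labels_good A (r + 1) ω) (fun h => by have := h.2 t ht; omega),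
        sum_eq_single_of_mem t ht, ind_pos hr, one_mul, zero_add]
      intro b hb hbt
      rw [ind_neg, zero_mul]
      exact fun h => hbt (hg.1 b hb t ht (Fin.ext (h.trans hr.symm)))
    · push Not at h
      rw [sum_eq_zero fun t ht => by rw [ind_neg (h t ht), zero_mul], add_zero, ind_pos hg, ind_pos]
      refine ⟨hg.1, fun t ht => ?_⟩
      have h1 := hg.2 t ht
      have h2 := h t ht
      omega
  · rw [ind_neg hg, ind_neg (p := Labels_good A (r + 1) ω)
      (fun h => hg ⟨h.1, fun t ht => by have := h.2 t ht; omega⟩)]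
    simp

theorem Labels_good_swap {K : Type} [DecidableEq K] {L : ℕ} {A : Finset K} {r : ℕ} {ω : K → Fin L}
    {t t' : K} (ht : t ∈ A) (ht' : t' ∈ A) (h : Labels_good A r ω) :
    Labels_good A r (ω ∘ Equiv.swap t t') := by
  have hm : ∀ a ∈ A, Equiv.swap t t' a ∈ A := fun a ha => by
    rw [Equiv.swap_apply_def]
    split_ifs <;> assumption
  exact ⟨fun a ha b hb hab => (Equiv.swap t t').injective (h.1 _ (hm a ha) _ (hm b hb) hab),
    fun a ha => h.2 _ (hm a ha)⟩

theorem Labels_sym {K : Type} [Fintype K] [DecidableEq K] {L : ℕ} {A : Finset K} (r : ℕ)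
    (c : (K → Fin L) → ℝ) (hc : ∀ ω ω', (∀ t, t ∉ A → ω t = ω' t) → c ω = c ω') {t t' : K}
    (ht : t ∈ A) (ht' : t' ∈ A) :
    ∑ ω : K → Fin L, c ω * (ind ((ω t).val = r) * ind (Labels_good A r ω)) =
      ∑ ω : K → Fin L, c ω * (ind ((ω t').val = r) * ind (Labels_good A r ω)) := by
  have hinv : ∀ ω : K → Fin L, (ω ∘ Equiv.swap t t') ∘ Equiv.swap t t' = ω := fun ω => by
    funext a
    simp
  refine Fintype.sum_bijective (fun ω => ω ∘ Equiv.swap t t')
    (Function.Involutive.bijective hinv) _ _ fun ω => ?_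
  have h1 : c (ω ∘ Equiv.swap t t') = c ω := hc _ _ fun a ha => by
    rw [Function.comp_apply, Equiv.swap_apply_of_ne_of_ne (fun h : a = t => ha (h ▸ ht))
      (fun h : a = t' => ha (h ▸ ht'))]
  have h2 : Labels_good A r (ω ∘ Equiv.swap t t') ↔ Labels_good A r ω :=
    ⟨fun h => hinv ω ▸ Labels_good_swap ht ht' h, Labels_good_swap ht ht'⟩
  simp only [h1, h2, Function.comp_apply, Equiv.swap_apply_right]

theorem Labels_stepL_id {L : ℕ} {E : Gr n} {A : Finset (Finset (Fin n))} (hA : triangles E ⊆ A)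
    {r : ℕ} {ω : Finset (Fin n) → Fin L} (h : Labels_good A (r + 1) ω) : stepL E ω r = E := by
  unfold stepL
  rw [filter_eq_empty_iff.2 fun t ht => by have := h.2 t (hA ht); omega, biUnion_empty, sdiff_empty]

theorem Labels_stepL_eq {L : ℕ} {E : Gr n} {A : Finset (Finset (Fin n))} (hA : triangles E ⊆ A)
    {r : ℕ} {ω : Finset (Fin n) → Fin L} (h : Labels_good A r ω) {t : Finset (Fin n)} (ht : t ∈ A)
    (hr : (ω t).val = r) : stepL E ω r = step E t := by
  have h1 : ∀ a ∈ triangles E, (ω a).val = r → a = t := fun a ha har =>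
    h.1 a (hA ha) t ht (Fin.ext (har.trans hr.symm))
  unfold stepL step
  split_ifs with htr
  · have : (triangles E).filter (fun a => (ω a).val = r) = {t} := by
      ext a
      rw [mem_filter, mem_singleton]
      exact ⟨fun ha => h1 a ha.1 ha.2, fun ha => ha ▸ ⟨htr, hr⟩⟩
    rw [this, singleton_biUnion]
  · rw [filter_eq_empty_iff.2 fun a ha har => htr (h1 a ha har ▸ ha), biUnion_empty, sdiff_empty]

theorem Labels_tri_step {E : Gr n} {A : Finset (Finset (Fin n))} (hA : triangles E ⊆ A)
    (t : Finset (Fin n)) : triangles (step E t) ⊆ A.erase t := by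
  intro a ha
  unfold step at ha
  split_ifs at ha with htr
  · refine mem_erase.2 ⟨?_, hA (Labels_tri_mono sdiff_subset ha)⟩
    rintro rfl
    obtain ⟨z, hz, hz'⟩ := Labels_edge ha
    exact (mem_sdiff.1 hz).2 hz'
  · exact mem_erase.2 ⟨fun h => htr (h ▸ ha), hA ha⟩

theorem Labels_main (φ : ℕ → ℝ) {L : ℕ} (k r : ℕ) (hk : r + k = L) (E : Gr n)
    (A : Finset (Finset (Fin n))) (hA : triangles E ⊆ A) (c : (Finset (Fin n) → Fin L) → ℝ)
    (hc : ∀ ω ω', (∀ t, t ∉ A → ω t = ω' t) → c ω = c ω') :
    ∑ ω : Finset (Fin n) → Fin L, c ω * ind (Labels_good A r ω) * φ (Labels_from ω k r E).card =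
      (∑ ω : Finset (Fin n) → Fin L, c ω * ind (Labels_good A r ω)) * V φ E := by
  induction k generalizing r E A c with
  | zero =>
    rw [sum_mul]
    refine sum_congr rfl fun ω _ => ?_
    by_cases hg : Labels_good A r ω
    · have h0 : triangles E = ∅ := eq_empty_of_forall_notMem fun t ht => by
        have h1 := hg.2 t (hA ht)
        have h2 := (ω t).isLt
        omega
      rw [V_of_no_triangle φ E h0]
      rfl
    · rw [ind_neg hg, mul_zero, zero_mul, zero_mul]
  | succ k ih =>
    obtain ⟨M, hM⟩ : ∃ M : ℝ, ∀ t ∈ A, ∑ ω : Finset (Fin n) → Fin L,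
        c ω * (ind ((ω t).val = r) * ind (Labels_good A r ω)) = M := by
      rcases A.eq_empty_or_nonempty with rfl | ⟨t₀, ht₀⟩
      · exact ⟨0, fun t ht => absurd ht (notMem_empty t)⟩
      · exact ⟨_, fun t ht => Labels_sym r c hc ht ht₀⟩
    have h1 := ih (r + 1) (by omega) E A hA c hc
    have h2 : ∀ t ∈ A, ∑ ω : Finset (Fin n) → Fin L,
        c ω * (ind ((ω t).val = r) * ind (Labels_good A r ω)) *
          φ (Labels_from ω (k + 1) r E).card = M * V φ (step E t) := fun t ht => by
      have h3 := ih (r + 1) (by omega) (step E t) (A.erase t) (Labels_tri_step hA t)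
        (fun ω => c ω * ind ((ω t).val = r)) (fun ω ω' h => by
          rw [hc ω ω' fun a ha => h a fun h' => ha (mem_of_mem_erase h'), h t (notMem_erase t A)])
      have h4 : ∀ ω : Finset (Fin n) → Fin L, c ω * ind ((ω t).val = r) *
          ind (Labels_good (A.erase t) (r + 1) ω) =
          c ω * (ind ((ω t).val = r) * ind (Labels_good A r ω)) := fun ω => by
        by_cases hr : (ω t).val = r
        · rw [Labels_good_erase ht hr, mul_assoc]
        · rw [ind_neg hr, mul_zero, zero_mul, zero_mul, mul_zero]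
      simp only [h4] at h3
      rw [hM t ht] at h3
      rw [← h3]
      refine sum_congr rfl fun ω _ => ?_
      by_cases hr : (ω t).val = r
      · by_cases hg : Labels_good A r ω
        · rw [Labels_from, Labels_stepL_eq hA hg ht hr]
        · simp only [ind_neg hg, mul_zero, zero_mul]
      · simp only [ind_neg hr, mul_zero, zero_mul]
    have h5 : ∑ ω : Finset (Fin n) → Fin L, c ω * ind (Labels_good A (r + 1) ω) *
        φ (Labels_from ω (k + 1) r E).card =
        (∑ ω : Finset (Fin n) → Fin L, c ω * ind (Labels_good A (r + 1) ω)) * V φ E := by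
      rw [← h1]
      refine sum_congr rfl fun ω _ => ?_
      by_cases hg : Labels_good A (r + 1) ω
      · rw [Labels_from, Labels_stepL_id hA hg]
      · simp only [ind_neg hg, mul_zero, zero_mul]
    have h6 : ∀ g : (Finset (Fin n) → Fin L) → ℝ,
        ∑ ω : Finset (Fin n) → Fin L, c ω * ind (Labels_good A r ω) * g ω =
        ∑ ω : Finset (Fin n) → Fin L, c ω * ind (Labels_good A (r + 1) ω) * g ω +
        ∑ t ∈ A, ∑ ω : Finset (Fin n) → Fin L,
          c ω * (ind ((ω t).val = r) * ind (Labels_good A r ω)) * g ω := fun g => by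
      rw [sum_comm, ← sum_add_distrib]
      refine sum_congr rfl fun ω _ => ?_
      rw [← sum_mul, ← mul_sum, ← add_mul, ← mul_add, ← Labels_good_split]
    have h7 := h6 (fun _ => 1)
    simp only [mul_one] at h7
    rw [h6, h5, sum_congr rfl h2, h7, sum_congr rfl hM, ← mul_sum, V_step φ E A hA, sum_const,
      nsmul_eq_mul]
    ring

theorem Labels_tie {K : Type} [Fintype K] [DecidableEq K] {L : ℕ} {t t' : K} (h : t' ≠ t) :
    (∑ ω : K → Fin L, ind (ω t = ω t')) * L = Fintype.card (K → Fin L) := by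
  have h1 : ∑ ω : K → Fin L, ind (ω t = ω t') =
      ∑ p : Fin L × ({j // j ≠ t} → Fin L), ind (p.1 = p.2 ⟨t', h⟩) :=
    Fintype.sum_equiv (Equiv.funSplitAt t (Fin L)) _ _ fun ω => rfl
  have h2 : ∀ b : Fin L, ∑ a : Fin L, ind (a = b) = 1 := fun b => by
    rw [sum_eq_single b (fun a _ ha => ind_neg ha) (fun hb => absurd (mem_univ b) hb), ind_pos rfl]
  rw [h1, Fintype.sum_prod_type_right, Fintype.card_congr (Equiv.funSplitAt t (Fin L)),
    Fintype.card_prod, Fintype.card_fin]
  simp only [h2, sum_const, card_univ, nsmul_eq_mul]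
  push_cast
  ring

/-- With iid labels, conditionally on no tie among the triangles, the labelled process is the
triangle removal process. -/
theorem labels (φ : ℕ → ℝ) (E : Gr n) (L : ℕ) (hL : 0 < L) (B : ℝ)
    (hB : ∀ k ≤ E.card, |φ k| ≤ B) :
    |avg univ (fun ω : Finset (Fin n) → Fin L => φ (run E ω L).card) - V φ E| ≤
      2 * B * ((triangles E).card : ℝ) ^ 2 / (L : ℝ) := by
  have hB0 : 0 ≤ B := (abs_nonneg _).trans (hB 0 (Nat.zero_le _))
  have hL' : (0 : ℝ) < L := by exact_mod_cast hL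
  have : Nonempty (Fin L) := ⟨⟨0, hL⟩⟩
  have hΩ : (0 : ℝ) < Fintype.card (Finset (Fin n) → Fin L) := by exact_mod_cast Fintype.card_pos
  have hrun : ∀ ω : Finset (Fin n) → Fin L, Labels_from ω L 0 E = run E ω L := fun ω => by
    have := Labels_run ω E L 0
    rw [zero_add] at this
    exact this.symm
  have h1 := Labels_main φ L 0 (zero_add L) E (triangles E) (Subset.refl _) (fun _ => 1)
    (fun _ _ _ => rfl)
  simp only [one_mul, hrun] at h1
  have hV : |V φ E| ≤ B := abs_le.2 ⟨V_ge φ E _ fun k hk => (abs_le.1 (hB k hk)).1,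
    V_le φ E _ fun k hk => (abs_le.1 (hB k hk)).2⟩
  have h2 : avg univ (fun ω : Finset (Fin n) → Fin L => φ (run E ω L).card) - V φ E =
      (∑ ω : Finset (Fin n) → Fin L, (1 - ind (Labels_good (triangles E) 0 ω)) *
        (φ (run E ω L).card - V φ E)) / Fintype.card (Finset (Fin n) → Fin L) := by
    simp only [sub_mul, mul_sub, one_mul, sum_sub_distrib, ← sum_mul, h1, sum_const, card_univ,
      nsmul_eq_mul, avg]
    field_simp
    ring
  have h3 : ∀ ω : Finset (Fin n) → Fin L, |(1 - ind (Labels_good (triangles E) 0 ω)) *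
      (φ (run E ω L).card - V φ E)| ≤
      2 * B * ∑ p ∈ (triangles E).offDiag, ind (ω p.1 = ω p.2) := fun ω => by
    by_cases hg : Labels_good (triangles E) 0 ω
    · rw [ind_pos hg, sub_self, zero_mul, abs_zero]
      exact mul_nonneg (by positivity) (sum_nonneg fun _ _ => ind_nonneg _)
    · rw [ind_neg hg, sub_zero, one_mul]
      have h4 : ∃ p ∈ (triangles E).offDiag, ω p.1 = ω p.2 := by
        by_contra hcon
        refine hg ⟨fun a ha b hb hab => ?_, fun _ _ => Nat.zero_le _⟩
        by_contra hne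
        exact hcon ⟨(a, b), mem_offDiag.2 ⟨ha, hb, hne⟩, hab⟩
      have h5 := ind_exists_le (triangles E).offDiag (fun p => ω p.1 = ω p.2)
      rw [ind_pos h4] at h5
      have h6 := hB _ (card_le_card (run_subset E ω L))
      calc _ ≤ |φ (run E ω L).card| + |V φ E| := abs_sub _ _
        _ ≤ 2 * B * 1 := by linarith
        _ ≤ _ := by gcongr
  rw [h2, abs_div, abs_of_pos hΩ, div_le_div_iff₀ hΩ hL']
  have h4 : ((triangles E).offDiag.card : ℝ) ≤ ((triangles E).card : ℝ) ^ 2 := by
    have : (triangles E).offDiag.card ≤ (triangles E).card ^ 2 := by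
      rw [offDiag_card, sq]
      exact Nat.sub_le _ _
    exact_mod_cast this
  calc _ ≤ (∑ ω : Finset (Fin n) → Fin L,
        2 * B * ∑ p ∈ (triangles E).offDiag, ind (ω p.1 = ω p.2)) * L :=
        mul_le_mul_of_nonneg_right ((abs_sum_le_sum_abs _ _).trans (sum_le_sum fun ω _ => h3 ω))
          hL'.le
    _ = 2 * B * ∑ p ∈ (triangles E).offDiag,
          (∑ ω : Finset (Fin n) → Fin L, ind (ω p.1 = ω p.2)) * L := by
        rw [← mul_sum, sum_comm, ← sum_mul, mul_assoc]
    _ = 2 * B * ((triangles E).offDiag.card * Fintype.card (Finset (Fin n) → Fin L)) := by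
        rw [sum_congr rfl fun p hp => Labels_tie (mem_offDiag.1 hp).2.2.symm, sum_const,
          nsmul_eq_mul]
    _ ≤ 2 * B * (((triangles E).card : ℝ) ^ 2 * Fintype.card (Finset (Fin n) → Fin L)) := by
        gcongr
    _ = _ := by ring

end Crest.Agent.R30
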