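import Crest.Agent.R30.Prog
import Crest.Agent.R30.Labels

set_option autoImplicit false
open Finset Crest.CombinatoricsR.TriangleRemoval

namespace Crest.Agent.R30

/-! # The exploration program: definition, oracle semantics, fresh semantics -/

variable {n L : ℕ}

abbrev Pr (n L : ℕ) (α : Type) := Prog (Finset (Fin n)) (Fin L) α

/-- Ask the labels of a list of nodes. -/
def askF : List (Node n) → (Node n → ℕ) → Pr n L (Node n → ℕ)
  | [], lab => Prog.ret lab
  | c :: l, lab => Prog.ask (key c) (fun r => askF l (Function.update lab c r.val))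

/-- All the programs `P c`, `c ∈ l`, return `false`. -/
def allFail (P : Node n → Pr n L Bool) : List (Node n) → Pr n L Bool
  | [] => Prog.ret true
  | c :: l => (P c).bind (fun b => if b then Prog.ret false else allFail P l)

/-- No node of `C` with label `< s` is removed. -/
noncomputable def loop (E : Gr n) : ℕ → Finset (Node n) → (Node n → ℕ) → Pr n L Bool
  | 0, _, _ => Prog.ret true
  | s + 1, C, lab => (loop E s C lab).bind (fun b => if b then
      allFail (fun c => (askF (ch E c).toList (fun _ => 0)).bind (loop E s (ch E c)))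
        (C.filter (fun c => lab c = s)).toList else Prog.ret false)

/-- No child of `c` with label `< s` is removed. -/
noncomputable def node (E : Gr n) (s : ℕ) (c : Node n) : Pr n L Bool :=
  (askF (ch E c).toList (fun _ => 0)).bind (loop E s (ch E c))

theorem loop_succ (E : Gr n) (s : ℕ) (C : Finset (Node n)) (lab : Node n → ℕ) :
    (loop E (s + 1) C lab : Pr n L Bool) = (loop E s C lab).bind (fun b => if b then
      allFail (node E s) (C.filter (fun c => lab c = s)).toList else Prog.ret false) := rfl

/-! ### Oracle semantics -/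

theorem orun_askF (ω : Finset (Fin n) → Fin L) (l : List (Node n)) (lab : Node n → ℕ)
    (c : Node n) : (askF l lab).orun ω c = if c ∈ l then (ω (key c)).val else lab c := by
  induction l generalizing lab with
  | nil => simp [askF, Prog.orun]
  | cons c' l ih =>
    simp only [askF, Prog.orun, ih, List.mem_cons]
    by_cases h1 : c ∈ l
    · simp [h1]
    · by_cases h2 : c = c'
      · subst h2; simp [h1]
      · simp [h1, h2]

theorem orun_allFail (ω : Finset (Fin n) → Fin L) (P : Node n → Pr n L Bool)
    (l : List (Node n)) :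
    (allFail P l).orun ω = true ↔ ∀ c ∈ l, ¬ (P c).orun ω = true := by
  induction l with
  | nil => simp [allFail, Prog.orun]
  | cons c l ih =>
    simp only [allFail, Prog.orun_bind, List.mem_cons, forall_eq_or_imp]
    by_cases h : (P c).orun ω = true
    · simp [h, Prog.orun]
    · simp only [h, Bool.false_eq_true, if_false, ih, not_false_eq_true, true_and]

theorem ExpA_mem_tri {F : Gr n} {x w w' : Fin n} (h1 : adj F x w) (h2 : adj F x w')
    (h3 : adj F w w') : ({x, w, w'} : Finset (Fin n)) ∈ triangles F := by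
  simp only [triangles, mem_filter, mem_powersetCard, subset_univ, true_and]
  refine ⟨card_eq_three.2 ⟨x, w, w', h1.1, h2.1, h3.1, rfl⟩, ?_⟩
  intro u hu v hv huv
  simp only [mem_insert, mem_singleton] at hu hv
  rcases hu with rfl | rfl | rfl <;> rcases hv with rfl | rfl | rfl
  all_goals first
    | exact absurd rfl huv
    | exact h1.2 | exact h2.2 | exact h3.2
    | exact (adj_symm h1).2 | exact (adj_symm h2).2 | exact (adj_symm h3).2

theorem ExpA_third {F : Gr n} {t : Finset (Fin n)} (ht : t ∈ triangles F) {x w : Fin n}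
    (hx : x ∈ t) (hw : w ∈ t) (hxw : x ≠ w) :
    ∃ w', t = {x, w, w'} ∧ adj F x w' ∧ adj F w w' := by
  simp only [triangles, mem_filter, mem_powersetCard, subset_univ, true_and] at ht
  obtain ⟨hc, hE⟩ := ht
  have h2 : (({x, w} : Finset (Fin n))).card < t.card := by rw [card_pair hxw, hc]; norm_num
  obtain ⟨w', hw't, hw'⟩ := exists_mem_notMem_of_card_lt_card h2
  simp only [mem_insert, mem_singleton, not_or] at hw'
  refine ⟨w', ?_, ⟨Ne.symm hw'.1, hE x hx w' hw't (Ne.symm hw'.1)⟩,
    ⟨Ne.symm hw'.2, hE w hw w' hw't (Ne.symm hw'.2)⟩⟩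
  symm
  apply eq_of_subset_of_card_le
  · intro a ha
    simp only [mem_insert, mem_singleton] at ha
    rcases ha with rfl | rfl | rfl <;> assumption
  · rw [hc, card_eq_three.2 ⟨x, w, w', hxw, Ne.symm hw'.1, Ne.symm hw'.2, rfl⟩]

theorem adj_stepL (F : Gr n) (ω : Finset (Fin n) → Fin L) (s : ℕ) (x w : Fin n) :
    adj (stepL F ω s) x w ↔
      adj F x w ∧ ∀ t ∈ triangles F, (ω t).val = s → ¬ (x ∈ t ∧ w ∈ t) := by
  simp only [adj, stepL, mem_sdiff, mem_biUnion, mem_filter, mk_mem_sym2_iff, not_exists,
    not_and, and_imp]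
  tauto

theorem orun_loop (E : Gr n) (ω : Finset (Fin n) → Fin L) (s : ℕ) :
    ∀ (c₀ : Node n), adj E c₀.1 c₀.2.2 → adj E c₀.2.1 c₀.2.2 →
      (c₀.1 = c₀.2.1 ∨ s ≤ (ω (key c₀)).val) → ∀ lab : Node n → ℕ,
      (∀ c ∈ ch E c₀, lab c = (ω (key c)).val) →
      ((loop E s (ch E c₀) lab).orun ω = true ↔
        adj (run E ω s) c₀.1 c₀.2.2 ∧ adj (run E ω s) c₀.2.1 c₀.2.2) := by
  induction s with
  | zero => intro c₀ h1 h2 _ lab _; simp [loop, Prog.orun, run, h1, h2]
  | succ s ih =>
    rintro ⟨a, b, w⟩ h1 h2 h3 lab hlab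
    have ihn : ∀ c : Node n, adj E c.1 c.2.2 → adj E c.2.1 c.2.2 → (ω (key c)).val = s →
        ((node E s c : Pr n L Bool).orun ω = true ↔
          adj (run E ω s) c.1 c.2.2 ∧ adj (run E ω s) c.2.1 c.2.2) := by
      intro c g1 g2 g3
      unfold node
      rw [Prog.orun_bind]
      refine ih c g1 g2 (Or.inr g3.ge) _ (fun c' hc' => ?_)
      rw [orun_askF, if_pos (mem_toList.2 hc')]
    have ih0 := ih (a, b, w) h1 h2 (h3.imp id (fun h => by omega)) lab hlab
    rw [loop_succ, Prog.orun_bind]
    simp only [run, adj_stepL]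
    simp only at h1 h2 h3 ih0
    have hsub := run_subset E ω s
    by_cases hb : (loop E s (ch E (a, b, w)) lab : Pr n L Bool).orun ω = true
    · obtain ⟨ha', hb'⟩ := ih0.1 hb
      rw [if_pos hb, orun_allFail]
      simp only [mem_toList, mem_filter, and_imp]
      constructor
      · intro H
        have key1 : ∀ x, (x = a ∨ x = b) → adj (run E ω s) x w →
            ∀ t ∈ triangles (run E ω s), (ω t).val = s → ¬ (x ∈ t ∧ w ∈ t) := by
          rintro x hx hxw t ht hs ⟨hxt, hwt⟩
          obtain ⟨w', rfl, g1, g2⟩ := ExpA_third ht hxt hwt hxw.1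
          have hne : w' ≠ a ∧ w' ≠ b := by
            rcases h3 with h3 | h3
            · subst h3
              have : x = a := by tauto
              subst this
              exact ⟨g1.1.symm, g1.1.symm⟩
            · have hk : ¬ (({x, w, w'} : Finset (Fin n)) = key (a, b, w)) := by
                intro e; rw [e] at hs; omega
              constructor
              · rintro rfl
                rcases hx with rfl | rfl
                · exact g1.1 rfl
                · apply hk; ext z; simp only [key, mem_insert, mem_singleton]; tauto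
              · rintro rfl
                rcases hx with rfl | rfl
                · apply hk; ext z; simp only [key, mem_insert, mem_singleton]; tauto
                · exact g1.1 rfl
          have hc : ((x, w, w') : Node n) ∈ ch E (a, b, w) :=
            mem_ch.2 ⟨rfl, hx, hne.1, hne.2, adj_mono hsub g1, adj_mono hsub g2⟩
          have hl : lab (x, w, w') = s := by rw [hlab _ hc]; exact hs
          exact H _ hc hl ((ihn (x, w, w') (adj_mono hsub g1) (adj_mono hsub g2) hs).2 ⟨g1, g2⟩)
        exact ⟨⟨ha', key1 a (Or.inl rfl) ha'⟩, ⟨hb', key1 b (Or.inr rfl) hb'⟩⟩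
      · rintro ⟨⟨_, Ha⟩, ⟨_, Hb⟩⟩ ⟨x, w₁, w'⟩ hc hl hn
        have hc' := mem_ch.1 hc
        simp only at hc'
        obtain ⟨rfl, hx, -, -, g1, g2⟩ := hc'
        have hs : (ω (key (x, w₁, w'))).val = s := by rw [← hlab _ hc]; exact hl
        obtain ⟨g3, g4⟩ := (ihn (x, w₁, w') g1 g2 hs).1 hn
        rcases hx with rfl | rfl
        · exact Ha _ (ExpA_mem_tri ha' g3 g4) hs ⟨by simp, by simp⟩
        · exact Hb _ (ExpA_mem_tri hb' g3 g4) hs ⟨by simp, by simp⟩
    · rw [if_neg hb]
      simp only [Prog.orun, Bool.false_eq_true, false_iff]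
      rintro ⟨⟨ha', _⟩, ⟨hb', _⟩⟩
      exact hb (ih0.2 ⟨ha', hb'⟩)

theorem orun_root (E : Gr n) (ω : Finset (Fin n) → Fin L) (s : ℕ) {u v : Fin n}
    (h : adj E u v) :
    (node E s (u, u, v) : Pr n L Bool).orun ω = true ↔ adj (run E ω s) u v := by
  unfold node
  rw [Prog.orun_bind, orun_loop E ω s (u, u, v) h h (Or.inl rfl), and_self]
  intro c' hc'
  rw [orun_askF, if_pos (mem_toList.2 hc')]

/-! ### Fresh semantics -/

theorem Ff_askF (C : Finset (Node n)) (f : Node n → ℕ → ℝ) (l : List (Node n)) (hl : l.Nodup)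
    (hC : ∀ c ∈ l, c ∈ C) (lab : Node n → ℕ) :
    (askF l lab : Pr n L _).Ff (fun lab' => ∏ c ∈ C, f c (lab' c)) =
      ∏ c ∈ C, if c ∈ l then avg univ (fun r : Fin L => f c r.val) else f c (lab c) := by
  induction l generalizing lab with
  | nil => simp [askF, Prog.Ff]
  | cons c' l ih =>
    have hn := List.nodup_cons.1 hl
    have hc' : c' ∈ C := hC c' (by simp)
    simp only [askF, Prog.Ff]
    simp only [ih hn.2 (fun c hc => hC c (by simp [hc]))]
    rw [← mul_prod_erase C _ hc', if_pos (by simp), ← avg_mul_right]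
    refine avg_congr _ (fun r _ => ?_)
    rw [← mul_prod_erase C _ hc', if_neg hn.1, Function.update_self]
    congr 1
    refine prod_congr rfl (fun c hc => ?_)
    have : c ≠ c' := (mem_erase.1 hc).1
    simp [this]

theorem Ff_askF' (C : Finset (Node n)) (f : Node n → ℕ → ℝ) (lab : Node n → ℕ) :
    (askF C.toList lab : Pr n L _).Ff (fun lab' => ∏ c ∈ C, f c (lab' c)) =
      ∏ c ∈ C, avg univ (fun r : Fin L => f c r.val) := by
  rw [Ff_askF C f _ (nodup_toList C) (fun c hc => mem_toList.1 hc)]
  exact prod_congr rfl (fun c hc => if_pos (mem_toList.2 hc))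

/-- Indicator of `true`. -/
noncomputable def tr (b : Bool) : ℝ := if b then 1 else 0

theorem tr_nonneg (b : Bool) : 0 ≤ tr b := by cases b <;> simp [tr]
theorem tr_le_one (b : Bool) : tr b ≤ 1 := by cases b <;> simp [tr]

theorem Ff_allFail [Nonempty (Fin L)] (P : Node n → Pr n L Bool) (l : List (Node n))
    (hl : l.Nodup) :
    (allFail P l).Ff tr = ∏ c ∈ l.toFinset, (1 - (P c).Ff tr) := by
  induction l with
  | nil => simp [allFail, Prog.Ff, tr]
  | cons c l ih =>
    have hn := List.nodup_cons.1 hl
    rw [List.toFinset_cons, prod_insert (by simpa using hn.1), ← ih hn.2]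
    simp only [allFail, Prog.Ff_bind]
    have : (fun b : Bool => Prog.Ff tr (if b then (Prog.ret false : Pr n L Bool) else allFail P l)) =
        fun b => (allFail P l).Ff tr + (-(allFail P l).Ff tr) * tr b := by
      funext b; cases b <;> simp [tr, Prog.Ff]
    rw [this, Prog.Ff_add, Prog.Ff_const, Prog.Ff_mul_left]; ring

/-- Probability that the node `c` with label `r` has not been removed before time `s`. -/
noncomputable def gg (E : Gr n) (L s : ℕ) (c : Node n) (r : ℕ) : ℝ :=
  if r < s then 1 - qq E L r c else 1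

theorem II_eq (E : Gr n) (L s : ℕ) (c : Node n) :
    II E L s c = (∑ r ∈ range s, qq E L r c) / (L : ℝ) := by
  induction s with
  | zero => simp [II]
  | succ s ih => rw [sum_range_succ, add_div, ← ih]; rfl

theorem avg_gg (E : Gr n) (hL : 0 < L) {s : ℕ} (hs : s ≤ L) (c : Node n) :
    avg univ (fun r : Fin L => gg E L s c r.val) = 1 - II E L s c := by
  have hL' : (L : ℝ) ≠ 0 := by exact_mod_cast hL.ne'
  rw [II_eq, avg, Fin.sum_univ_eq_sum_range (fun r => gg E L s c r) L, card_univ, Fintype.card_fin]
  have : ∑ r ∈ range L, gg E L s c r = L - ∑ r ∈ range s, qq E L r c := by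
    have e : ∀ r, gg E L s c r = 1 - if r < s then qq E L r c else 0 := by
      intro r; unfold gg; split_ifs <;> simp
    simp only [e, sum_sub_distrib, sum_const, card_range, nsmul_eq_mul, mul_one]
    congr 1
    rw [← sum_filter]
    congr 1; ext r; simp only [mem_filter, mem_range]; omega
  rw [this]; field_simp

theorem Ff_loop (E : Gr n) (hL : 0 < L) (s : ℕ) (hs : s ≤ L) :
    (∀ (C : Finset (Node n)) (lab : Node n → ℕ),
      (loop E s C lab : Pr n L Bool).Ff tr = ∏ c ∈ C, gg E L s c (lab c)) ∧
    ∀ c, (node E s c : Pr n L Bool).Ff tr = qq E L s c := by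
  have : Nonempty (Fin L) := ⟨⟨0, hL⟩⟩
  have aux : ∀ s ≤ L, (∀ (C : Finset (Node n)) (lab : Node n → ℕ),
      (loop E s C lab : Pr n L Bool).Ff tr = ∏ c ∈ C, gg E L s c (lab c)) →
      ∀ c, (node E s c : Pr n L Bool).Ff tr = qq E L s c := by
    intro s hs H c
    unfold node
    rw [Prog.Ff_bind]
    simp only [H]
    rw [Ff_askF' (ch E c) (gg E L s)]
    exact prod_congr rfl (fun c' _ => avg_gg E hL hs c')
  suffices H : ∀ (C : Finset (Node n)) (lab : Node n → ℕ),
      (loop E s C lab : Pr n L Bool).Ff tr = ∏ c ∈ C, gg E L s c (lab c) from ⟨H, aux s hs H⟩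
  induction s with
  | zero => intro C lab; simp [loop, Prog.Ff, tr, gg]
  | succ s ih =>
    intro C lab
    have ih1 := ih (by omega)
    have ih2 := aux s (by omega) ih1
    rw [loop_succ, Prog.Ff_bind]
    have : (fun b : Bool => Prog.Ff tr (if b then
        allFail (node E s) (C.filter (fun c => lab c = s)).toList
          else (Prog.ret false : Pr n L Bool))) =
        fun b => (allFail (node E s) (C.filter (fun c => lab c = s)).toList : Pr n L Bool).Ff tr *
          tr b := by
      funext b; cases b <;> simp [tr, Prog.Ff]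
    rw [this, Prog.Ff_mul_left, ih1, Ff_allFail _ _ (nodup_toList _), toList_toFinset,
      prod_filter, ← prod_mul_distrib]
    refine prod_congr rfl (fun c _ => ?_)
    rw [ih2]
    unfold gg
    by_cases h1 : lab c = s
    · simp [h1]
    · by_cases h2 : lab c < s
      · have : lab c < s + 1 := by omega
        simp [h1, h2, this]
      · have : ¬ lab c < s + 1 := by omega
        simp [h1, h2, this]

end Crest.Agent.R30
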