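import Crest.Agent.R30.ExpA

set_option autoImplicit false
set_option linter.unusedSectionVars false
set_option linter.unusedVariables false
open Finset Crest.CombinatoricsR.TriangleRemoval

namespace Crest.Agent.R30

/-! # The exploration program: expected numbers of queries and collisions -/

variable {n L : ℕ}

/-! ### Discounted descendant sums -/

theorem desc_nonneg (E : Gr n) {f : Node n → ℝ} (hf : ∀ c, 0 ≤ f c) (i : ℕ) (c : Node n) :
    0 ≤ desc E f i c := by
  induction i generalizing c with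
  | zero => exact hf c
  | succ i ih => exact sum_nonneg (fun c' _ => ih c')

theorem desc_succ' (E : Gr n) (f : Node n → ℝ) (i : ℕ) (c : Node n) :
    desc E (fun c₀ => ∑ c' ∈ ch E c₀, f c') i c = desc E f (i + 1) c := by
  induction i generalizing c with
  | zero => rfl
  | succ i ih =>
    show ∑ c' ∈ ch E c, _ = ∑ c' ∈ ch E c, _
    exact sum_congr rfl (fun c' _ => ih c')

theorem desc_mul (E : Gr n) (f : Node n → ℝ) (x : ℝ) (i : ℕ) (c : Node n) :
    desc E (fun c₀ => x * f c₀) i c = x * desc E f i c := by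
  induction i generalizing c with
  | zero => rfl
  | succ i ih => simp only [desc, ih, mul_sum]

theorem nu0_nonneg (E : Gr n) {lam : ℝ} (hlam : 0 ≤ lam) (W : ℕ) {f : Node n → ℝ}
    (hf : ∀ c, 0 ≤ f c) (c : Node n) : 0 ≤ nu0 E lam W f c :=
  sum_nonneg (fun i _ => div_nonneg (desc_nonneg E hf i c) (pow_nonneg hlam _))

theorem nu1_nonneg (E : Gr n) {lam : ℝ} (hlam : 0 ≤ lam) (W : ℕ) {f : Node n → ℝ}
    (hf : ∀ c, 0 ≤ f c) (c : Node n) : 0 ≤ nu1 E lam W f c :=
  sum_nonneg (fun i _ => div_nonneg (desc_nonneg E hf _ c) (pow_nonneg hlam _))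

theorem nu0_eq (E : Gr n) (lam : ℝ) (W : ℕ) (f : Node n → ℝ) (c : Node n) :
    nu0 E lam W f c = f c + nu1 E lam W f c := by
  unfold nu0 nu1
  rw [sum_range_succ']; simp [desc, add_comm]

theorem nu1_succ (E : Gr n) {lam : ℝ} (hlam : lam ≠ 0) (W : ℕ) (f : Node n → ℝ) (c : Node n) :
    lam * nu1 E lam (W + 1) f c = ∑ c' ∈ ch E c, nu0 E lam W f c' := by
  unfold nu0 nu1
  rw [sum_comm, mul_sum]
  refine sum_congr rfl (fun i _ => ?_)
  rw [← sum_div]
  show lam * ((∑ c' ∈ ch E c, desc E f i c') / lam ^ (i + 1)) = _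
  field_simp
  ring

theorem nu0_mono (E : Gr n) {lam : ℝ} (hlam : 0 ≤ lam) {W W' : ℕ} (h : W ≤ W') {f : Node n → ℝ}
    (hf : ∀ c, 0 ≤ f c) (c : Node n) : nu0 E lam W f c ≤ nu0 E lam W' f c :=
  sum_le_sum_of_subset_of_nonneg (range_mono (by omega))
    (fun i _ _ => div_nonneg (desc_nonneg E hf i c) (pow_nonneg hlam _))

theorem nu1_mono (E : Gr n) {lam : ℝ} (hlam : 0 ≤ lam) {W W' : ℕ} (h : W ≤ W') {f : Node n → ℝ}
    (hf : ∀ c, 0 ≤ f c) (c : Node n) : nu1 E lam W f c ≤ nu1 E lam W' f c :=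
  sum_le_sum_of_subset_of_nonneg (range_mono h)
    (fun i _ _ => div_nonneg (desc_nonneg E hf _ c) (pow_nonneg hlam _))

theorem nu0_ch (E : Gr n) {lam : ℝ} (hlam : lam ≠ 0) (W : ℕ) (f : Node n → ℝ) (c : Node n) :
    nu0 E lam W (fun c₀ => ∑ c' ∈ ch E c₀, f c') c = lam * nu1 E lam (W + 1) f c := by
  unfold nu0 nu1
  rw [mul_sum]
  refine sum_congr rfl (fun i _ => ?_)
  rw [desc_succ']; field_simp
  ring

theorem nu0_mul (E : Gr n) (lam : ℝ) (W : ℕ) (f : Node n → ℝ) (x : ℝ) (c : Node n) :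
    nu0 E lam W (fun c₀ => x * f c₀) c = x * nu0 E lam W f c := by
  unfold nu0
  rw [mul_sum]
  refine sum_congr rfl (fun i _ => ?_)
  rw [desc_mul, mul_div_assoc]

theorem dk_nonneg (k : Finset (Fin n)) (c : Node n) : 0 ≤ dk k c := ind_nonneg _

theorem XX_nonneg (E : Gr n) {lam : ℝ} (hlam : 0 ≤ lam) (W : ℕ) (c : Node n) :
    0 ≤ XX E lam W c :=
  add_nonneg (sum_nonneg (fun _ _ => sum_nonneg (fun _ _ => sum_nonneg (fun k _ =>
    mul_nonneg (nu0_nonneg E hlam W (dk_nonneg k) _) (nu0_nonneg E hlam W (dk_nonneg k) _)))))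
    (sum_nonneg (fun _ _ => nu1_nonneg E hlam W (dk_nonneg _) _))

theorem Col_nonneg (E : Gr n) {lam : ℝ} (hlam : 0 ≤ lam) (W : ℕ) : 0 ≤ Col E lam W :=
  sum_nonneg (fun _ _ => sum_nonneg (fun _ _ => nu0_nonneg E hlam W (XX_nonneg E hlam W) _))

theorem vtri_ch {E : Gr n} {c c' : Node n} (h1 : adj E c.1 c.2.2) (h2 : adj E c.2.1 c.2.2)
    (hc : c' ∈ ch E c) : vtri E c' := by
  obtain ⟨e1, e2, -, -, g1, g2⟩ := mem_ch.1 hc
  refine ⟨?_, g1, g2⟩
  rw [e1]; rcases e2 with e | e <;> rw [e] <;> assumption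

/-- The Gronwall-type bound for the exploration recursion. -/
theorem rec_bound (E : Gr n) (a : ℕ → ℝ) (lam : ℝ) (hlam : 1 ≤ lam) (ha0 : ∀ r, 0 ≤ a r)
    (F : ℕ → Node n → ℝ) (f : Node n → ℝ) (hf : ∀ c, 0 ≤ f c) (N : ℕ)
    (hF : ∀ s < N, ∀ c₀, vtri E c₀ →
      (∀ r < s, ∀ c, vtri E c → F r c ≤ (∏ j ∈ range r, (1 + lam * a j)) * nu0 E lam r f c) →
      F s c₀ ≤ f c₀ + ∑ r ∈ range s, a r * ∑ c ∈ ch E c₀, F r c) :
    ∀ s < N, ∀ c, vtri E c → F s c ≤ (∏ j ∈ range s, (1 + lam * a j)) * nu0 E lam s f c := by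
  have hl0 : 0 ≤ lam := by linarith
  have hT1 : ∀ s, 1 ≤ ∏ j ∈ range s, (1 + lam * a j) := by
    intro s
    induction s with
    | zero => simp
    | succ s ih => rw [prod_range_succ]; nlinarith [mul_nonneg hl0 (ha0 s)]
  have hT : ∀ s, lam * ∑ r ∈ range s, a r * ∏ j ∈ range r, (1 + lam * a j) =
      ∏ j ∈ range s, (1 + lam * a j) - 1 := by
    intro s
    induction s with
    | zero => simp
    | succ s ih => rw [sum_range_succ, prod_range_succ, mul_add, ih]; ring
  intro s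
  induction s using Nat.strong_induction_on with
  | _ s ih =>
    intro hs c₀ hc₀
    have ih' : ∀ r < s, ∀ c, vtri E c →
        F r c ≤ (∏ j ∈ range r, (1 + lam * a j)) * nu0 E lam r f c :=
      fun r hr c hc => ih r hr (by omega) c hc
    refine (hF s hs c₀ hc₀ ih').trans ?_
    have h1 : ∑ r ∈ range s, a r * ∑ c ∈ ch E c₀, F r c ≤
        ∑ r ∈ range s, a r * (∏ j ∈ range r, (1 + lam * a j)) * (lam * nu1 E lam s f c₀) := by
      refine sum_le_sum (fun r hr => ?_)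
      have hr := mem_range.1 hr
      rw [mul_assoc]
      refine mul_le_mul_of_nonneg_left ?_ (ha0 r)
      obtain ⟨s', rfl⟩ : ∃ s', s = s' + 1 := ⟨s - 1, by omega⟩
      rw [nu1_succ E (by linarith), mul_sum]
      refine sum_le_sum (fun c hc => ?_)
      refine (ih' r hr c (vtri_ch hc₀.2.1 hc₀.2.2 hc)).trans ?_
      exact mul_le_mul_of_nonneg_left (nu0_mono E hl0 (by omega) hf c) (by linarith [hT1 r])
    rw [← sum_mul] at h1
    have h2 := hT s
    have h3 := nu1_nonneg E hl0 s hf c₀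
    rw [nu0_eq]
    have h4 : (∑ r ∈ range s, a r * ∏ j ∈ range r, (1 + lam * a j)) * (lam * nu1 E lam s f c₀) =
        (∏ j ∈ range s, (1 + lam * a j) - 1) * nu1 E lam s f c₀ := by rw [← h2]; ring
    nlinarith [hT1 s, hf c₀]

/-! ### Queries and collisions of the building blocks -/

theorem sum_dk_mul (c : Node n) (f : Finset (Fin n) → ℝ) : ∑ k, dk k c * f k = f (key c) := by
  rw [sum_eq_single (key c)]
  · simp [dk, ind_pos]
  · intro b _ hb; rw [dk, ind_neg (Ne.symm hb), zero_mul]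
  · intro hb; exact absurd (mem_univ _) hb

variable [Nonempty (Fin L)]

theorem m_askF (k : Finset (Fin n)) (l : List (Node n)) (hl : l.Nodup) (lab : Node n → ℕ) :
    (askF l lab : Pr n L _).m k = ∑ c ∈ l.toFinset, dk k c := by
  induction l generalizing lab with
  | nil => simp [askF, Prog.m]
  | cons c l ih =>
    have hn := List.nodup_cons.1 hl
    rw [List.toFinset_cons, sum_insert (by simpa using hn.1)]
    simp only [askF, Prog.m, ih hn.2, avg_const _ univ_nonempty]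
    rfl

/-- Adding a point to a sum over ordered pairs of distinct points. -/
theorem pairs_insert {ι : Type} [DecidableEq ι] (S : Finset ι) (c : ι) (hc : c ∉ S)
    (p : ι → ι → ℝ) (hp : ∀ x ∈ S, 0 ≤ p x c) :
    ∑ x ∈ S, p c x + ∑ x ∈ S, ∑ y ∈ S.erase x, p x y ≤
      ∑ x ∈ insert c S, ∑ y ∈ (insert c S).erase x, p x y := by
  rw [sum_insert hc, erase_insert hc]
  refine add_le_add le_rfl (sum_le_sum (fun x hx => ?_))
  have hxc : c ≠ x := fun e => hc (e ▸ hx)
  rw [erase_insert_of_ne hxc, sum_insert (fun h => hc (mem_of_mem_erase h))]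
  linarith [hp x hx]

theorem d_askF (l : List (Node n)) (hl : l.Nodup) (lab : Node n → ℕ) :
    (askF l lab : Pr n L _).d ≤
      ∑ c₁ ∈ l.toFinset, ∑ c₂ ∈ l.toFinset.erase c₁, ∑ k, dk k c₁ * dk k c₂ := by
  induction l generalizing lab with
  | nil => simp [askF, Prog.d]
  | cons c l ih =>
    have hn := List.nodup_cons.1 hl
    rw [List.toFinset_cons]
    refine le_trans ?_ (pairs_insert _ c (by simpa using hn.1) _ (fun x _ =>
      sum_nonneg (fun k _ => mul_nonneg (dk_nonneg _ _) (dk_nonneg _ _))))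
    simp only [askF, Prog.d, m_askF _ l hn.2, sum_dk_mul]
    rw [← avg_const (univ : Finset (Fin L)) univ_nonempty (_ + _)]
    refine avg_mono _ (fun r _ => ?_)
    have := ih hn.2 (Function.update lab c r.val)
    simp only [sum_dk_mul] at this
    linarith

theorem m_allFail (k : Finset (Fin n)) (P : Node n → Pr n L Bool) (l : List (Node n))
    (hl : l.Nodup) : (allFail P l).m k ≤ ∑ c ∈ l.toFinset, (P c).m k := by
  induction l with
  | nil => simp [allFail, Prog.m]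
  | cons c l ih =>
    have hn := List.nodup_cons.1 hl
    rw [List.toFinset_cons, sum_insert (by simpa using hn.1)]
    simp only [allFail, Prog.m_bind]
    refine add_le_add le_rfl (Prog.Ff_le (fun b => ?_) _)
    cases b
    · exact ih hn.2
    · exact sum_nonneg (fun c _ => Prog.m_nonneg _ _)

theorem d_allFail (P : Node n → Pr n L Bool) (Mb : Node n → Finset (Fin n) → ℝ)
    (l : List (Node n)) (hl : l.Nodup) (hM : ∀ c ∈ l, ∀ k, (P c).m k ≤ Mb c k) :
    (allFail P l).d ≤ ∑ c ∈ l.toFinset, (P c).d +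
      ∑ c₁ ∈ l.toFinset, ∑ c₂ ∈ l.toFinset.erase c₁, ∑ k, Mb c₁ k * Mb c₂ k := by
  induction l with
  | nil => simp [allFail, Prog.d]
  | cons c l ih =>
    have hn := List.nodup_cons.1 hl
    have hM0 : ∀ c' ∈ c :: l, ∀ k, 0 ≤ Mb c' k :=
      fun c' hc' k => (Prog.m_nonneg _ _).trans (hM c' hc' k)
    have hM' : ∀ c' ∈ l, ∀ k, (P c').m k ≤ Mb c' k := fun c' hc' => hM c' (by simp [hc'])
    have ih' := ih hn.2 hM'
    rw [List.toFinset_cons, sum_insert (by simpa using hn.1)]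
    have h1 := pairs_insert l.toFinset c (by simpa using hn.1) (fun c₁ c₂ => ∑ k, Mb c₁ k * Mb c₂ k)
      (fun x hx => sum_nonneg (fun k _ => mul_nonneg
        (hM0 x (by simp [List.mem_toFinset.1 hx]) k) (hM0 c (by simp) k)))
    have h2 := Prog.d_bind (P c) (fun b => if b then Prog.ret false else allFail P l)
      (fun k => ∑ c' ∈ l.toFinset, Mb c' k) (fun b k => by
        cases b
        · exact (m_allFail k P l hn.2).trans
            (sum_le_sum (fun c' hc' => hM' c' (List.mem_toFinset.1 hc') k))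
        · exact sum_nonneg (fun c' hc' => hM0 c' (by simp [List.mem_toFinset.1 hc']) k))
    have h3 : (P c).Ff (fun b => Prog.d (if b then (Prog.ret false : Pr n L Bool)
        else allFail P l)) ≤ (allFail P l).d := by
      refine Prog.Ff_le (fun b => ?_) _
      cases b
      · exact le_rfl
      · exact Prog.d_nonneg _
    have h4 : ∑ k, (P c).m k * ∑ c' ∈ l.toFinset, Mb c' k ≤
        ∑ x ∈ l.toFinset, ∑ k, Mb c k * Mb x k := by
      rw [sum_comm]
      refine sum_le_sum (fun k _ => ?_)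
      rw [← mul_sum]
      exact mul_le_mul_of_nonneg_right (hM c (by simp) k)
        (sum_nonneg (fun c' hc' => hM0 c' (by simp [List.mem_toFinset.1 hc']) k))
    simp only [allFail]
    linarith

/-- The weight with which the nodes of `C` get explored. -/
noncomputable def WW (E : Gr n) (L s : ℕ) (C : Finset (Node n)) (lab : Node n → ℕ)
    (φ : ℕ → Node n → ℝ) : ℝ :=
  ∑ r ∈ range s, ∑ c ∈ C, ind (lab c = r) * (loop E r C lab : Pr n L Bool).Ff tr * φ r c

theorem Ff_ite_le (p : Pr n L Bool) (g : Bool → ℝ) (x : ℝ) (h1 : g true ≤ x) (h0 : g false = 0) :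
    p.Ff g ≤ x * p.Ff tr := by
  rw [← Prog.Ff_mul_left]
  refine Prog.Ff_mono (fun b => ?_) _
  cases b <;> simp [tr, h1, h0]

theorem sum_filter_ind (C : Finset (Node n)) (lab : Node n → ℕ) (s : ℕ) (f : Node n → ℝ) :
    ∑ c ∈ C.filter (fun c => lab c = s), f c = ∑ c ∈ C, ind (lab c = s) * f c := by
  rw [sum_filter]
  refine sum_congr rfl (fun c _ => ?_)
  split_ifs with h
  · rw [ind_pos h, one_mul]
  · rw [ind_neg h, zero_mul]

theorem m_loop (E : Gr n) (k : Finset (Fin n)) (s : ℕ) (C : Finset (Node n)) (lab : Node n → ℕ) :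
    (loop E s C lab : Pr n L Bool).m k ≤
      WW E L s C lab (fun r c => (node E r c : Pr n L Bool).m k) := by
  induction s with
  | zero => simp [loop, Prog.m, WW]
  | succ s ih =>
    rw [loop_succ, Prog.m_bind]
    unfold WW at ih ⊢
    rw [sum_range_succ]
    refine add_le_add ih ?_
    refine (Ff_ite_le _ _ _ (m_allFail k _ _ (nodup_toList _)) rfl).trans (le_of_eq ?_)
    rw [toList_toFinset, sum_filter_ind, sum_mul]
    exact sum_congr rfl (fun c _ => by ring)

theorem WW_crude (E : Gr n) (s : ℕ) (C : Finset (Node n)) (lab : Node n → ℕ)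
    (φ : ℕ → Node n → ℝ) (Φ : Node n → ℝ) (h0 : ∀ r < s, ∀ c ∈ C, 0 ≤ φ r c)
    (h1 : ∀ r < s, ∀ c ∈ C, φ r c ≤ Φ c) :
    WW E L s C lab φ ≤ ∑ c ∈ C.filter (fun c => lab c < s), Φ c := by
  unfold WW
  rw [sum_comm, sum_filter]
  refine sum_le_sum (fun c hc => ?_)
  split_ifs with h
  · rw [sum_eq_single (lab c)]
    · rw [ind_pos rfl, one_mul]
      have p1 : (loop E (lab c) C lab : Pr n L Bool).Ff tr ≤ 1 := Prog.Ff_le tr_le_one _
      have p0 : 0 ≤ (loop E (lab c) C lab : Pr n L Bool).Ff tr := Prog.Ff_nonneg tr_nonneg _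
      nlinarith [h0 _ h c hc, h1 _ h c hc]
    · intro b _ hb; rw [ind_neg (Ne.symm hb)]; ring
    · intro hb; exact absurd (mem_range.2 h) hb
  · refine le_of_eq (sum_eq_zero (fun r hr => ?_))
    have := mem_range.1 hr
    rw [ind_neg (by omega)]; ring

theorem d_loop (E : Gr n) (s : ℕ) (C : Finset (Node n)) (lab : Node n → ℕ)
    (Mb : Node n → Finset (Fin n) → ℝ) (hM0 : ∀ c k, 0 ≤ Mb c k)
    (hM : ∀ r < s, ∀ c ∈ C, ∀ k, (node E r c : Pr n L Bool).m k ≤ Mb c k) :
    (loop E s C lab : Pr n L Bool).d ≤ WW E L s C lab (fun r c => (node E r c : Pr n L Bool).d) +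
      ∑ c₁ ∈ C.filter (fun c => lab c < s), ∑ c₂ ∈ C.erase c₁, ∑ k, Mb c₁ k * Mb c₂ k := by
  induction s with
  | zero => simp [loop, Prog.d, WW]
  | succ s ih =>
    have ih' := ih (fun r hr => hM r (by omega))
    set Cs := C.filter (fun c => lab c = s) with hCs
    set Cl := C.filter (fun c => lab c < s) with hCl
    have hp : ∀ c₁ c₂, 0 ≤ ∑ k, Mb c₁ k * Mb c₂ k :=
      fun c₁ c₂ => sum_nonneg (fun k _ => mul_nonneg (hM0 _ _) (hM0 _ _))
    have hMs : ∀ c ∈ Cs.toList, ∀ k, (node E s c : Pr n L Bool).m k ≤ Mb c k :=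
      fun c hc k => hM s (by omega) c (mem_filter.1 (mem_toList.1 hc)).1 k
    have h2 := Prog.d_bind (loop E s C lab : Pr n L Bool)
      (fun b => if b then allFail (node E s) Cs.toList else Prog.ret false)
      (fun k => ∑ c' ∈ Cs, Mb c' k) (fun b k => by
        cases b
        · exact sum_nonneg (fun c' _ => hM0 c' k)
        · refine (m_allFail k _ _ (nodup_toList _)).trans ?_
          rw [toList_toFinset]
          exact sum_le_sum (fun c' hc' => hMs c' (mem_toList.2 hc') k))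
    have h3 := d_allFail (node E s : Node n → Pr n L Bool) Mb Cs.toList (nodup_toList _) hMs
    rw [toList_toFinset] at h3
    have h4 := Ff_ite_le (loop E s C lab : Pr n L Bool) (fun b => Prog.d
      (if b then allFail (node E s) Cs.toList else (Prog.ret false : Pr n L Bool))) _ h3 rfl
    have p1 : (loop E s C lab : Pr n L Bool).Ff tr ≤ 1 := Prog.Ff_le tr_le_one _
    have p0 : 0 ≤ (loop E s C lab : Pr n L Bool).Ff tr := Prog.Ff_nonneg tr_nonneg _
    have h5 : ∑ k, (loop E s C lab : Pr n L Bool).m k * ∑ c' ∈ Cs, Mb c' k ≤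
        ∑ c₁ ∈ Cs, ∑ c₂ ∈ Cl, ∑ k, Mb c₁ k * Mb c₂ k := by
      have : ∑ c₁ ∈ Cs, ∑ c₂ ∈ Cl, ∑ k, Mb c₁ k * Mb c₂ k =
          ∑ k, (∑ c₂ ∈ Cl, Mb c₂ k) * ∑ c' ∈ Cs, Mb c' k := by
        simp only [sum_mul_sum]
        rw [sum_comm]
        conv_rhs => rw [sum_comm]
        refine sum_congr rfl (fun c₂ _ => ?_)
        rw [sum_comm]
        exact sum_congr rfl (fun k _ => sum_congr rfl (fun c₁ _ => mul_comm _ _))
      rw [this]
      refine sum_le_sum (fun k _ => ?_)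
      refine mul_le_mul_of_nonneg_right ?_ (sum_nonneg (fun c' _ => hM0 c' k))
      exact (m_loop E k s C lab).trans (WW_crude E s C lab _ _ (fun r _ c _ => Prog.m_nonneg _ _)
        (fun r hr c hc => hM r (by omega) c hc k))
    have h6 : ∑ c₁ ∈ C.filter (fun c => lab c < s + 1), ∑ c₂ ∈ C.erase c₁, ∑ k, Mb c₁ k * Mb c₂ k =
        ∑ c₁ ∈ Cl, ∑ c₂ ∈ C.erase c₁, ∑ k, Mb c₁ k * Mb c₂ k +
        ∑ c₁ ∈ Cs, ∑ c₂ ∈ C.erase c₁, ∑ k, Mb c₁ k * Mb c₂ k := by
      rw [← sum_union]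
      · congr 1; ext c; simp only [hCl, hCs, mem_filter, mem_union]
        constructor
        · rintro ⟨h, h'⟩; by_cases e : lab c = s
          · exact Or.inr ⟨h, e⟩
          · exact Or.inl ⟨h, by omega⟩
        · rintro (⟨h, h'⟩ | ⟨h, h'⟩) <;> exact ⟨h, by omega⟩
      · rw [disjoint_left]; intro c h1 h2
        have := (mem_filter.1 h1).2; have := (mem_filter.1 h2).2; omega
    have h7 : ∑ c₁ ∈ Cs, ∑ c₂ ∈ Cs.erase c₁, ∑ k, Mb c₁ k * Mb c₂ k +
        ∑ c₁ ∈ Cs, ∑ c₂ ∈ Cl, ∑ k, Mb c₁ k * Mb c₂ k ≤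
        ∑ c₁ ∈ Cs, ∑ c₂ ∈ C.erase c₁, ∑ k, Mb c₁ k * Mb c₂ k := by
      rw [← sum_add_distrib]
      refine sum_le_sum (fun c₁ hc₁ => ?_)
      have e1 := (mem_filter.1 hc₁).2
      rw [← sum_union]
      · refine sum_le_sum_of_subset_of_nonneg ?_ (fun c₂ _ _ => hp _ _)
        intro c hc
        rcases mem_union.1 hc with h | h
        · exact mem_erase.2 ⟨(mem_erase.1 h).1, (mem_filter.1 (mem_erase.1 h).2).1⟩
        · refine mem_erase.2 ⟨?_, (mem_filter.1 h).1⟩
          rintro rfl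
          have := (mem_filter.1 h).2; omega
      · rw [disjoint_left]; intro c h1 h2
        have := (mem_filter.1 (mem_erase.1 h1).2).2; have := (mem_filter.1 h2).2; omega
    have h8 : WW E L (s + 1) C lab (fun r c => (node E r c : Pr n L Bool).d) =
        WW E L s C lab (fun r c => (node E r c : Pr n L Bool).d) +
          (∑ c ∈ Cs, (node E s c : Pr n L Bool).d) * (loop E s C lab : Pr n L Bool).Ff tr := by
      unfold WW
      rw [sum_range_succ, hCs, sum_filter_ind, sum_mul]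
      congr 1
      exact sum_congr rfl (fun c _ => by ring)
    have h9 : 0 ≤ ∑ c₁ ∈ Cs, ∑ c₂ ∈ Cs.erase c₁, ∑ k, Mb c₁ k * Mb c₂ k :=
      sum_nonneg (fun _ _ => sum_nonneg (fun _ _ => hp _ _))
    rw [loop_succ, h6, h8]
    nlinarith

theorem Ff_WW (E : Gr n) (hL : 0 < L) (a : ℕ → ℝ) (s : ℕ) (hs : s ≤ L) (c₀ : Node n)
    (hq : ∀ r < s, 2 * qq E L r c₀ / (L : ℝ) ≤ a r)
    (hI : ∀ r < s, ∀ c ∈ ch E c₀, II E L r c ≤ 1 / 2)
    (φ : ℕ → Node n → ℝ) (h0 : ∀ r c, 0 ≤ φ r c) :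
    (askF (ch E c₀).toList (fun _ => 0) : Pr n L _).Ff (fun lab => WW E L s (ch E c₀) lab φ) ≤
      ∑ r ∈ range s, a r * ∑ c ∈ ch E c₀, φ r c := by
  unfold WW
  rw [Prog.Ff_sum]
  refine sum_le_sum (fun r hr => ?_)
  have hr := mem_range.1 hr
  rw [Prog.Ff_sum, mul_sum]
  refine sum_le_sum (fun c hc => ?_)
  rw [Prog.Ff_mul_right]
  refine mul_le_mul_of_nonneg_right (le_trans ?_ (hq r hr)) (h0 r c)
  have e1 : (fun lab : Node n → ℕ => ind (lab c = r) *
      (loop E r (ch E c₀) lab : Pr n L Bool).Ff tr) =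
      fun lab => ∏ c' ∈ ch E c₀, (if c' = c then ind (lab c' = r) else gg E L r c' (lab c')) := by
    funext lab
    rw [(Ff_loop E hL r (by omega)).1, ← mul_prod_erase _ _ hc, ← mul_prod_erase _ _ hc,
      if_pos rfl]
    have : ∏ c' ∈ (ch E c₀).erase c,
        (if c' = c then ind (lab c' = r) else gg E L r c' (lab c')) =
        ∏ c' ∈ (ch E c₀).erase c, gg E L r c' (lab c') :=
      prod_congr rfl (fun c' hc' => if_neg (mem_erase.1 hc').1)
    rw [this]
    by_cases h : lab c = r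
    · simp [gg, h]
    · simp [ind_neg h]
  rw [e1, Ff_askF' (ch E c₀) (fun c' x => if c' = c then ind (x = r) else gg E L r c' x),
    ← mul_prod_erase _ _ hc]
  have e2 : ∏ c' ∈ (ch E c₀).erase c,
      avg univ (fun x : Fin L => if c' = c then ind (x.val = r) else gg E L r c' x.val) =
      ∏ c' ∈ (ch E c₀).erase c, (1 - II E L r c') := by
    refine prod_congr rfl (fun c' hc' => ?_)
    simp only [if_neg (mem_erase.1 hc').1]
    exact avg_gg E hL (by omega) c'
  have e3 : avg univ (fun x : Fin L => if c = c then ind (x.val = r) else gg E L r c x.val) =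
      1 / (L : ℝ) := by
    simp only [if_true, avg, card_univ, Fintype.card_fin]
    congr 1
    rw [sum_eq_single (⟨r, by omega⟩ : Fin L)]
    · exact ind_pos rfl
    · intro b _ hb; exact ind_neg (fun e => hb (Fin.ext e))
    · intro hb; exact absurd (mem_univ _) hb
  rw [e2, e3, qq, ← mul_prod_erase _ _ hc]
  have p0 : 0 ≤ ∏ c' ∈ (ch E c₀).erase c, (1 - II E L r c') :=
    prod_nonneg (fun c' hc' => by linarith [hI r hr c' (mem_of_mem_erase hc')])
  have hL' : (0 : ℝ) < L := by exact_mod_cast hL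
  rw [div_mul_eq_mul_div, one_mul]
  refine div_le_div_of_nonneg_right ?_ hL'.le
  nlinarith [hI r hr c hc]

theorem m_node (E : Gr n) (k : Finset (Fin n)) (s : ℕ) (c₀ : Node n) :
    (node E s c₀ : Pr n L Bool).m k ≤ ∑ c ∈ ch E c₀, dk k c +
      (askF (ch E c₀).toList (fun _ => 0) : Pr n L _).Ff (fun lab =>
        WW E L s (ch E c₀) lab (fun r c => (node E r c : Pr n L Bool).m k)) := by
  conv_lhs => unfold node
  rw [Prog.m_bind, m_askF _ _ (nodup_toList _), toList_toFinset]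
  exact add_le_add le_rfl (Prog.Ff_mono (fun lab => m_loop E k s _ lab) _)

theorem d_node (E : Gr n) (s : ℕ) (c₀ : Node n) (lam T : ℝ) (hlam : 0 ≤ lam) (hT : 1 ≤ T) (W : ℕ)
    (hM : ∀ r < s, ∀ c ∈ ch E c₀, ∀ k,
      (node E r c : Pr n L Bool).m k ≤ T * nu1 E lam W (dk k) c) :
    (node E s c₀ : Pr n L Bool).d ≤ T ^ 2 * XX E lam W c₀ +
      (askF (ch E c₀).toList (fun _ => 0) : Pr n L _).Ff (fun lab =>
        WW E L s (ch E c₀) lab (fun r c => (node E r c : Pr n L Bool).d)) := by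
  set C := ch E c₀ with hC
  have hν : ∀ c k, 0 ≤ nu1 E lam W (dk k) c := fun c k => nu1_nonneg E hlam W (dk_nonneg k) c
  have hM0 : ∀ c k, 0 ≤ T * nu1 E lam W (dk k) c := fun c k => mul_nonneg (by linarith) (hν c k)
  have h1 := Prog.d_bind (askF C.toList (fun _ => 0) : Pr n L _) (loop E s C)
    (fun k => ∑ c ∈ C, T * nu1 E lam W (dk k) c) (fun lab k => by
      refine (m_loop E k s C lab).trans ((WW_crude E s C lab _ _ (fun r _ c _ => Prog.m_nonneg _ _)
        (fun r hr c hc => hM r hr c hc k)).trans ?_)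
      exact sum_le_sum_of_subset_of_nonneg (filter_subset _ _) (fun c _ _ => hM0 c k))
  have h2 := d_askF (L := L) C.toList (nodup_toList _) (fun _ => 0)
  rw [toList_toFinset] at h2
  have h3 : (askF C.toList (fun _ => 0) : Pr n L _).Ff (fun lab => (loop E s C lab : Pr n L _).d) ≤
      (askF C.toList (fun _ => 0) : Pr n L _).Ff (fun lab =>
        WW E L s C lab (fun r c => (node E r c : Pr n L Bool).d)) +
      ∑ c₁ ∈ C, ∑ c₂ ∈ C.erase c₁, ∑ k,
        (T * nu1 E lam W (dk k) c₁) * (T * nu1 E lam W (dk k) c₂) := by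
    rw [← Prog.Ff_const (∑ c₁ ∈ C, _) (askF C.toList (fun _ => 0) : Pr n L _), ← Prog.Ff_add]
    refine Prog.Ff_mono (fun lab => ?_) _
    refine (d_loop E s C lab (fun c k => T * nu1 E lam W (dk k) c) hM0 hM).trans ?_
    refine add_le_add le_rfl (sum_le_sum_of_subset_of_nonneg (filter_subset _ _) (fun c _ _ => ?_))
    exact sum_nonneg (fun _ _ => sum_nonneg (fun k _ => mul_nonneg (hM0 _ _) (hM0 _ _)))
  have h4 : ∑ k, (askF C.toList (fun _ => 0) : Pr n L _).m k *
      ∑ c ∈ C, T * nu1 E lam W (dk k) c =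
      ∑ c₁ ∈ C, ∑ c₂ ∈ C.erase c₁, ∑ k, dk k c₁ * (T * nu1 E lam W (dk k) c₂) +
        ∑ c₁ ∈ C, T * nu1 E lam W (dk (key c₁)) c₁ := by
    simp only [m_askF _ _ (nodup_toList _), toList_toFinset, sum_mul_sum]
    rw [sum_comm, ← sum_add_distrib]
    refine sum_congr rfl (fun c₁ hc₁ => ?_)
    rw [sum_comm, ← add_sum_erase _ _ hc₁, add_comm, sum_dk_mul]
  have h5 : ∑ c₁ ∈ C, ∑ c₂ ∈ C.erase c₁, ∑ k, dk k c₁ * dk k c₂ +
      ∑ c₁ ∈ C, ∑ c₂ ∈ C.erase c₁, ∑ k,
        (T * nu1 E lam W (dk k) c₁) * (T * nu1 E lam W (dk k) c₂) +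
      ∑ c₁ ∈ C, ∑ c₂ ∈ C.erase c₁, ∑ k, dk k c₁ * (T * nu1 E lam W (dk k) c₂) ≤
      T ^ 2 * ∑ c₁ ∈ C, ∑ c₂ ∈ C.erase c₁, ∑ k,
        nu0 E lam W (dk k) c₁ * nu0 E lam W (dk k) c₂ := by
    rw [← sum_add_distrib, ← sum_add_distrib, mul_sum]
    refine sum_le_sum (fun c₁ _ => ?_)
    rw [← sum_add_distrib, ← sum_add_distrib, mul_sum]
    refine sum_le_sum (fun c₂ _ => ?_)
    rw [← sum_add_distrib, ← sum_add_distrib, mul_sum]
    refine sum_le_sum (fun k _ => ?_)
    rw [nu0_eq, nu0_eq]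
    have a1 := dk_nonneg k c₁
    have a2 := dk_nonneg k c₂
    have b1 := hν c₁ k
    have b2 := hν c₂ k
    have t2 : T ≤ T ^ 2 := by nlinarith
    have u1 := mul_nonneg a1 a2
    have u2 := mul_nonneg a1 b2
    have u3 := mul_nonneg b1 a2
    nlinarith [mul_le_mul_of_nonneg_right t2 u2, mul_le_mul_of_nonneg_right (hT.trans t2) u1,
      mul_nonneg (sq_nonneg T) u3]
  have h6 : ∑ c₁ ∈ C, T * nu1 E lam W (dk (key c₁)) c₁ ≤
      T ^ 2 * ∑ c₁ ∈ C, nu1 E lam W (dk (key c₁)) c₁ := by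
    rw [← mul_sum]
    exact mul_le_mul_of_nonneg_right (by nlinarith) (sum_nonneg (fun c _ => hν _ _))
  conv_lhs => unfold node
  unfold XX
  rw [← hC, mul_add]
  linarith

end Crest.Agent.R30
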