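import Crest.Agent.R30.ExpB

set_option autoImplicit false
open Finset Crest.CombinatoricsR.TriangleRemoval

namespace Crest.Agent.R30

/-! # The exploration: second moment of the number of surviving edges -/

variable {n : ℕ}

theorem Explore_prod_le (a : ℕ → ℝ) (lam Θ : ℝ) (hlam : 1 ≤ lam) (ha0 : ∀ r, 0 ≤ a r) (L : ℕ)
    (hΘ : Real.exp (lam * ∑ r ∈ range L, a r) ≤ Θ) {s : ℕ} (hs : s ≤ L) :
    ∏ j ∈ range s, (1 + lam * a j) ≤ Θ := by
  have hl0 : 0 ≤ lam := by linarith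
  refine le_trans ?_ hΘ
  calc ∏ j ∈ range s, (1 + lam * a j) ≤ ∏ j ∈ range s, Real.exp (lam * a j) :=
        prod_le_prod (fun j _ => by nlinarith [mul_nonneg hl0 (ha0 j)])
          (fun j _ => by linarith [Real.add_one_le_exp (lam * a j)])
    _ = Real.exp (lam * ∑ r ∈ range s, a r) := by rw [mul_sum, Real.exp_sum]
    _ ≤ _ := Real.exp_le_exp.2 (mul_le_mul_of_nonneg_left
        (sum_le_sum_of_subset_of_nonneg (range_mono hs) (fun i _ _ => ha0 i)) hl0)

/-- Bounds for the root programs. -/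
theorem Explore_root (E : Gr n) (L : ℕ) (hL : 0 < L) (a : ℕ → ℝ)
    (lam Θ : ℝ) (hlam : 1 ≤ lam) (ha0 : ∀ r, 0 ≤ a r)
    (hq : ∀ r < L, ∀ c, vtri E c → 2 * qq E L r c / (L : ℝ) ≤ a r)
    (hI : ∀ r ≤ L, ∀ c, vtri E c → II E L r c ≤ 1 / 2)
    (hΘ : Real.exp (lam * ∑ r ∈ range L, a r) ≤ Θ) {u v : Fin n} (huv : adj E u v) :
    (∀ k, (node E L (u, u, v) : Pr n L Bool).m k ≤
      Θ * lam * ∑ c ∈ ch E (u, u, v), nu0 E lam L (dk k) c) ∧
    (node E L (u, u, v) : Pr n L Bool).d ≤ Θ ^ 3 * lam ^ 3 * nu0 E lam L (XX E lam L) (u, u, v) := by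
  have : Nonempty (Fin L) := ⟨⟨0, hL⟩⟩
  have hl0 : 0 ≤ lam := by linarith
  have hΘ1 : 1 ≤ Θ := by simpa using Explore_prod_le a lam Θ hlam ha0 L hΘ (Nat.zero_le L)
  have hT : 1 ≤ Θ * lam := by nlinarith
  have hpos : ∀ s, 0 ≤ ∏ j ∈ range s, (1 + lam * a j) := fun s =>
    prod_nonneg (fun j _ => by nlinarith [mul_nonneg hl0 (ha0 j)])
  have hWW : ∀ s < L, ∀ c₀, vtri E c₀ → ∀ φ : ℕ → Node n → ℝ, (∀ r c, 0 ≤ φ r c) →
      (askF (ch E c₀).toList (fun _ => 0) : Pr n L _).Ff (fun lab => WW E L s (ch E c₀) lab φ) ≤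
      ∑ r ∈ range s, a r * ∑ c ∈ ch E c₀, φ r c := fun s hs c₀ hc₀ φ h0 =>
    Ff_WW E hL a s hs.le c₀ (fun r hr => hq r (by omega) c₀ hc₀)
      (fun r hr c hc => hI r (by omega) c (vtri_ch hc₀.2.1 hc₀.2.2 hc)) φ h0
  -- queries below a triangle node
  have hm : ∀ r < L, ∀ c, vtri E c → ∀ k,
      (node E r c : Pr n L Bool).m k ≤ Θ * lam * nu1 E lam L (dk k) c := by
    intro r hr c hc k
    have := rec_bound E a lam hlam ha0 (fun r c => (node E r c : Pr n L Bool).m k)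
      (fun c₀ => ∑ c' ∈ ch E c₀, dk k c') (fun c₀ => sum_nonneg (fun c' _ => dk_nonneg k c')) L
      (fun s hs c₀ hc₀ _ => (m_node E k s c₀).trans (add_le_add le_rfl
        (hWW s hs c₀ hc₀ _ (fun r c => Prog.m_nonneg _ _)))) r hr c hc
    refine this.trans ?_
    rw [nu0_ch E (by linarith), mul_assoc]
    refine mul_le_mul (Explore_prod_le a lam Θ hlam ha0 L hΘ hr.le)
      (mul_le_mul_of_nonneg_left (nu1_mono E hl0 (by omega) (dk_nonneg k) c) hl0)
      (mul_nonneg hl0 (nu1_nonneg E hl0 _ (dk_nonneg k) c)) (by linarith)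
  have hX := XX_nonneg E hl0 L
  -- collisions below a triangle node
  have hd : ∀ r < L, ∀ c, vtri E c →
      (node E r c : Pr n L Bool).d ≤ Θ * ((Θ * lam) ^ 2 * nu0 E lam (L - 1) (XX E lam L) c) := by
    intro r hr c hc
    have := rec_bound E a lam hlam ha0 (fun r c => (node E r c : Pr n L Bool).d)
      (fun c₀ => (Θ * lam) ^ 2 * XX E lam L c₀) (fun c₀ => mul_nonneg (sq_nonneg _) (hX c₀)) L
      (fun s hs c₀ hc₀ _ => (d_node E s c₀ lam (Θ * lam) hl0 hT L (fun r hr c hc k =>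
        hm r (by omega) c (vtri_ch hc₀.2.1 hc₀.2.2 hc) k)).trans (add_le_add le_rfl
        (hWW s hs c₀ hc₀ _ (fun r c => Prog.d_nonneg _)))) r hr c hc
    refine this.trans ?_
    rw [nu0_mul]
    refine mul_le_mul (Explore_prod_le a lam Θ hlam ha0 L hΘ hr.le)
      (mul_le_mul_of_nonneg_left (nu0_mono E hl0 (by omega) hX c) (sq_nonneg _))
      (mul_nonneg (sq_nonneg _) (nu0_nonneg E hl0 _ hX c)) (by linarith)
  have hch : ∀ c ∈ ch E (u, u, v), vtri E c := fun c hc => vtri_ch (c := (u, u, v)) huv huv hc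
  constructor
  · intro k
    refine (m_node E k L (u, u, v)).trans ?_
    have h1 : (askF (ch E (u, u, v)).toList (fun _ => 0) : Pr n L _).Ff (fun lab =>
        WW E L L (ch E (u, u, v)) lab (fun r c => (node E r c : Pr n L Bool).m k)) ≤
        ∑ c ∈ ch E (u, u, v), Θ * lam * nu1 E lam L (dk k) c := by
      refine Prog.Ff_le (fun lab => ?_) _
      refine (WW_crude E L _ lab _ (fun c => Θ * lam * nu1 E lam L (dk k) c)
        (fun r _ c _ => Prog.m_nonneg _ _) (fun r hr c hc => hm r hr c (hch c hc) k)).trans ?_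
      exact sum_le_sum_of_subset_of_nonneg (filter_subset _ _) (fun c _ _ =>
        mul_nonneg (by linarith) (nu1_nonneg E hl0 _ (dk_nonneg k) c))
    refine (add_le_add le_rfl h1).trans ?_
    rw [← sum_add_distrib, mul_sum]
    refine sum_le_sum (fun c _ => ?_)
    rw [nu0_eq]
    nlinarith [dk_nonneg k c]
  · refine (d_node E L (u, u, v) lam (Θ * lam) hl0 hT L
      (fun r hr c hc k => hm r hr c (hch c hc) k)).trans ?_
    have h1 : (askF (ch E (u, u, v)).toList (fun _ => 0) : Pr n L _).Ff (fun lab =>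
        WW E L L (ch E (u, u, v)) lab (fun r c => (node E r c : Pr n L Bool).d)) ≤
        ∑ c ∈ ch E (u, u, v), Θ * ((Θ * lam) ^ 2 * nu0 E lam (L - 1) (XX E lam L) c) := by
      refine Prog.Ff_le (fun lab => ?_) _
      refine (WW_crude E L _ lab _
        (fun c => Θ * ((Θ * lam) ^ 2 * nu0 E lam (L - 1) (XX E lam L) c))
        (fun r _ c _ => Prog.d_nonneg _) (fun r hr c hc => hd r hr c (hch c hc))).trans ?_
      exact sum_le_sum_of_subset_of_nonneg (filter_subset _ _) (fun c _ _ =>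
        mul_nonneg (by linarith) (mul_nonneg (sq_nonneg _) (nu0_nonneg E hl0 _ hX c)))
    rw [← mul_sum, ← mul_sum, ← nu1_succ E (by linarith), Nat.sub_add_cancel hL] at h1
    refine (add_le_add le_rfl h1).trans ?_
    rw [nu0_eq]
    have h2 := mul_nonneg (sq_nonneg (Θ * lam)) (hX (u, u, v))
    nlinarith [mul_le_mul_of_nonneg_right hT h2]

theorem tr_root (E : Gr n) {L : ℕ} (ω : Finset (Fin n) → Fin L) {u v : Fin n} (h : adj E u v) :
    tr ((node E L (u, u, v) : Pr n L Bool).orun ω) = ind (adj (run E ω L) u v) := by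
  by_cases h1 : adj (run E ω L) u v
  · rw [ind_pos h1, (orun_root E ω L h).2 h1]; simp [tr]
  · rw [ind_neg h1]
    have : ¬ (node E L (u, u, v) : Pr n L Bool).orun ω = true := fun e =>
      h1 ((orun_root E ω L h).1 e)
    simp [tr, this]

/-- The covariance bound for two programs. -/
theorem Explore_cov {K Lb : Type} [Fintype K] [DecidableEq K] [Fintype Lb] [Nonempty Lb]
    (p q : Prog K Lb Bool) (M : K → ℝ) (hM : ∀ k, q.m k ≤ M k) :
    avg univ (fun ω : K → Lb => (tr (p.orun ω) - p.Ff tr) * (tr (q.orun ω) - q.Ff tr)) ≤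
      2 * p.d + 2 * q.d + ∑ k, p.m k * M k := by
  let both : Prog K Lb ℝ := p.bind (fun b => q.bind (fun b' => Prog.ret (tr b * tr b')))
  have c1 := abs_le.1 (Prog.couple p tr tr_nonneg tr_le_one)
  have c2 := abs_le.1 (Prog.couple q tr tr_nonneg tr_le_one)
  let F : ℝ → ℝ := fun x => max 0 (min 1 x)
  have hF : ∀ b b', F (tr b * tr b') = tr b * tr b' := by
    intro b b'; cases b <;> cases b' <;> simp [F, tr]
  have c3 := abs_le.1 (Prog.couple both F (fun x => le_max_left _ _)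
    (fun x => max_le zero_le_one (min_le_left _ _)))
  have e1 : ∀ ω : K → Lb, F (both.orun ω) = tr (p.orun ω) * tr (q.orun ω) := by
    intro ω; simp only [both, Prog.orun_bind, Prog.orun, hF]
  have e2 : both.Ff F = p.Ff tr * q.Ff tr := by
    simp only [both, Prog.Ff_bind, Prog.Ff, hF, Prog.Ff_mul_left, Prog.Ff_mul_right]
  have e3 : both.d ≤ p.d + q.d + ∑ k, p.m k * M k := by
    have h1 := Prog.d_bind p (fun b => q.bind (fun b' => Prog.ret (tr b * tr b'))) M
      (fun b k => by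
        rw [Prog.m_bind]; simp only [Prog.m, Prog.Ff_const, add_zero]; exact hM k)
    have h2 : p.Ff (fun b => (q.bind (fun b' => (Prog.ret (tr b * tr b') : Prog K Lb ℝ))).d) ≤
        q.d := by
      refine Prog.Ff_le (fun b => ?_) _
      have := Prog.d_bind q (fun b' => (Prog.ret (tr b * tr b') : Prog K Lb ℝ)) (fun _ => 0)
        (fun _ _ => le_rfl)
      simpa [Prog.d, Prog.Ff_const] using this
    linarith
  simp only [e1, e2] at c3
  have e4 : avg univ (fun ω : K → Lb => (tr (p.orun ω) - p.Ff tr) * (tr (q.orun ω) - q.Ff tr)) =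
      avg univ (fun ω : K → Lb => tr (p.orun ω) * tr (q.orun ω)) -
        q.Ff tr * avg univ (fun ω : K → Lb => tr (p.orun ω)) -
        p.Ff tr * avg univ (fun ω : K → Lb => tr (q.orun ω)) + p.Ff tr * q.Ff tr := by
    rw [← avg_mul_left, ← avg_mul_left, ← avg_sub, ← avg_sub,
      ← avg_const (univ : Finset (K → Lb)) univ_nonempty (p.Ff tr * q.Ff tr), ← avg_add]
    exact avg_congr _ (fun ω _ => by ring)
  have p0 := Prog.Ff_nonneg tr_nonneg p
  have p1 := Prog.Ff_le tr_le_one p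
  have q0 := Prog.Ff_nonneg tr_nonneg q
  have q1 := Prog.Ff_le tr_le_one q
  have d1 := Prog.d_nonneg p
  have d2 := Prog.d_nonneg q
  rw [e4]
  nlinarith [mul_le_mul_of_nonneg_left c1.1 q0, mul_le_mul_of_nonneg_left c2.1 p0,
    mul_le_mul_of_nonneg_right q1 d1, mul_le_mul_of_nonneg_right p1 d2]

theorem explore_var (E : Gr n) (hE : E ⊆ allEdges n) (L : ℕ) (hL : 0 < L) (a : ℕ → ℝ)
    (lam Θ : ℝ) (hlam : 1 ≤ lam) (ha0 : ∀ r, 0 ≤ a r)
    (hq : ∀ r < L, ∀ c, vtri E c → 2 * qq E L r c / (L : ℝ) ≤ a r)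
    (hI : ∀ r ≤ L, ∀ c, vtri E c → II E L r c ≤ 1 / 2)
    (hΘ : Real.exp (lam * ∑ r ∈ range L, a r) ≤ Θ) :
    avg univ (fun ω : Finset (Fin n) → Fin L => (2 * ((run E ω L).card : ℝ) - SS E L) ^ 2) ≤
      8 * (E.card : ℝ) * (Θ ^ 3 * lam ^ 3 * Col E lam L) + (Θ * lam) ^ 2 * Cross E lam L := by
  have : Nonempty (Fin L) := ⟨⟨0, hL⟩⟩
  have hl0 : 0 ≤ lam := by linarith
  let Ed : Finset (Fin n × Fin n) := univ.filter (fun e => adj E e.1 e.2)
  have hEd : ∀ f : Fin n → Fin n → ℝ, ∑ u, ∑ v ∈ nb E u, f u v = ∑ e ∈ Ed, f e.1 e.2 := by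
    intro f
    simp only [Ed, nb, sum_filter]
    rw [Fintype.sum_prod_type]
  have hmem : ∀ e ∈ Ed, adj E e.1 e.2 := fun e he => (mem_filter.1 he).2
  let P : Fin n × Fin n → Pr n L Bool := fun e => node E L (e.1, e.1, e.2)
  let M : Fin n × Fin n → Finset (Fin n) → ℝ := fun e k =>
    Θ * lam * ∑ c ∈ ch E (e.1, e.1, e.2), nu0 E lam L (dk k) c
  let dd : Fin n × Fin n → ℝ := fun e =>
    Θ ^ 3 * lam ^ 3 * nu0 E lam L (XX E lam L) (e.1, e.1, e.2)
  have hR : ∀ e ∈ Ed, (∀ k, (P e).m k ≤ M e k) ∧ (P e).d ≤ dd e := fun e he =>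
    Explore_root E L hL a lam Θ hlam ha0 hq hI hΘ (hmem e he)
  have hcard : (Ed.card : ℝ) = 2 * (E.card : ℝ) := by
    rw [two_card E hE]
    have := hEd (fun _ _ => 1)
    simpa using this.symm
  have e1 : ∀ ω : Finset (Fin n) → Fin L, 2 * ((run E ω L).card : ℝ) - SS E L =
      ∑ e ∈ Ed, (tr ((P e).orun ω) - (P e).Ff tr) := by
    intro ω
    rw [sum_sub_distrib, two_card _ ((run_subset E ω L).trans hE), SS, hEd]
    congr 1
    · rw [sum_congr rfl (fun e he => tr_root E ω (hmem e he)),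
        ← hEd (fun u v => ind (adj (run E ω L) u v))]
      refine sum_congr rfl (fun u _ => ?_)
      have : nb (run E ω L) u = (nb E u).filter (fun v => adj (run E ω L) u v) := by
        ext v; simp only [mem_nb, mem_filter]
        exact ⟨fun h => ⟨adj_mono (run_subset E ω L) h, h⟩, fun h => h.2⟩
      rw [this, card_filter]
      push_cast
      refine sum_congr rfl (fun v _ => ?_)
      split_ifs with h
      · rw [ind_pos h]
      · rw [ind_neg h]
    · exact sum_congr rfl (fun e _ => ((Ff_loop E hL L le_rfl).2 _).symm)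
  simp only [e1, sq, sum_mul_sum]
  rw [avg_sum]
  simp only [avg_sum]
  have h1 : ∀ e ∈ Ed, ∀ e' ∈ Ed, avg univ (fun ω : Finset (Fin n) → Fin L =>
      (tr ((P e).orun ω) - (P e).Ff tr) * (tr ((P e').orun ω) - (P e').Ff tr)) ≤
      2 * dd e + 2 * dd e' + ∑ k, M e k * M e' k := by
    intro e he e' he'
    refine (Explore_cov (P e) (P e') (M e') (hR e' he').1).trans ?_
    have : ∑ k, (P e).m k * M e' k ≤ ∑ k, M e k * M e' k :=
      sum_le_sum (fun k _ => mul_le_mul_of_nonneg_right ((hR e he).1 k)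
        ((Prog.m_nonneg _ _).trans ((hR e' he').1 k)))
    linarith [(hR e he).2, (hR e' he').2]
  refine (sum_le_sum (fun e he => sum_le_sum (fun e' he' => h1 e he e' he'))).trans (le_of_eq ?_)
  have e2 : ∑ e ∈ Ed, dd e = Θ ^ 3 * lam ^ 3 * Col E lam L := by
    rw [Col, hEd, mul_sum]
  have e3 : ∑ e ∈ Ed, ∑ e' ∈ Ed, ∑ k, M e k * M e' k = (Θ * lam) * (Θ * lam) * Cross E lam L := by
    rw [Cross, mul_sum]
    have : ∀ k, Θ * lam * (Θ * lam) *
        (∑ u, ∑ v ∈ nb E u, ∑ c ∈ ch E (u, u, v), nu0 E lam L (dk k) c) ^ 2 =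
        ∑ e ∈ Ed, ∑ e' ∈ Ed, M e k * M e' k := by
      intro k
      rw [← sum_mul_sum, hEd]
      simp only [M, ← mul_sum]; ring
    simp only [this]
    conv_rhs => rw [sum_comm]
    refine sum_congr rfl (fun e _ => ?_)
    rw [sum_comm]
  simp only [sum_add_distrib, sum_const, nsmul_eq_mul, ← mul_sum, e3, e2, hcard]
  ring

end Crest.Agent.R30
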