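import Crest.Agent.R30.Drift

set_option autoImplicit false
open Finset Crest.CombinatoricsR.TriangleRemoval

namespace Crest.Agent.R30

/-! # Few closed walks in the links imply expansion -/

/-- The estimate in eigen-coordinates. -/
lemma Gap_coord {ι : Type} [Fintype ι] [DecidableEq ι] (lam a b : ι → ℝ) (β γ η : ℝ) (l : ℕ)
    (hl : Even l) (hl0 : l ≠ 0) (hβ : 0 ≤ β) (hβη : β ≤ η) (hη : η ≤ 1 / 10)
    (hγ : γ + (l : ℝ) * β ≤ η ^ l) (ha : ∑ i, a i ^ 2 = 1)
    (hab : ∑ i, (lam i * a i - a i) ^ 2 ≤ β ^ 2) (htr : ∑ i, lam i ^ l ≤ 1 + γ) :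
    ∑ i, (lam i * b i - (∑ j, a j * b j) * a i) ^ 2 ≤ (10 * η) ^ 2 * ∑ i, b i ^ 2 := by
  have hne : (univ : Finset ι).Nonempty := by
    by_contra h
    rw [Finset.not_nonempty_iff_eq_empty] at h
    rw [h] at ha
    simp at ha
  have hη0 : 0 ≤ η := hβ.trans hβη
  obtain ⟨i₁, -, hi₁⟩ := Finset.exists_min_image univ (fun i => (lam i - 1) ^ 2) hne
  have h1 : (lam i₁ - 1) ^ 2 ≤ β ^ 2 := by
    calc (lam i₁ - 1) ^ 2 = ∑ i, (lam i₁ - 1) ^ 2 * a i ^ 2 := by
          rw [← Finset.mul_sum, ha, mul_one]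
      _ ≤ ∑ i, (lam i * a i - a i) ^ 2 := by
          refine Finset.sum_le_sum fun i _ => ?_
          have := hi₁ i (mem_univ i)
          calc (lam i₁ - 1) ^ 2 * a i ^ 2 ≤ (lam i - 1) ^ 2 * a i ^ 2 :=
                mul_le_mul_of_nonneg_right this (sq_nonneg _)
            _ = _ := by ring
      _ ≤ β ^ 2 := hab
  have h1' : |lam i₁ - 1| ≤ β := abs_le_of_sq_le_sq h1 hβ
  have h1l : 1 - β ≤ lam i₁ := by have := (abs_le.1 h1').1; linarith
  have h1u : lam i₁ ≤ 1 + β := by have := (abs_le.1 h1').2; linarith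
  have hpow : 1 - (l : ℝ) * β ≤ lam i₁ ^ l := by
    have h2 : 1 + (l : ℝ) * (-β) ≤ (1 + -β) ^ l := one_add_mul_le_pow (by linarith) l
    have h3 : (1 + -β) ^ l ≤ lam i₁ ^ l := pow_le_pow_left₀ (by linarith) (by linarith) l
    linarith
  have hoth : ∀ j, j ≠ i₁ → |lam j| ≤ η := by
    intro j hj
    have h2 : lam j ^ l + lam i₁ ^ l ≤ ∑ i, lam i ^ l := by
      have h3 : ∑ i ∈ ({j, i₁} : Finset ι), lam i ^ l ≤ ∑ i, lam i ^ l :=
        Finset.sum_le_sum_of_subset_of_nonneg (subset_univ _) fun i _ _ => hl.pow_nonneg _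
      rwa [Finset.sum_pair hj] at h3
    have h4 : |lam j| ^ l ≤ η ^ l := by
      rw [hl.pow_abs]; linarith
    exact le_of_pow_le_pow_left₀ hl0 hη0 h4
  set S := univ.erase i₁ with hS
  have hsplit : ∀ g : ι → ℝ, ∑ i, g i = g i₁ + ∑ i ∈ S, g i := fun g =>
    (Finset.add_sum_erase univ g (mem_univ i₁)).symm
  set R := ∑ i ∈ S, a i ^ 2 with hR
  set Bn := ∑ i, b i ^ 2 with hBn
  have hR0 : 0 ≤ R := Finset.sum_nonneg fun i _ => sq_nonneg _
  have hB0 : 0 ≤ Bn := Finset.sum_nonneg fun i _ => sq_nonneg _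
  have hRle : R ≤ 2 * η ^ 2 := by
    have h2 : (1 / 2) * R ≤ ∑ i ∈ S, (lam i * a i - a i) ^ 2 := by
      rw [hR, Finset.mul_sum]
      refine Finset.sum_le_sum fun i hi => ?_
      have h3 := abs_le.1 (hoth i (Finset.ne_of_mem_erase hi))
      have h4 : (1 / 2 : ℝ) ≤ (lam i - 1) ^ 2 := by nlinarith
      calc (1 / 2) * a i ^ 2 ≤ (lam i - 1) ^ 2 * a i ^ 2 :=
            mul_le_mul_of_nonneg_right h4 (sq_nonneg _)
        _ = _ := by ring
    have h3 := hsplit (fun i => (lam i * a i - a i) ^ 2)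
    have h4 : β ^ 2 ≤ η ^ 2 := pow_le_pow_left₀ hβ hβη 2
    have h5 := sq_nonneg (lam i₁ * a i₁ - a i₁)
    linarith
  have hc : a i₁ ^ 2 = 1 - R := by
    have := hsplit (fun i => a i ^ 2)
    linarith
  set s := ∑ j, a j * b j with hs
  set t := ∑ j ∈ S, a j * b j with ht
  have hst : s = a i₁ * b i₁ + t := hsplit (fun j => a j * b j)
  have hs2 : s ^ 2 ≤ Bn := by
    have := Finset.sum_mul_sq_le_sq_mul_sq univ a b
    rw [ha, one_mul] at this
    exact this
  have hBS : ∑ i ∈ S, b i ^ 2 ≤ Bn :=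
    Finset.sum_le_sum_of_subset_of_nonneg (subset_univ _) fun i _ _ => sq_nonneg _
  have hb1 : b i₁ ^ 2 ≤ Bn :=
    Finset.single_le_sum (f := fun i => b i ^ 2) (fun i _ => sq_nonneg _) (mem_univ i₁)
  have ht2 : t ^ 2 ≤ R * Bn := by
    have := Finset.sum_mul_sq_le_sq_mul_sq S a b
    exact this.trans (mul_le_mul_of_nonneg_left hBS hR0)
  have hrest : ∑ i ∈ S, (lam i * b i - s * a i) ^ 2 ≤ 2 * η ^ 2 * Bn + 2 * Bn * R := by
    calc ∑ i ∈ S, (lam i * b i - s * a i) ^ 2
        ≤ ∑ i ∈ S, (2 * η ^ 2 * b i ^ 2 + 2 * Bn * a i ^ 2) := by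
          refine Finset.sum_le_sum fun i hi => ?_
          have h3 := hoth i (Finset.ne_of_mem_erase hi)
          have h4 : lam i ^ 2 ≤ η ^ 2 := by
            rw [← sq_abs]; exact pow_le_pow_left₀ (abs_nonneg _) h3 2
          have h5 : lam i ^ 2 * b i ^ 2 ≤ η ^ 2 * b i ^ 2 :=
            mul_le_mul_of_nonneg_right h4 (sq_nonneg _)
          have h6 : s ^ 2 * a i ^ 2 ≤ Bn * a i ^ 2 :=
            mul_le_mul_of_nonneg_right hs2 (sq_nonneg _)
          nlinarith [sq_nonneg (lam i * b i + s * a i)]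
      _ = 2 * η ^ 2 * ∑ i ∈ S, b i ^ 2 + 2 * Bn * R := by
          rw [Finset.sum_add_distrib, ← Finset.mul_sum, ← Finset.mul_sum]
      _ ≤ _ := by
          have := mul_le_mul_of_nonneg_left hBS (by positivity : 0 ≤ 2 * η ^ 2)
          linarith
  have hfirst : (lam i₁ * b i₁ - s * a i₁) ^ 2 ≤ 8 * η ^ 2 * Bn + 2 * R * Bn := by
    have e : lam i₁ * b i₁ - s * a i₁ = (lam i₁ - 1 + R) * b i₁ - t * a i₁ := by
      rw [hst]
      have : a i₁ * a i₁ = 1 - R := by rw [← hc]; ring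
      linear_combination (-b i₁) * this
    have hRη : R ≤ η := by nlinarith
    have h2 : (lam i₁ - 1 + R) ^ 2 ≤ 4 * η ^ 2 := by
      have h3 : |lam i₁ - 1 + R| ≤ 2 * η := by
        rw [abs_le]; constructor <;> linarith
      have := pow_le_pow_left₀ (abs_nonneg _) h3 2
      rw [sq_abs] at this
      linarith
    have h3 : (lam i₁ - 1 + R) ^ 2 * b i₁ ^ 2 ≤ 4 * η ^ 2 * Bn :=
      mul_le_mul h2 hb1 (sq_nonneg _) (by positivity)
    have h4 : t ^ 2 * a i₁ ^ 2 ≤ R * Bn * 1 :=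
      mul_le_mul ht2 (by linarith) (sq_nonneg _) (by positivity)
    rw [e]
    nlinarith [sq_nonneg ((lam i₁ - 1 + R) * b i₁ + t * a i₁)]
  rw [hsplit (fun i => (lam i * b i - s * a i) ^ 2)]
  have h7 : R * Bn ≤ 2 * η ^ 2 * Bn := mul_le_mul_of_nonneg_right hRle hB0
  have h8 : 0 ≤ η ^ 2 * Bn := by positivity
  nlinarith

/-- Orthogonal diagonalisation of a real symmetric matrix. -/
lemma Gap_diag {ι : Type} [Fintype ι] [DecidableEq ι] (M : Matrix ι ι ℝ)
    (hM : ∀ i j, M i j = M j i) :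
    ∃ (U : Matrix ι ι ℝ) (lam : ι → ℝ), U.transpose * U = 1 ∧ U * U.transpose = 1 ∧
      M = U * Matrix.diagonal lam * U.transpose := by
  have hH : M.IsHermitian := by
    ext i j
    simp [Matrix.conjTranspose_apply, hM i j]
  refine ⟨(hH.eigenvectorUnitary : Matrix ι ι ℝ), hH.eigenvalues, ?_, ?_, ?_⟩
  · have := Unitary.coe_star_mul_self hH.eigenvectorUnitary
    simpa [Matrix.star_eq_conjTranspose] using this
  · have := Unitary.coe_mul_star_self hH.eigenvectorUnitary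
    simpa [Matrix.star_eq_conjTranspose] using this
  · have := hH.spectral_theorem
    simpa [Unitary.conjStarAlgAut_apply, Matrix.star_eq_conjTranspose] using this

/-- The estimate for a symmetric matrix. -/
lemma Gap_mat {ι : Type} [Fintype ι] [DecidableEq ι] (M : Matrix ι ι ℝ)
    (hM : ∀ i j, M i j = M j i) (e f : ι → ℝ) (β γ η : ℝ) (l : ℕ)
    (hl : Even l) (hl0 : l ≠ 0) (hβ : 0 ≤ β) (hβη : β ≤ η) (hη : η ≤ 1 / 10)
    (hγ : γ + (l : ℝ) * β ≤ η ^ l) (he : ∑ i, e i ^ 2 = 1)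
    (hMe : ∑ i, (M.mulVec e i - e i) ^ 2 ≤ β ^ 2) (htr : (M ^ l).trace ≤ 1 + γ) :
    ∑ i, (M.mulVec f i - (∑ j, e j * f j) * e i) ^ 2 ≤ (10 * η) ^ 2 * ∑ i, f i ^ 2 := by
  obtain ⟨U, lam, h1, h2, h3⟩ := Gap_diag M hM
  have hdot : ∀ x y : ι → ℝ,
      ∑ i, U.transpose.mulVec x i * U.transpose.mulVec y i = ∑ i, x i * y i := by
    intro x y
    have : dotProduct (U.transpose.mulVec x) (U.transpose.mulVec y) = dotProduct x y := by
      rw [Matrix.dotProduct_mulVec, Matrix.vecMul_transpose, Matrix.mulVec_mulVec, h2,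
        Matrix.one_mulVec]
    exact this
  have hsq : ∀ x : ι → ℝ, ∑ i, U.transpose.mulVec x i ^ 2 = ∑ i, x i ^ 2 := by
    intro x
    simpa [sq] using hdot x x
  have hMx : ∀ x : ι → ℝ, ∀ i,
      U.transpose.mulVec (M.mulVec x) i = lam i * U.transpose.mulVec x i := by
    intro x i
    have : U.transpose.mulVec (M.mulVec x) =
        (Matrix.diagonal lam).mulVec (U.transpose.mulVec x) := by
      rw [Matrix.mulVec_mulVec, Matrix.mulVec_mulVec, h3, ← Matrix.mul_assoc, ← Matrix.mul_assoc,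
        h1, Matrix.one_mul]
    rw [this, Matrix.mulVec_diagonal]
  have hpow : ∀ m : ℕ, M ^ m = U * Matrix.diagonal (fun i => lam i ^ m) * U.transpose := by
    intro m
    induction m with
    | zero => simp [h2]
    | succ m ih =>
      rw [pow_succ, ih]
      conv_lhs => rw [h3]
      have : (Matrix.diagonal (fun i => lam i ^ (m + 1)) : Matrix ι ι ℝ) =
          Matrix.diagonal (fun i => lam i ^ m) * Matrix.diagonal lam := by
        rw [Matrix.diagonal_mul_diagonal]
        simp [pow_succ]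
      rw [this]
      calc U * Matrix.diagonal (fun i => lam i ^ m) * U.transpose *
            (U * Matrix.diagonal lam * U.transpose)
          = U * Matrix.diagonal (fun i => lam i ^ m) * (U.transpose * U) *
            Matrix.diagonal lam * U.transpose := by simp only [Matrix.mul_assoc]
        _ = _ := by rw [h1]; simp only [Matrix.mul_assoc, Matrix.mul_one]
  have htr' : ∑ i, lam i ^ l ≤ 1 + γ := by
    rw [hpow l, Matrix.trace_mul_comm, ← Matrix.mul_assoc, h1, Matrix.one_mul,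
      Matrix.trace_diagonal] at htr
    exact htr
  have key := Gap_coord lam (U.transpose.mulVec e) (U.transpose.mulVec f) β γ η l hl hl0 hβ hβη
    hη hγ (by rw [hsq, he]) (by
      have := hsq (M.mulVec e - e)
      simp only [Matrix.mulVec_sub, Pi.sub_apply, hMx] at this
      rw [this]
      exact hMe) htr'
  rw [hdot, hsq] at key
  have := hsq (M.mulVec f - (∑ j, e j * f j) • e)
  simp only [Matrix.mulVec_sub, Matrix.mulVec_smul, Pi.sub_apply, Pi.smul_apply, smul_eq_mul,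
    hMx] at this
  rw [← this]
  exact key

/-- Entries of powers as sums over walks. -/
lemma Gap_walk {ι : Type} [Fintype ι] [DecidableEq ι] (M : Matrix ι ι ℝ) (k : ℕ)
    (g : ι → ι → ℝ) :
    ∑ a, ∑ b, (M ^ k) a b * g a b =
      ∑ x : Fin (k + 1) → ι, (∏ j : Fin k, M (x j.castSucc) (x j.succ)) * g (x 0) (x (Fin.last k)) := by
  induction k generalizing g with
  | zero =>
    simp only [pow_zero, Matrix.one_apply, ite_mul, one_mul, zero_mul, Finset.sum_ite_eq,
      mem_univ, if_true, Finset.univ_eq_empty, Finset.prod_empty]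
    exact (Fintype.sum_equiv (Equiv.funUnique (Fin 1) ι) _ _ (fun x => by simp)).symm
  | succ k ih =>
    have h1 : ∑ a, ∑ b, (M ^ (k + 1)) a b * g a b =
        ∑ c, ∑ b, (M ^ k) c b * ∑ a, M a c * g a b := by
      simp only [pow_succ', Matrix.mul_apply, Finset.sum_mul, Finset.mul_sum]
      rw [Finset.sum_comm]
      conv_rhs => rw [Finset.sum_comm]
      refine Finset.sum_congr rfl fun b _ => ?_
      rw [Finset.sum_comm]
      refine Finset.sum_congr rfl fun c _ => Finset.sum_congr rfl fun a _ => by ring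
    rw [h1, ih, ← Fintype.sum_equiv (Fin.consEquiv (fun _ : Fin (k + 2) => ι))
      (fun p => (∏ j : Fin (k + 1), M ((Fin.cons p.1 p.2 : Fin (k + 2) → ι) j.castSucc)
        ((Fin.cons p.1 p.2 : Fin (k + 2) → ι) j.succ)) *
        g ((Fin.cons p.1 p.2 : Fin (k + 2) → ι) 0)
          ((Fin.cons p.1 p.2 : Fin (k + 2) → ι) (Fin.last (k + 1)))) _ (fun p => rfl),
      Fintype.sum_prod_type, Finset.sum_comm]
    refine Finset.sum_congr rfl fun y _ => ?_
    rw [Finset.mul_sum]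
    refine Finset.sum_congr rfl fun a _ => ?_
    rw [Fin.prod_univ_succ, ← Fin.succ_last]
    simp only [Fin.cons_succ, Fin.cons_zero, Fin.castSucc_zero, Fin.castSucc_succ]
    ring

lemma Gap_trace {ι : Type} [Fintype ι] [DecidableEq ι] (M : Matrix ι ι ℝ) (k : ℕ) :
    (M ^ (k + 1)).trace = ∑ x : Fin (k + 1) → ι, ∏ j : Fin (k + 1), M (x j) (x (j + 1)) := by
  have h := Gap_walk M k (fun a b => M b a)
  have h1 : (M ^ (k + 1)).trace = ∑ a, ∑ b, (M ^ k) a b * M b a := by
    simp only [Matrix.trace, Matrix.diag_apply, pow_succ, Matrix.mul_apply]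
  rw [h1, h]
  refine Finset.sum_congr rfl fun x _ => ?_
  rw [Fin.prod_univ_castSucc]
  simp only [Fin.coeSucc_eq_succ, Fin.last_add_one]

variable {n : ℕ}

theorem gap_of_trace (E : Gr n) (D β γ η₀ : ℝ) (k : ℕ) (hk : Even (k + 1)) (hD : 0 < D)
    (hβ : 0 ≤ β) (hβη : β ≤ η₀) (hη : η₀ ≤ 1 / 10)
    (hγ : γ + ((k : ℝ) + 1) * β ≤ η₀ ^ (k + 1)) (hA : Areg E D β)
    (hT : ∀ u, ((cw E u k).card : ℝ) ≤ (1 + γ) * D ^ (k + 1)) : Gap E D (10 * η₀) := by
  intro u f
  rcases (nb E u).eq_empty_or_nonempty with hN | hN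
  · simp [hN]
  have hsym : ∀ v w : Fin n, adj E v w → adj E w v := fun v w h =>
    ⟨h.1.symm, by rw [Sym2.eq_swap]; exact h.2⟩
  set m : ℝ := ((nb E u).card : ℝ) with hm
  have hm0 : 0 < m := by rw [hm]; exact_mod_cast hN.card_pos
  set r : ℝ := (Real.sqrt m)⁻¹ with hr
  have hr2 : r * r = m⁻¹ := by
    rw [hr, ← mul_inv, Real.mul_self_sqrt hm0.le]
  let M : Matrix (Fin n) (Fin n) ℝ :=
    fun v w => if adj E u v ∧ adj E u w ∧ adj E v w then D⁻¹ else 0
  let e : Fin n → ℝ := fun v => if adj E u v then r else 0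
  let f' : Fin n → ℝ := fun v => if adj E u v then f v else 0
  have hM : ∀ i j, M i j = M j i := by
    intro i j
    have : (adj E u i ∧ adj E u j ∧ adj E i j) ↔ (adj E u j ∧ adj E u i ∧ adj E j i) :=
      ⟨fun h => ⟨h.2.1, h.1, hsym _ _ h.2.2⟩, fun h => ⟨h.2.1, h.1, hsym _ _ h.2.2⟩⟩
    simp only [M, this]
  have hsum : ∀ g : Fin n → ℝ, ∑ v ∈ nb E u, g v = ∑ v, if adj E u v then g v else 0 := by
    intro g
    rw [nb, Finset.sum_filter]
  have hMx : ∀ (x : Fin n → ℝ) (v : Fin n), M.mulVec (fun w => if adj E u w then x w else 0) v =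
      if adj E u v then (∑ w ∈ cn E u v, x w) / D else 0 := by
    intro x v
    change ∑ w, M v w * (if adj E u w then x w else 0) = _
    by_cases hv : adj E u v
    · rw [if_pos hv, cn, Finset.sum_filter, Finset.sum_div]
      refine Finset.sum_congr rfl fun w _ => ?_
      by_cases h1 : adj E u w <;> by_cases h2 : adj E v w <;> simp [M, hv, h1, h2, div_eq_inv_mul]
    · rw [if_neg hv]
      refine Finset.sum_eq_zero fun w _ => ?_
      simp [M, hv]
  have he : ∑ i, e i ^ 2 = 1 := by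
    have h1 : ∑ i, e i ^ 2 = ∑ _v ∈ nb E u, m⁻¹ := by
      rw [hsum]
      refine Finset.sum_congr rfl fun v _ => ?_
      by_cases hv : adj E u v <;> simp [e, hv, sq, hr2]
    rw [h1, Finset.sum_const, nsmul_eq_mul, ← hm, mul_inv_cancel₀ hm0.ne']
  have hMe : ∑ i, (M.mulVec e i - e i) ^ 2 ≤ β ^ 2 := by
    have h1 : ∑ _v ∈ nb E u, β ^ 2 * m⁻¹ = β ^ 2 := by
      rw [Finset.sum_const, nsmul_eq_mul, ← hm]
      field_simp
    rw [← h1, hsum]
    refine Finset.sum_le_sum fun v _ => ?_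
    rw [hMx (fun _ => r) v]
    by_cases hv : adj E u v
    · simp only [e, if_pos hv, Finset.sum_const, nsmul_eq_mul]
      have h2 := hA u v hv
      have h3 : |((cn E u v).card : ℝ) / D - 1| ≤ β := by
        have : ((cn E u v).card : ℝ) / D - 1 = (((cn E u v).card : ℝ) - D) / D := by
          field_simp
        rw [this, abs_div, abs_of_pos hD, div_le_iff₀ hD]
        exact h2
      have h4 : (((cn E u v).card : ℝ) / D - 1) ^ 2 ≤ β ^ 2 := by
        rw [← sq_abs]; exact pow_le_pow_left₀ (abs_nonneg _) h3 2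
      calc (((cn E u v).card : ℝ) * r / D - r) ^ 2
          = (((cn E u v).card : ℝ) / D - 1) ^ 2 * (r * r) := by ring
        _ ≤ β ^ 2 * m⁻¹ := by
          rw [hr2]; exact mul_le_mul_of_nonneg_right h4 (by positivity)
    · simp [e, hv]
  have htr : (M ^ (k + 1)).trace ≤ 1 + γ := by
    have h1 : (M ^ (k + 1)).trace = ∑ _x ∈ cw E u k, D⁻¹ ^ (k + 1) := by
      rw [Gap_trace, cw, Finset.sum_filter]
      refine Finset.sum_congr rfl fun x _ => ?_
      by_cases hx : ∀ j, adj E u (x j) ∧ adj E (x j) (x (j + 1))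
      · rw [if_pos hx, Finset.prod_congr rfl (g := fun _ => D⁻¹)]
        · simp
        · intro j _
          simp only [M]
          rw [if_pos ⟨(hx j).1, (hx (j + 1)).1, (hx j).2⟩]
      · rw [if_neg hx]
        obtain ⟨j, hj⟩ := not_forall.1 hx
        refine Finset.prod_eq_zero (mem_univ j) ?_
        simp only [M]
        rw [if_neg (fun h => hj ⟨h.1, h.2.2⟩)]
    rw [h1, Finset.sum_const, nsmul_eq_mul, inv_pow, ← div_eq_mul_inv,
      div_le_iff₀ (pow_pos hD _)]
    exact hT u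
  have key := Gap_mat M hM e f' β γ η₀ (k + 1) hk (Nat.succ_ne_zero k) hβ hβη hη
    (by exact_mod_cast hγ) he hMe htr
  have hef : ∑ j, e j * f' j = r * ∑ w ∈ nb E u, f w := by
    rw [hsum, Finset.mul_sum]
    refine Finset.sum_congr rfl fun v _ => ?_
    by_cases hv : adj E u v <;> simp [e, f', hv]
  have hf2 : ∑ i, f' i ^ 2 = ∑ w ∈ nb E u, f w ^ 2 := by
    rw [hsum]
    refine Finset.sum_congr rfl fun v _ => ?_
    by_cases hv : adj E u v <;> simp [f', hv]
  rw [hef, hf2] at key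
  refine le_of_eq_of_le ?_ key
  rw [hsum]
  refine Finset.sum_congr rfl fun v _ => ?_
  rw [hMx f v]
  by_cases hv : adj E u v
  · simp only [e, if_pos hv, avg]
    congr 2
    rw [← hm, mul_right_comm, hr2, div_eq_inv_mul]
  · simp [e, hv]

end Crest.Agent.R30
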