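import Crest.Agent.R30.Drift

set_option autoImplicit false
open Finset Crest.CombinatoricsR.TriangleRemoval

namespace Crest.Agent.R30

/-! # Moments of the number of closed walks in a link -/

variable {n : ℕ}

/-- Counting sequences by the number of new values. -/
theorem moment_lemB {V : Type} [Fintype V] [DecidableEq V] (lam : ℝ) (hl : 0 ≤ lam) (l : ℕ) :
    ∀ W : Finset V, ∑ x : Fin l → V, lam ^ ((univ.image x) \ W).card ≤
      ((Fintype.card V : ℝ) * lam + W.card + l) ^ l := by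
  induction l with
  | zero => intro W; simp
  | succ l ih =>
    intro W
    rw [← (Fin.consEquiv (fun _ : Fin (l + 1) => V)).sum_comp, Fintype.sum_prod_type]
    have key : ∀ (v : V) (y : Fin l → V),
        ((univ.image (Fin.consEquiv (fun _ : Fin (l + 1) => V) (v, y))) \ W).card =
          (if v ∈ W then 0 else 1) + ((univ.image y) \ insert v W).card := by
      intro v y
      have h1 : univ.image (Fin.consEquiv (fun _ : Fin (l + 1) => V) (v, y)) =
          insert v (univ.image y) := by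
        ext z
        simp only [mem_image, mem_univ, true_and, mem_insert, Fin.consEquiv_apply, Fin.exists_fin_succ,
          Fin.cons_zero, Fin.cons_succ]
        exact or_congr_left eq_comm
      rw [h1]
      split_ifs with hv
      · rw [insert_sdiff_of_mem _ hv, insert_eq_of_mem hv, zero_add]
      · rw [insert_sdiff_of_notMem _ hv, sdiff_insert, add_comm, ← card_insert_of_notMem (notMem_erase v _)]
        congr 1
        ext z
        simp only [mem_insert, mem_erase]
        tauto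
    set B : ℝ := (Fintype.card V : ℝ) * lam + W.card + (l + 1 : ℕ) with hB
    have hB0 : 0 ≤ B := by positivity
    have h2 : ∀ v : V, ∑ y : Fin l → V,
        lam ^ ((univ.image (Fin.consEquiv (fun _ : Fin (l + 1) => V) (v, y))) \ W).card ≤
          ((if v ∈ W then 1 else 0) + lam) * B ^ l := by
      intro v
      simp only [key, pow_add, ← mul_sum]
      refine mul_le_mul ?_ ((ih (insert v W)).trans (pow_le_pow_left₀ (by positivity) ?_ _))
        (sum_nonneg fun _ _ => by positivity) (by split_ifs <;> positivity)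
      · split_ifs <;> simp [hl]
      · have : ((insert v W).card : ℝ) ≤ W.card + 1 := by exact_mod_cast card_insert_le v W
        rw [hB]; push_cast; linarith
    refine (sum_le_sum fun v _ => h2 v).trans ?_
    rw [← sum_mul, pow_succ', sum_add_distrib]
    refine mul_le_mul_of_nonneg_right ?_ (by positivity)
    simp only [sum_boole, filter_mem_eq_inter, univ_inter, sum_const, card_univ, nsmul_eq_mul]
    rw [hB]
    have : (0 : ℝ) ≤ (l + 1 : ℕ) := by positivity
    linarith

/-- First-visit edges of a walk are distinct. -/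
theorem moment_first {V : Type} [DecidableEq V] (y : ℕ → V) (T : ℕ) (B : Finset V)
    (hB : ∀ v ∈ B, v ≠ y 0 ∧ ∃ t ≤ T, y t = v) (L : Finset (Sym2 V))
    (hL : ∀ t < T, y (t + 1) ∈ B → s(y t, y (t + 1)) ∈ L) : B.card ≤ L.card := by
  classical
  have H : ∀ v ∈ B, ∃ t, t < T ∧ y (t + 1) = v ∧ ∀ t' ≤ t, y t' ≠ v := by
    intro v hv
    obtain ⟨h0, hex⟩ := hB v hv
    have hex' : ∃ t, y t = v := by obtain ⟨t, -, ht⟩ := hex; exact ⟨t, ht⟩
    have h1 := Nat.find_spec hex'
    have h2 : Nat.find hex' ≠ 0 := fun e => h0 (by rw [← h1, e])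
    obtain ⟨t₀, ht₀, ht₀'⟩ := hex
    have h3 := Nat.find_min' hex' ht₀'
    refine ⟨Nat.find hex' - 1, by omega, by rwa [Nat.sub_add_cancel (by omega)], fun t' ht' => ?_⟩
    exact Nat.find_min hex' (by omega)
  choose! f h1 h2 h3 using H
  refine card_le_card_of_injOn (fun v => s(y (f v), y (f v + 1)))
    (fun v hv => hL _ (h1 v hv) (by rw [h2 v hv]; exact hv)) fun v hv v' hv' e => ?_
  simp only [Sym2.eq_iff, h2 v hv, h2 v' hv'] at e
  rcases e with e | ⟨e1, e2⟩
  · exact e.2
  · exfalso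
    rcases le_total (f v) (f v') with h | h
    · exact h3 v' hv' _ h e1
    · exact h3 v hv _ h e2.symm

/-- The link edges of a closed walk. -/
def momLk {V : Type} [DecidableEq V] {k : ℕ} (x : Fin (k + 1) → V) : Finset (Sym2 V) :=
  univ.image (fun j => s(x j, x (j + 1)))

theorem moment_ofNat (k t : ℕ) : Fin.ofNat (k + 1) (t + 1) = Fin.ofNat (k + 1) t + 1 := by
  ext
  simp [Fin.val_add]

open Classical in
/-- The link edges that contain a vertex of `A`. -/
noncomputable def momL {V : Type} [DecidableEq V] {k : ℕ} (x : Fin (k + 1) → V) (A : Finset V) :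
    Finset (Sym2 V) := (momLk x).filter (fun e => ∃ v ∈ A, v ∈ e)

theorem mem_momL {V : Type} [DecidableEq V] {k : ℕ} {x : Fin (k + 1) → V} {A : Finset V} {e : Sym2 V} :
    e ∈ momL x A ↔ e ∈ momLk x ∧ ∃ v ∈ A, v ∈ e := by
  unfold momL; exact mem_filter

theorem moment_lemA {V : Type} [DecidableEq V] {k : ℕ} (x : Fin (k + 1) → V) (W : Finset V) :
    ((univ.image x) \ W).card ≤ (momL x ((univ.image x) \ W)).card ∨
      (((univ.image x) \ W).card ≤ (k + 1) / 2 + 1 ∧
        ((univ.image x) \ W).card ≤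
          (momL x ((univ.image x) \ W)).card + 1) := by
  classical
  set A := (univ.image x) \ W with hA
  set L := momL x A with hL
  have hcov : ∀ (j₀ : Fin (k + 1)), ∀ v ∈ A, ∃ t ≤ k, x (j₀ + Fin.ofNat (k + 1) t) = v := by
    intro j₀ v hv
    obtain ⟨j, -, rfl⟩ := mem_image.1 (mem_sdiff.1 hv).1
    refine ⟨(j - j₀).val, Nat.lt_succ_iff.1 (j - j₀).isLt, ?_⟩
    simp
  have hmem : ∀ (j₀ : Fin (k + 1)) (t : ℕ), x (j₀ + Fin.ofNat (k + 1) (t + 1)) ∈ A →
      s(x (j₀ + Fin.ofNat (k + 1) t), x (j₀ + Fin.ofNat (k + 1) (t + 1))) ∈ L := by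
    intro j₀ t ht
    refine mem_momL.2 ⟨mem_image.2 ⟨j₀ + Fin.ofNat (k + 1) t, mem_univ _, ?_⟩, _, ht, by simp⟩
    rw [moment_ofNat, add_assoc]
  have h00 : Fin.ofNat (k + 1) 0 = 0 := by ext; simp
  by_cases hW : ∃ j₀, x j₀ ∈ W
  · obtain ⟨j₀, hj₀⟩ := hW
    refine Or.inl (moment_first (fun t => x (j₀ + Fin.ofNat (k + 1) t)) k A (fun v hv => ⟨?_, hcov j₀ v hv⟩)
      L fun t _ ht => hmem j₀ t ht)
    rintro rfl
    simp only [h00, add_zero] at hv
    exact (mem_sdiff.1 hv).2 hj₀
  push Not at hW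
  have hxA : ∀ j, x j ∈ A := fun j => mem_sdiff.2 ⟨mem_image_of_mem _ (mem_univ _), hW j⟩
  by_cases h1 : ∃ j₁, ∀ j, j ≠ j₁ → s(x j, x (j + 1)) ≠ s(x j₁, x (j₁ + 1))
  · obtain ⟨j₁, hj₁⟩ := h1
    left
    have hm : s(x j₁, x (j₁ + 1)) ∈ L :=
      mem_momL.2 ⟨mem_image_of_mem _ (mem_univ j₁), _, hxA j₁, by simp⟩
    have := moment_first (fun t => x (j₁ + 1 + Fin.ofNat (k + 1) t)) k (A.erase (x (j₁ + 1)))
      (fun v hv => ⟨by simpa only [h00, add_zero] using (mem_erase.1 hv).1,
        hcov (j₁ + 1) v (mem_of_mem_erase hv)⟩) (L.erase s(x j₁, x (j₁ + 1)))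
      (fun t ht hv => mem_erase.2 ⟨?_, hmem _ t (mem_of_mem_erase hv)⟩)
    · rw [card_erase_of_mem (hxA _), card_erase_of_mem hm] at this
      have := card_pos.2 ⟨_, hm⟩
      omega
    · have hne : j₁ + 1 + Fin.ofNat (k + 1) t ≠ j₁ := by
        intro e
        rw [add_assoc, add_eq_left, add_comm (1 : Fin (k + 1)), ← moment_ofNat] at e
        have := congrArg Fin.val e
        simp only [Fin.val_ofNat, Fin.val_zero] at this
        rw [Nat.mod_eq_of_lt (by omega)] at this
        omega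
      have := hj₁ _ hne
      simpa only [moment_ofNat, add_assoc] using this
  · right
    push Not at h1
    have h2 := moment_first (fun t => x (0 + Fin.ofNat (k + 1) t)) k (A.erase (x 0))
      (fun v hv => ⟨by simpa only [h00, add_zero] using (mem_erase.1 hv).1,
        hcov 0 v (mem_of_mem_erase hv)⟩) L (fun t _ hv => hmem _ t (mem_of_mem_erase hv))
    rw [card_erase_of_mem (hxA _)] at h2
    have h3 : 2 * (momLk x).card ≤ k + 1 := by
      have := mul_card_image_le_card (f := fun j => s(x j, x (j + 1))) (univ : Finset (Fin (k + 1))) 2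
        (fun e he => by
          obtain ⟨j₁, -, rfl⟩ := mem_image.1 he
          obtain ⟨j, hj, hj'⟩ := h1 j₁
          exact one_lt_card.2 ⟨j, mem_filter.2 ⟨mem_univ _, hj'⟩, j₁, mem_filter.2 ⟨mem_univ _, rfl⟩, hj⟩)
      simpa [momLk] using this
    have h4 : L.card ≤ (momLk x).card := card_le_card fun e he => (mem_momL.1 he).1
    omega

/-- All the edges of a closed walk in the link of `u`. -/
def momEd {k : ℕ} (u : Fin n) (x : Fin (k + 1) → Fin n) : Gr n :=
  univ.image (fun j => s(u, x j)) ∪ momLk x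

theorem momEd_card {k : ℕ} (u : Fin n) (x : Fin (k + 1) → Fin n) : (momEd u x).card ≤ 2 * (k + 1) := by
  refine (card_union_le _ _).trans ?_
  have h1 := card_image_le (s := (univ : Finset (Fin (k + 1)))) (f := fun j => s(u, x j))
  have h2 := card_image_le (s := (univ : Finset (Fin (k + 1)))) (f := fun j => s(x j, x (j + 1)))
  simp only [card_univ, Fintype.card_fin] at h1 h2
  unfold momLk
  omega

theorem moment_new {k : ℕ} (u : Fin n) (x : Fin (k + 1) → Fin n) (hx : ∀ j, x j ≠ u)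
    (W : Finset (Fin n)) (S : Gr n) (hS : ∀ e ∈ S, ∀ v ∈ e, v ∈ insert u W) :
    ((univ.image x) \ W).card + (momL x ((univ.image x) \ W)).card ≤
      (momEd u x \ S).card := by
  classical
  set A := (univ.image x) \ W with hA
  have hAu : ∀ v ∈ A, v ∉ insert u W := fun v hv h => by
    obtain ⟨h1, h2⟩ := mem_sdiff.1 hv
    obtain ⟨j, -, rfl⟩ := mem_image.1 h1
    rcases mem_insert.1 h with h | h
    · exact hx j h
    · exact h2 h
  have h1 : (A.image fun v => s(u, v)).card = A.card :=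
    card_image_of_injOn fun v _ v' _ e => Sym2.congr_right.1 e
  have h2 : Disjoint (A.image fun v => s(u, v)) (momL x A) := by
    refine disjoint_left.2 fun e he he' => ?_
    obtain ⟨v, -, rfl⟩ := mem_image.1 he
    obtain ⟨j, -, hj⟩ := mem_image.1 (mem_momL.1 he').1
    have : u ∈ s(x j, x (j + 1)) := by rw [hj]; simp
    rcases Sym2.mem_iff.1 this with h | h
    · exact hx _ h.symm
    · exact hx _ h.symm
  rw [← h1, ← card_union_of_disjoint h2]
  refine card_le_card fun e he => mem_sdiff.2 ?_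
  rcases mem_union.1 he with he | he
  · obtain ⟨v, hv, rfl⟩ := mem_image.1 he
    obtain ⟨j, -, rfl⟩ := mem_image.1 (mem_sdiff.1 hv).1
    exact ⟨mem_union_left _ (mem_image_of_mem _ (mem_univ j)), fun h => hAu _ hv (hS _ h _ (by simp))⟩
  · obtain ⟨h3, v, hv, hve⟩ := mem_momL.1 he
    exact ⟨mem_union_right _ h3, fun h => hAu _ hv (hS _ h _ hve)⟩

theorem moment_sum (u : Fin n) (k : ℕ) (M : ℝ) (P : ℝ) (hP0 : 0 < P) (hP1 : P ≤ 1)
    (hM : M ≤ (n : ℝ) * P ^ 2) (W : Finset (Fin n)) (hW : (W.card : ℝ) + (k + 1 : ℕ) ≤ M) (S : Gr n)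
    (hS : ∀ e ∈ S, ∀ v ∈ e, v ∈ insert u W) :
    ∑ x : Fin (k + 1) → Fin n, ind (∀ j, x j ≠ u) * P ^ (momEd u x \ S).card ≤
      ((n : ℝ) * P ^ 2 + M) ^ (k + 1) +
        ((n : ℝ) * P ^ 2 / M) ^ ((k + 1) / 2 + 1) * (2 * M) ^ (k + 1) / P := by
  have hn : (0 : ℝ) < n := by exact_mod_cast u.pos
  have hM0 : 0 < M := lt_of_lt_of_le (by positivity) hW
  have hr : 1 ≤ (n : ℝ) * P ^ 2 / M := (one_le_div hM0).2 hM
  set c : ℝ := ((n : ℝ) * P ^ 2 / M) ^ ((k + 1) / 2 + 1) / P with hc
  have hc0 : 0 ≤ c := by positivity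
  have h1 : ∀ x : Fin (k + 1) → Fin n, ind (∀ j, x j ≠ u) * P ^ (momEd u x \ S).card ≤
      (P ^ 2) ^ ((univ.image x) \ W).card + c * (M / n) ^ ((univ.image x) \ W).card := by
    intro x
    by_cases hx : ∀ j, x j ≠ u
    swap
    · rw [ind_neg hx, zero_mul]; positivity
    rw [ind_pos hx, one_mul]
    have h2 := moment_new u x hx W S hS
    set a := ((univ.image x) \ W).card with ha
    rcases moment_lemA x W with h3 | ⟨h3, h4⟩
    · have : P ^ (momEd u x \ S).card ≤ (P ^ 2) ^ a := by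
        rw [← pow_mul]
        exact pow_le_pow_of_le_one hP0.le hP1 (by omega)
      have : 0 ≤ c * (M / n) ^ a := by positivity
      linarith
    · have h5 : P ^ (momEd u x \ S).card * P ≤ (P ^ 2) ^ a := by
        rw [← pow_mul, ← pow_succ]
        exact pow_le_pow_of_le_one hP0.le hP1 (by omega)
      have h6 : (P ^ 2) ^ a = ((n : ℝ) * P ^ 2 / M) ^ a * (M / n) ^ a := by
        rw [← mul_pow]; congr 1; field_simp
      have h7 : ((n : ℝ) * P ^ 2 / M) ^ a ≤ ((n : ℝ) * P ^ 2 / M) ^ ((k + 1) / 2 + 1) :=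
        pow_le_pow_right₀ hr h3
      have h8 : P ^ (momEd u x \ S).card ≤ c * (M / n) ^ a := by
        rw [hc, div_mul_eq_mul_div, le_div_iff₀ hP0]
        refine h5.trans ?_
        rw [h6]
        exact mul_le_mul_of_nonneg_right h7 (by positivity)
      have : 0 ≤ (P ^ 2) ^ a := by positivity
      linarith
  refine (sum_le_sum fun x _ => h1 x).trans ?_
  rw [sum_add_distrib, ← mul_sum]
  have b1 := moment_lemB (V := Fin n) (P ^ 2) (by positivity) (k + 1) W
  have b2 := moment_lemB (V := Fin n) (M / n) (by positivity) (k + 1) W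
  rw [Fintype.card_fin] at b1 b2
  have b3 : ((n : ℝ) * P ^ 2 + W.card + (k + 1 : ℕ)) ^ (k + 1) ≤ ((n : ℝ) * P ^ 2 + M) ^ (k + 1) :=
    pow_le_pow_left₀ (by positivity) (by linarith) _
  have b4 : ((n : ℝ) * (M / n) + W.card + (k + 1 : ℕ)) ^ (k + 1) ≤ (2 * M) ^ (k + 1) := by
    refine pow_le_pow_left₀ (by positivity) ?_ _
    rw [mul_div_cancel₀ _ hn.ne']
    linarith
  have b5 := mul_le_mul_of_nonneg_left (b2.trans b4) hc0
  rw [mul_div_right_comm]
  linarith

theorem moment_card (E : Gr n) (u : Fin n) (k : ℕ) :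
    ((cw E u k).card : ℝ) ≤ ∑ x : Fin (k + 1) → Fin n, ind (∀ j, x j ≠ u) * ind (momEd u x ⊆ E) := by
  classical
  rw [cw, card_filter]
  push_cast
  refine sum_le_sum fun x _ => ?_
  split_ifs with h
  · rw [ind_pos fun j => (h j).1.1.symm, ind_pos, one_mul]
    intro e he
    rcases mem_union.1 he with he | he
    · obtain ⟨j, -, rfl⟩ := mem_image.1 he
      exact (h j).1.2
    · obtain ⟨j, -, rfl⟩ := mem_image.1 he
      exact (h j).2.2
  · exact mul_nonneg (ind_nonneg _) (ind_nonneg _)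

theorem moment_gen (u : Fin n) (k m : ℕ) (P : ℝ) (hP0 : 0 < P) (hP1 : P ≤ 1)
    (w : Gr n → ℝ) (hw : ∀ E, 0 ≤ w E)
    (hS : ∀ S : Gr n, S.card ≤ 2 * (k + 1) * m → ∑ E, w E * ind (S ⊆ E) ≤ P ^ S.card)
    (hM : (((k + 1) * m : ℕ) : ℝ) ≤ (n : ℝ) * P ^ 2) (Λ : ℝ)
    (hΛ : Λ = ((n : ℝ) * P ^ 2 + (((k + 1) * m : ℕ) : ℝ)) ^ (k + 1) +
        ((n : ℝ) * P ^ 2 / (((k + 1) * m : ℕ) : ℝ)) ^ ((k + 1) / 2 + 1) *
          (2 * (((k + 1) * m : ℕ) : ℝ)) ^ (k + 1) / P) (r : ℕ) :
    ∀ (W : Finset (Fin n)) (S : Gr n), W.card + (k + 1) * r ≤ (k + 1) * m →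
      S.card + 2 * (k + 1) * r ≤ 2 * (k + 1) * m → (∀ e ∈ S, ∀ v ∈ e, v ∈ insert u W) →
      ∑ E, w E * ind (S ⊆ E) * ((cw E u k).card : ℝ) ^ r ≤ P ^ S.card * Λ ^ r := by
  have hΛ0 : 0 ≤ Λ := by rw [hΛ]; positivity
  induction r with
  | zero =>
    intro W S _ h2 _
    simpa using hS S (by omega)
  | succ r ih =>
    intro W S h1 h2 h3
    have s1 : ∑ E, w E * ind (S ⊆ E) * ((cw E u k).card : ℝ) ^ (r + 1) ≤
        ∑ x : Fin (k + 1) → Fin n, ind (∀ j, x j ≠ u) *
          ∑ E, w E * ind (S ∪ momEd u x ⊆ E) * ((cw E u k).card : ℝ) ^ r := by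
      simp only [mul_sum]
      rw [sum_comm]
      refine sum_le_sum fun E _ => ?_
      have := mul_le_mul_of_nonneg_left (moment_card E u k)
        (mul_nonneg (mul_nonneg (hw E) (ind_nonneg (S ⊆ E)))
          (pow_nonneg (Nat.cast_nonneg (cw E u k).card) r))
      rw [pow_succ, ← mul_assoc]
      refine this.trans (le_of_eq ?_)
      rw [mul_sum]
      refine sum_congr rfl fun x _ => ?_
      rw [ind_congr (union_subset_iff (s := S) (t := momEd u x) (u := E)), ind_and]
      ring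
    have s2 : ∀ x : Fin (k + 1) → Fin n,
        ∑ E, w E * ind (S ∪ momEd u x ⊆ E) * ((cw E u k).card : ℝ) ^ r ≤
          P ^ (momEd u x \ S).card * (P ^ S.card * Λ ^ r) := by
      intro x
      have a1 : (W ∪ univ.image x).card ≤ W.card + (k + 1) := by
        refine (card_union_le _ _).trans (Nat.add_le_add_left ?_ _)
        simpa using card_image_le (s := (univ : Finset (Fin (k + 1)))) (f := x)
      have a2 : (S ∪ momEd u x).card ≤ S.card + 2 * (k + 1) :=
        (card_union_le _ _).trans (Nat.add_le_add_left (momEd_card u x) _)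
      have := ih (W ∪ univ.image x) (S ∪ momEd u x) (by nlinarith) (by nlinarith) (fun e he v hv => ?_)
      · rw [← card_sdiff_add_card_eq_card (subset_union_left (s₁ := S) (s₂ := momEd u x)),
          union_sdiff_left, pow_add, mul_assoc] at this
        exact this
      · rcases mem_union.1 he with he | he
        · exact insert_subset_insert _ subset_union_left (h3 e he v hv)
        · rcases mem_union.1 he with he | he
          · obtain ⟨j, -, rfl⟩ := mem_image.1 he
            rcases Sym2.mem_iff.1 hv with rfl | rfl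
            · exact mem_insert_self _ _
            · exact mem_insert_of_mem (mem_union_right _ (mem_image_of_mem _ (mem_univ _)))
          · obtain ⟨j, -, rfl⟩ := mem_image.1 he
            rcases Sym2.mem_iff.1 hv with rfl | rfl
            · exact mem_insert_of_mem (mem_union_right _ (mem_image_of_mem _ (mem_univ _)))
            · exact mem_insert_of_mem (mem_union_right _ (mem_image_of_mem _ (mem_univ _)))
    have hW : (W.card : ℝ) + (k + 1 : ℕ) ≤ (((k + 1) * m : ℕ) : ℝ) := by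
      have : W.card + (k + 1) ≤ (k + 1) * m := by nlinarith
      exact_mod_cast this
    have s3 := moment_sum u k _ P hP0 hP1 hM W hW S h3
    rw [← hΛ] at s3
    refine s1.trans ((sum_le_sum fun x _ => mul_le_mul_of_nonneg_left (s2 x) (ind_nonneg _)).trans ?_)
    simp only [← mul_assoc]
    rw [← sum_mul, ← sum_mul, pow_succ]
    have : 0 ≤ P ^ S.card * Λ ^ r := by positivity
    nlinarith

theorem moment (u : Fin n) (k m : ℕ) (P : ℝ) (hP0 : 0 < P) (hP1 : P ≤ 1)
    (w : Gr n → ℝ) (hw : ∀ E, 0 ≤ w E)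
    (hS : ∀ S : Gr n, S.card ≤ 2 * (k + 1) * m → ∑ E, w E * ind (S ⊆ E) ≤ P ^ S.card)
    (hM : (((k + 1) * m : ℕ) : ℝ) ≤ (n : ℝ) * P ^ 2) :
    ∑ E, w E * ((cw E u k).card : ℝ) ^ m ≤
      (((n : ℝ) * P ^ 2 + (((k + 1) * m : ℕ) : ℝ)) ^ (k + 1) +
        ((n : ℝ) * P ^ 2 / (((k + 1) * m : ℕ) : ℝ)) ^ ((k + 1) / 2 + 1) *
          (2 * (((k + 1) * m : ℕ) : ℝ)) ^ (k + 1) / P) ^ m := by
  have := moment_gen u k m P hP0 hP1 w hw hS hM _ rfl m ∅ ∅ (by simp) (by simp) (by simp)
  simpa [ind_pos] using this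

end Crest.Agent.R30
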