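import Crest.Agent.R30.Par

set_option autoImplicit false
open Finset Crest.CombinatoricsR.TriangleRemoval

namespace Crest.Agent.R30

/-! # Phase 1: the codegrees follow the trajectory -/

variable {n : ℕ} {y z : ℝ}

/-- the codegree -/
noncomputable def ph1A_Y (E : Gr n) (u v : Fin n) : ℝ := ((cn E u v).card : ℝ)

open Classical in
/-- the martingale increments -/
noncomputable def ph1A_xi (n : ℕ) (β η : ℝ) (u v : Fin n) (h : List (Finset (Fin n)))
    (t : Finset (Fin n)) : ℝ :=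
  if ok n β η h ∧ adj (G n h) u v then
    (ph1A_Y (step (G n h) t) u v - avg (tri3 n) (fun t' => ph1A_Y (step (G n h) t') u v)) /
      DD n (h.length + 1)
  else 0

/-- the relative error of the codegree -/
noncomputable def ph1A_x (n : ℕ) (h : List (Finset (Fin n))) (u v : Fin n) : ℝ :=
  ph1A_Y (G n h) u v / DD n h.length - 1

/-- the weights of the linear recursion -/
noncomputable def ph1A_g (n j : ℕ) : ℝ := hh n j / (1 - hh n j) ^ 2

theorem ph1A_drop (E : Gr n) (t : Finset (Fin n)) (u v : Fin n) :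
    0 ≤ ph1A_Y E u v - ph1A_Y (step E t) u v ∧ ph1A_Y E u v - ph1A_Y (step E t) u v ≤ 3 := by
  have h1 : ((cn (step E t) u v).card : ℝ) ≤ (cn E u v).card := by
    exact_mod_cast cn_step_le E t u v
  have h2 : ((cn E u v).card : ℝ) ≤ (cn (step E t) u v).card + 3 := by
    exact_mod_cast cn_step_ge E t u v
  unfold ph1A_Y
  constructor <;> linarith

theorem ph1A_avg {E : Gr n} {u v : Fin n} (h : adj E u v) :
    avg (tri3 n) (fun t => ph1A_Y E u v - ph1A_Y (step E t) u v) =
      (∑ w ∈ cn E u v, (ph1A_Y E u w + ph1A_Y E v w - 1)) / N3 n := by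
  unfold avg ph1A_Y
  rw [sum_cn_drop E u v h, card_tri3]

theorem ph1A_avg' (hn : 4 ≤ n) (E : Gr n) (u v : Fin n) :
    avg (tri3 n) (fun t => ph1A_Y (step E t) u v) =
      ph1A_Y E u v - avg (tri3 n) (fun t => ph1A_Y E u v - ph1A_Y (step E t) u v) := by
  rw [avg_sub, avg_const _ (tri3_nonempty (by omega))]
  ring

theorem ph1A_hh (hn : 7 ≤ n) (i : ℕ) : hh n i ≤ 1 / 4 := by
  have hN : (7 : ℝ) ≤ n := by exact_mod_cast hn
  refine (hh_le (by omega) i).trans ?_
  rw [div_le_div_iff₀ (by positivity) (by norm_num)]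
  nlinarith

theorem ph1A_half (hn : 7 ≤ n) (i : ℕ) : 1 / 2 ≤ (1 - hh n i) ^ 2 := by
  have h1 := ph1A_hh hn i
  have h2 := hh_pos (n := n) (by omega) i
  nlinarith

theorem ph1A_cod {E : Gr n} {D β : ℝ} (hD : 0 ≤ D) (hβ : β ≤ 1) (hA : Areg E D β) {u v : Fin n}
    (h : adj E u v) : ph1A_Y E u v ≤ 2 * D := by
  have h1 := (abs_le.1 (hA u v h)).2
  unfold ph1A_Y
  nlinarith

theorem ph1A_mean (hn : 4 ≤ n) (β η : ℝ) (u v : Fin n) (h : List (Finset (Fin n))) :
    avg (tri3 n) (ph1A_xi n β η u v h) = 0 := by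
  unfold ph1A_xi
  split_ifs with hc
  · simp only [div_eq_mul_inv]
    rw [avg_mul_right, avg_sub, avg_const _ (tri3_nonempty (by omega)), sub_self, zero_mul]
  · exact avg_zero _

theorem ph1A_abs (hn : 4 ≤ n) (β η : ℝ) (u v : Fin n) (h : List (Finset (Fin n)))
    (t : Finset (Fin n)) : |ph1A_xi n β η u v h t| ≤ 3 / DD n (h.length + 1) := by
  have hD := DD_pos hn (h.length + 1)
  have hne : (tri3 n).Nonempty := tri3_nonempty (by omega)
  unfold ph1A_xi
  split_ifs with hc
  · rw [abs_div, abs_of_pos hD, ph1A_avg' hn]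
    refine div_le_div_of_nonneg_right ?_ hD.le
    have h1 := ph1A_drop (G n h) t u v
    have h2 := avg_nonneg (tri3 n) fun t' _ => (ph1A_drop (G n h) t' u v).1
    have h3 := avg_mono (tri3 n) fun t' _ => (ph1A_drop (G n h) t' u v).2
    rw [avg_const _ hne] at h3
    exact abs_le.2 ⟨by linarith [h1.2], by linarith [h1.1]⟩
  · rw [abs_zero]
    positivity

theorem ph1A_var {α : Type} (A : Finset α) (hA : A.Nonempty) (f : α → ℝ) :
    avg A (fun a => (f a - avg A f) ^ 2) ≤ avg A (fun a => f a ^ 2) := by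
  have h : avg A (fun a => (f a - avg A f) ^ 2) =
      avg A (fun a => (f a ^ 2 - 2 * avg A f * f a) + avg A f ^ 2) :=
    avg_congr A fun a _ => by ring
  rw [h, avg_add, avg_sub, avg_mul_left, avg_const A hA]
  nlinarith [sq_nonneg (avg A f)]

theorem ph1A_sq (hn : 7 ≤ n) {β : ℝ} (hβ : β ≤ 1) (η : ℝ) (u v : Fin n)
    (h : List (Finset (Fin n))) :
    avg (tri3 n) (fun t => ph1A_xi n β η u v h t ^ 2) ≤ 96 / N3 n := by
  have hn4 : 4 ≤ n := by omega
  have hD := DD_pos hn4 h.length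
  have hD' := DD_pos hn4 (h.length + 1)
  have hN := N3_pos hn4
  have hne : (tri3 n).Nonempty := tri3_nonempty (by omega)
  unfold ph1A_xi
  split_ifs with hc
  · have hA := (ok_now hc.1).1
    set d : Finset (Fin n) → ℝ := fun t => ph1A_Y (G n h) u v - ph1A_Y (step (G n h) t) u v
      with hd
    have h1 : avg (tri3 n) (fun t => ((ph1A_Y (step (G n h) t) u v -
        avg (tri3 n) (fun t' => ph1A_Y (step (G n h) t') u v)) / DD n (h.length + 1)) ^ 2) =
        avg (tri3 n) (fun t => (d t - avg (tri3 n) d) ^ 2) * (DD n (h.length + 1) ^ 2)⁻¹ := by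
      rw [← avg_mul_right]
      refine avg_congr _ fun t _ => ?_
      rw [ph1A_avg' hn4, ← hd, div_pow, div_eq_mul_inv]
      simp only [hd]
      ring
    have h2 : avg (tri3 n) (fun t => d t ^ 2) ≤ avg (tri3 n) (fun t => 3 * d t) :=
      avg_mono _ fun t _ => by
        have := ph1A_drop (G n h) t u v
        simp only [hd]
        nlinarith [this.1, this.2]
    have h3 : avg (tri3 n) d ≤ 8 * DD n h.length ^ 2 / N3 n := by
      rw [hd, ph1A_avg hc.2]
      refine div_le_div_of_nonneg_right ?_ hN.le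
      have h4 : ∑ w ∈ cn (G n h) u v, (ph1A_Y (G n h) u w + ph1A_Y (G n h) v w - 1) ≤
          ∑ w ∈ cn (G n h) u v, 4 * DD n h.length := sum_le_sum fun w hw => by
        have a1 := ph1A_cod hD.le hβ hA (mem_cn.1 hw).1
        have a2 := ph1A_cod hD.le hβ hA (mem_cn.1 hw).2
        linarith
      rw [sum_const, nsmul_eq_mul] at h4
      have h5 := ph1A_cod hD.le hβ hA hc.2
      unfold ph1A_Y at h5
      nlinarith
    rw [avg_mul_left] at h2
    have h4 := (ph1A_var _ hne d).trans h2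
    have h5 : DD n h.length / 2 ≤ DD n (h.length + 1) := by
      rw [DD_succ]
      nlinarith [ph1A_half hn h.length]
    have h6 : DD n h.length ^ 2 / 4 ≤ DD n (h.length + 1) ^ 2 := by nlinarith
    rw [h1, ← div_eq_mul_inv, div_le_iff₀ (by positivity)]
    have h7 : 3 * (8 * DD n h.length ^ 2 / N3 n) = 96 / N3 n * (DD n h.length ^ 2 / 4) := by ring
    have h8 := mul_le_mul_of_nonneg_left h6 (by positivity : 0 ≤ 96 / N3 n)
    linarith
  · simp only [ne_eq, OfNat.ofNat_ne_zero, not_false_eq_true, zero_pow]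
    rw [avg_zero]
    positivity

theorem ph1A_x_abs (hn : 4 ≤ n) {β : ℝ} {h : List (Finset (Fin n))}
    (hA : Areg (G n h) (DD n h.length) β) {u v : Fin n} (huv : adj (G n h) u v) :
    |ph1A_x n h u v| ≤ β := by
  have hD := DD_pos hn h.length
  have h1 : ph1A_x n h u v = (ph1A_Y (G n h) u v - DD n h.length) / DD n h.length := by
    unfold ph1A_x
    field_simp
  rw [h1, abs_div, abs_of_pos hD, div_le_iff₀ hD]
  exact hA u v huv

theorem ph1A_one (hn : 7 ≤ n) {β η : ℝ} (hβ : β ≤ 1) {h : List (Finset (Fin n))}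
    (hk : ok n β η h) {u v : Fin n} (huv : adj (G n h) u v) (t : Finset (Fin n)) :
    |ph1A_x n (t :: h) u v - ph1A_x n h u v +
      ph1A_g n h.length * Aop (G n h) (DD n h.length) (ph1A_x n h) u v - ph1A_xi n β η u v h t|
      ≤ 4 / N3 n + 4 * hh n h.length ^ 2 := by
  have hn4 : 4 ≤ n := by omega
  have hD := DD_pos hn4 h.length
  have hN := N3_pos hn4
  have h1 := ph1A_half hn h.length
  have hne : 1 - hh n h.length ≠ 0 := by
    intro h0
    rw [h0] at h1
    norm_num at h1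
  have hY : ∀ a b, ph1A_Y (G n h) a b = DD n h.length * (1 + ph1A_x n h a b) := fun a b => by
    unfold ph1A_x
    field_simp
    ring
  have hs : ∑ w ∈ cn (G n h) u v, (ph1A_Y (G n h) u w + ph1A_Y (G n h) v w - 1) =
      DD n h.length ^ 2 * Aop (G n h) (DD n h.length) (ph1A_x n h) u v +
        (2 * DD n h.length - 1) * ph1A_Y (G n h) u v := by
    have a1 : ∑ w ∈ cn (G n h) u v, (ph1A_Y (G n h) u w + ph1A_Y (G n h) v w - 1) =
        ∑ w ∈ cn (G n h) u v, (DD n h.length * (ph1A_x n h u w + ph1A_x n h v w) +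
          (2 * DD n h.length - 1)) := sum_congr rfl fun w _ => by rw [hY, hY]; ring
    rw [a1, sum_add_distrib, ← mul_sum, sum_const, nsmul_eq_mul]
    unfold Aop ph1A_Y
    field_simp
  have h2 : ph1A_x n (t :: h) u v - ph1A_x n h u v +
      ph1A_g n h.length * Aop (G n h) (DD n h.length) (ph1A_x n h) u v - ph1A_xi n β η u v h t =
      (1 + ph1A_x n h u v) * ((1 / N3 n - hh n h.length ^ 2) / (1 - hh n h.length) ^ 2) := by
    have e1 : ph1A_x n (t :: h) u v = ph1A_Y (step (G n h) t) u v / DD n (h.length + 1) - 1 := rfl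
    have e2 : DD n h.length = hh n h.length * N3 n := by
      unfold hh
      field_simp
    have hh0 := hh_pos hn4 h.length
    rw [e1, ph1A_xi, if_pos ⟨hk, huv⟩, ph1A_avg' hn4, ph1A_avg huv, hs, hY u v, DD_succ,
      ph1A_g]
    generalize ph1A_Y (step (G n h) t) u v = Y'
    generalize Aop (G n h) (DD n h.length) (ph1A_x n h) u v = A
    generalize ph1A_x n h u v = x
    rw [e2]
    field_simp
    ring
  have h3 := abs_le.1 ((ph1A_x_abs hn4 (ok_now hk).1 huv).trans hβ)
  have h4 : |(1 / N3 n - hh n h.length ^ 2) / (1 - hh n h.length) ^ 2| ≤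
      2 * (1 / N3 n + hh n h.length ^ 2) := by
    rw [abs_div, abs_of_pos (by linarith : 0 < (1 - hh n h.length) ^ 2),
      div_le_iff₀ (by linarith)]
    have a1 : 0 < 1 / N3 n := by positivity
    have a2 : |1 / N3 n - hh n h.length ^ 2| ≤ 1 / N3 n + hh n h.length ^ 2 :=
      abs_le.2 ⟨by nlinarith [sq_nonneg (hh n h.length)], by nlinarith [sq_nonneg (hh n h.length)]⟩
    nlinarith [sq_nonneg (hh n h.length)]
  rw [h2, abs_mul]
  have h5 : |1 + ph1A_x n h u v| ≤ 2 := abs_le.2 ⟨by linarith, by linarith⟩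
  calc _ ≤ 2 * (2 * (1 / N3 n + hh n h.length ^ 2)) :=
        mul_le_mul h5 h4 (abs_nonneg _) (by norm_num)
    _ = _ := by ring

theorem ph1A_sum (hn : 7 ≤ n) {β η : ℝ} (hβ : β ≤ 1) {u v : Fin n} (h : List (Finset (Fin n)))
    (hk : okb n β η h) (huv : adj (G n h) u v) :
    |ph1A_x n h u v + ∑ j ∈ range h.length, ph1A_g n j *
      Aop (G n (h.drop (h.length - j))) (DD n j) (ph1A_x n (h.drop (h.length - j))) u v -
        mart (ph1A_xi n β η u v) h| ≤ ∑ j ∈ range h.length, (4 / N3 n + 4 * hh n j ^ 2) := by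
  induction h with
  | nil =>
    have hN : (7 : ℝ) ≤ n := by exact_mod_cast hn
    have h1 : ph1A_x n [] u v = 0 := by
      have : (n : ℝ) - 2 ≠ 0 := by linarith
      simp only [ph1A_x, ph1A_Y, G, List.length_nil, DD, pp, cn_allEdges huv.1]
      field_simp
      ring
    simp [h1, mart]
  | cons t h ih =>
    have huv' : adj (G n h) u v := adj_mono (step_subset _ _) huv
    have h1 := ih (ok_okb hk) huv'
    have h2 := ph1A_one hn hβ hk huv' t
    have h3 : ∀ j ∈ range h.length, ph1A_g n j *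
        Aop (G n ((t :: h).drop (h.length + 1 - j))) (DD n j)
          (ph1A_x n ((t :: h).drop (h.length + 1 - j))) u v = ph1A_g n j *
        Aop (G n (h.drop (h.length - j))) (DD n j) (ph1A_x n (h.drop (h.length - j))) u v := by
      intro j hj
      rw [show h.length + 1 - j = (h.length - j) + 1 by have := mem_range.1 hj; omega,
        List.drop_succ_cons]
    rw [List.length_cons, sum_range_succ, sum_range_succ, sum_congr rfl h3,
      show h.length + 1 - h.length = 0 + 1 by omega, List.drop_succ_cons, List.drop_zero, mart]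
    refine le_trans (le_of_eq ?_) ((abs_add_le _ _).trans (add_le_add h1 h2))
    congr 1
    ring

theorem ph1A_seven (hP : Par n y z) : 7 ≤ n := by
  have h := hP.z_le_n
  have hz : (7 : ℝ) ≤ z := le_trans (by norm_num) hP.z_ge
  exact_mod_cast hz.trans h

theorem ph1A_err (hP : Par n y z) {i₀ : ℕ} (hi : I0 n (z ^ 8) i₀) {i : ℕ} (hle : i ≤ i₀) :
    ∑ j ∈ range i, (4 / N3 n + 4 * hh n j ^ 2) ≤ 1 / z ^ 3 := by
  have hn := hP.four_le
  have hN := N3_pos hn
  have hz : (100 : ℝ) ≤ z := le_trans (by norm_num) hP.z_ge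
  have hz0 : 0 < z := by linarith
  obtain ⟨t1, -, t3, -⟩ := traj hP hi
  have hzn : z ^ 8 ≤ n := by
    rw [hP.hn]; exact pow_le_pow_right₀ (by linarith) (by norm_num)
  have hn0 : (0 : ℝ) < n := lt_of_lt_of_le (by positivity) hzn
  have h1 : ∑ j ∈ range i, (4 / N3 n + 4 * hh n j ^ 2) ≤
      ∑ j ∈ range i₀, (4 / N3 n + 48 / (n : ℝ) ^ 2 * hh n j) := by
    refine (sum_le_sum_of_subset_of_nonneg (range_subset_range.2 hle)
      fun j _ _ => by positivity).trans (sum_le_sum fun j _ => ?_)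
    have a1 := mul_le_mul_of_nonneg_right (hh_le hn j) (hh_pos hn j).le
    have a2 : 48 / (n : ℝ) ^ 2 * hh n j = 4 * (12 / (n : ℝ) ^ 2 * hh n j) := by ring
    nlinarith
  refine h1.trans ?_
  rw [sum_add_distrib, sum_const, card_range, nsmul_eq_mul, ← mul_sum]
  have h2 : Real.log n ≤ n := (Real.log_le_sub_one_of_pos hn0).trans (by linarith)
  have h3 : 48 / (n : ℝ) ^ 2 * ∑ j ∈ range i₀, hh n j ≤ 24 * (1 / z ^ 8) := by
    calc _ ≤ 48 / (n : ℝ) ^ 2 * (n / 2) := mul_le_mul_of_nonneg_left (by linarith) (by positivity)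
      _ = 24 * (1 / n) := by field_simp; ring
      _ ≤ _ := mul_le_mul_of_nonneg_left (one_div_le_one_div_of_le (by positivity) hzn)
        (by norm_num)
  have h4 : (i₀ : ℝ) * (4 / N3 n) = 4 * (i₀ / N3 n) := by ring
  have h5 : 28 * (1 / z ^ 8) ≤ 1 / z ^ 3 := by
    rw [mul_one_div, div_le_div_iff₀ (by positivity) (by positivity),
      show z ^ 8 = z ^ 5 * z ^ 3 by ring, one_mul]
    refine mul_le_mul_of_nonneg_right ?_ (by positivity)
    exact le_trans (by linarith) (le_self_pow₀ (by linarith) (by norm_num))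
  linarith

theorem ph1A_det (hP : Par n y z) {i₀ : ℕ} (hi : I0 n (z ^ 8) i₀) {h : List (Finset (Fin n))}
    (hl : h.length ≤ i₀) (hk : okb n (1 / z ^ 2) (20 / y ^ 2) h)
    (hm : ∀ h', h' <:+ h → ∀ u v,
      |mart (ph1A_xi n (1 / z ^ 2) (20 / y ^ 2) u v) h'| ≤ 1 / z ^ 3) :
    Areg (G n h) (DD n h.length) (1 / z ^ 2) := by
  have hn := hP.four_le
  have hn7 := ph1A_seven hP
  have hz : (100 : ℝ) ≤ z := le_trans (by norm_num) hP.z_ge
  have hz0 : 0 < z := by linarith
  have hβ : 1 / z ^ 2 ≤ 1 := by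
    rw [div_le_one (by positivity)]
    exact one_le_pow₀ (by linarith)
  have hlen : ∀ j ≤ h.length, (h.drop (h.length - j)).length = j := fun j hj => by
    rw [List.length_drop]; omega
  have hok : ∀ j < h.length, ok n (1 / z ^ 2) (20 / y ^ 2) (h.drop (h.length - j)) :=
    fun j hj => okb_suffix hk (List.drop_suffix _ _) (by rw [hlen j hj.le]; exact hj)
  have hg : ∀ j, 0 ≤ ph1A_g n j ∧ ph1A_g n j ≤ 2 * hh n j := fun j => by
    have a1 := ph1A_half hn7 j
    have a2 := hh_pos hn j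
    refine ⟨div_nonneg a2.le (sq_nonneg _), ?_⟩
    rw [ph1A_g, div_le_iff₀ (by linarith)]
    nlinarith
  have key := lin_par hP h.length (fun j => G n (h.drop (h.length - j))) (DD n) (ph1A_g n)
    (fun j => ph1A_x n (h.drop (h.length - j))) (2 / z ^ 3) (by positivity)
    (fun j _ => G_suffix (List.drop_suffix_drop_left _ (by omega)))
    (fun j _ => (hg j).1) (fun j _ => (hg j).2.trans (by linarith [hh_le_half hn j]))
    (by
      have a1 : ∑ j ∈ range h.length, ph1A_g n j ≤ ∑ j ∈ range i₀, 2 * hh n j :=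
        (sum_le_sum fun j _ => (hg j).2).trans (sum_le_sum_of_subset_of_nonneg
          (range_subset_range.2 hl) fun j _ _ => by have := hh_pos hn j; positivity)
      rw [← mul_sum] at a1
      linarith [(traj hP hi).2.2.1])
    (fun j _ => DD_pos hn j)
    (fun j hj u v huv => by
      have a1 := (ok_now (hok j hj)).1
      rw [hlen j hj.le] at a1
      exact ph1A_cod (DD_pos hn j).le hβ a1 huv)
    (fun j hj => by
      have a1 := (ok_now (hok j hj)).2
      rwa [hlen j hj.le] at a1)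
    (fun j hj u v huv => (ph1A_x_abs hn (ok_now (hok j hj)).1 huv).trans hβ)
    (fun i hle u v huv => by
      have a0 : okb n (1 / z ^ 2) (20 / y ^ 2) (h.drop (h.length - i)) := by
        rcases hle.eq_or_lt with rfl | hlt
        · simpa using hk
        · exact ok_okb (hok i hlt)
      have a1 := ph1A_sum hn7 hβ _ a0 huv
      rw [hlen i hle] at a1
      have a2 : ∀ j ∈ range i, ph1A_g n j *
          Aop (G n ((h.drop (h.length - i)).drop (i - j))) (DD n j)
            (ph1A_x n ((h.drop (h.length - i)).drop (i - j))) u v = ph1A_g n j *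
          Aop (G n (h.drop (h.length - j))) (DD n j) (ph1A_x n (h.drop (h.length - j))) u v := by
        intro j hj
        rw [List.drop_drop, show h.length - i + (i - j) = h.length - j by
          have := mem_range.1 hj; omega]
      rw [sum_congr rfl a2] at a1
      have a3 := abs_le.1 (a1.trans (ph1A_err hP hi (hle.trans hl)))
      have a4 := abs_le.1 (hm _ (List.drop_suffix (h.length - i) h) u v)
      have a5 : 2 / z ^ 3 = 1 / z ^ 3 + 1 / z ^ 3 := by ring
      exact abs_le.2 ⟨by linarith [a3.1, a4.1], by linarith [a3.2, a4.2]⟩)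
  simp only [Nat.sub_self, List.drop_zero] at key
  intro u v huv
  have h1 : 2 / z ^ 3 * y + 2 / z ^ 4 ≤ 1 / z ^ 2 := by
    have hy := hP.hy
    have a1 : 4 * y ≤ z := by
      refine le_trans ?_ hP.big
      exact mul_le_mul (by norm_num) (le_self_pow₀ (by linarith) (by norm_num)) (by linarith)
        (by positivity)
    rw [show 2 / z ^ 3 * y + 2 / z ^ 4 = (2 * y * z + 2) / z ^ 4 by field_simp,
      div_le_div_iff₀ (by positivity) (by positivity), show z ^ 4 = z ^ 2 * z ^ 2 by ring, one_mul]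
    refine mul_le_mul_of_nonneg_right ?_ (by positivity)
    nlinarith
  have h2 := (key u v huv).trans h1
  have hD := DD_pos hn h.length
  have h3 : ((cn (G n h) u v).card : ℝ) - DD n h.length = ph1A_x n h u v * DD n h.length := by
    unfold ph1A_x ph1A_Y
    field_simp
  rw [h3, abs_mul, abs_of_pos hD]
  exact mul_le_mul_of_nonneg_right h2 hD.le

theorem ph1A_tail (hP : Par n y z) {i₀ : ℕ} (hi : I0 n (z ^ 8) i₀) {i : ℕ} (hle : i ≤ i₀)
    (u v : Fin n) :
    Ex (tri3 n) i (fun h => ind (1 / z ^ 3 ≤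
      |mart (ph1A_xi n (1 / z ^ 2) (20 / y ^ 2) u v) h|)) ≤ 2 * Real.exp (-z + 96) := by
  have hn := hP.four_le
  have hN := N3_pos hn
  have hz : (100 : ℝ) ≤ z := le_trans (by norm_num) hP.z_ge
  have hz0 : 0 < z := by linarith
  have hβ : 1 / z ^ 2 ≤ 1 := by
    rw [div_le_one (by positivity)]
    exact one_le_pow₀ (by linarith)
  obtain ⟨t1, -, -, t4, -⟩ := traj hP hi
  refine (freedman (tri3 n) (tri3_nonempty (by omega)) _ (fun _ => 96 / N3 n) (z ^ 4) (1 / z ^ 3) i
    (by positivity) (fun h _ => ph1A_mean hn _ _ u v h) (fun h hl t _ => ?_)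
    (fun h _ => ph1A_sq (ph1A_seven hP) hβ _ u v h)).trans ?_
  · have a1 := t4 (h.length + 1) (by omega)
    have a2 : 3 / DD n (h.length + 1) ≤ 1 / z ^ 4 := by
      rw [div_le_div_iff₀ (DD_pos hn _) (by positivity)]
      have : 100 ≤ z ^ 4 := hz.trans (le_self_pow₀ (by linarith) (by norm_num))
      rw [show z ^ 8 = z ^ 4 * z ^ 4 by ring] at a1
      nlinarith
    have a3 := mul_le_mul_of_nonneg_left ((ph1A_abs hn (1 / z ^ 2) (20 / y ^ 2) u v h t).trans a2)
      (by positivity : 0 ≤ z ^ 4)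
    rwa [mul_one_div_cancel (by positivity)] at a3
  · refine mul_le_mul_of_nonneg_left (Real.exp_le_exp.2 (add_le_add (le_of_eq ?_) ?_))
      (by norm_num)
    · field_simp
    · rw [sum_const, card_range, nsmul_eq_mul]
      have a1 : (i : ℝ) / N3 n ≤ 1 / z ^ 8 :=
        (div_le_div_of_nonneg_right (by exact_mod_cast hle) hN.le).trans t1
      rw [le_div_iff₀ (by positivity)] at a1
      have a2 : (z ^ 4) ^ 2 * (i * (96 / N3 n)) = 96 * (i / N3 n * z ^ 8) := by ring
      linarith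

theorem ph1A (hP : Par n y z) {i₀ : ℕ} (hi : I0 n (z ^ 8) i₀) :
    Ex (tri3 n) i₀ (fun h => ind (ever (fun h' => okb n (1 / z ^ 2) (20 / y ^ 2) h' ∧
      ¬ Areg (G n h') (DD n h'.length) (1 / z ^ 2)) h)) ≤ 1 / (n : ℝ) ^ 3 := by
  have hn := hP.four_le
  have hN : (4 : ℝ) ≤ n := by exact_mod_cast hn
  have hz : (1000 : ℝ) ≤ z := le_trans (by norm_num) hP.z_ge
  have h1 : Ex (tri3 n) i₀ (fun h => ind (ever (fun h' => okb n (1 / z ^ 2) (20 / y ^ 2) h' ∧
      ¬ Areg (G n h') (DD n h'.length) (1 / z ^ 2)) h)) ≤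
      Ex (tri3 n) i₀ (fun h => ind (ever (fun h' => ∃ p ∈ (univ : Finset (Fin n × Fin n)),
        1 / z ^ 3 ≤ |mart (ph1A_xi n (1 / z ^ 2) (20 / y ^ 2) p.1 p.2) h'|) h)) := by
    refine Ex_mono _ _ fun l hl _ => ind_mono ?_
    rintro ⟨h', hs, hk, hA⟩
    by_contra hcon
    refine hA (ph1A_det hP hi (hl ▸ hs.length_le) hk fun h'' hs' u v => ?_)
    by_contra hlt
    exact hcon ⟨h'', hs'.trans hs, (u, v), mem_univ _, (not_le.1 hlt).le⟩
  have h2 : ∀ i ∈ range (i₀ + 1), Ex (tri3 n) i (fun h' => ind (∃ p ∈ (univ : Finset (Fin n × Fin n)),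
      1 / z ^ 3 ≤ |mart (ph1A_xi n (1 / z ^ 2) (20 / y ^ 2) p.1 p.2) h'|)) ≤
      (n : ℝ) ^ 2 * (2 * Real.exp (-z + 96)) := by
    intro i hi'
    refine (Ex_mono _ _ fun l _ _ => ind_exists_le _ _).trans ?_
    rw [Ex_sum]
    refine (sum_le_sum fun p _ =>
      ph1A_tail hP hi (Nat.lt_succ_iff.1 (mem_range.1 hi')) p.1 p.2).trans (le_of_eq ?_)
    rw [sum_const, card_univ, Fintype.card_prod, Fintype.card_fin, nsmul_eq_mul]
    push_cast
    ring
  refine h1.trans ((Ex_ever_le _ (tri3_nonempty (by omega)) _ _).trans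
    ((sum_le_sum h2).trans ?_))
  rw [sum_const, card_range, nsmul_eq_mul]
  have h3 : ((i₀ + 1 : ℕ) : ℝ) ≤ 2 * (n : ℝ) ^ 3 := by
    have := (traj hP hi).2.1
    have : (1 : ℝ) ≤ (n : ℝ) ^ 3 := one_le_pow₀ (by linarith)
    push_cast
    linarith
  have h4 : 4 * Real.exp (-z + 96) * (n : ℝ) ^ 8 ≤ 1 := by
    have a1 : (4 : ℝ) ≤ Real.exp 3 := by linarith [Real.add_one_le_exp (3 : ℝ)]
    calc _ ≤ Real.exp 3 * Real.exp (-z + 96) * Real.exp (z / 10) :=
          mul_le_mul (mul_le_mul_of_nonneg_right a1 (Real.exp_pos _).le) hP.exp_ge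
            (by positivity) (by positivity)
      _ = Real.exp (3 + (-z + 96) + z / 10) := by rw [← Real.exp_add, ← Real.exp_add]
      _ ≤ 1 := Real.exp_le_one_iff.2 (by linarith)
  rw [le_div_iff₀ (by positivity)]
  calc _ ≤ 2 * (n : ℝ) ^ 3 * ((n : ℝ) ^ 2 * (2 * Real.exp (-z + 96))) * (n : ℝ) ^ 3 := by
        gcongr
    _ = 4 * Real.exp (-z + 96) * (n : ℝ) ^ 8 := by ring
    _ ≤ 1 := h4

end Crest.Agent.R30
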