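import Crest.Agent.R30.Par

set_option autoImplicit false
open Finset Crest.CombinatoricsR.TriangleRemoval

namespace Crest.Agent.R30

/-! # Phase 1: the number of edges follows the trajectory -/

variable {n : ℕ} {y z : ℝ}

theorem Ph1E_tri_reg {E : Gr n} (hE : E ⊆ allEdges n) {D β : ℝ} (hA : Areg E D β) :
    |3 * ((triangles E).card : ℝ) - E.card * D| ≤ β * (E.card * D) := by
  have h1 : 6 * ((triangles E).card : ℝ) - 2 * E.card * D =
      ∑ u, ∑ v ∈ nb E u, (((cn E u v).card : ℝ) - D) := by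
    rw [six_tri, two_card E hE, sum_mul, ← sum_sub_distrib]
    refine sum_congr rfl fun u _ => ?_
    rw [sum_sub_distrib, sum_const, nsmul_eq_mul]
  have h2 : |∑ u, ∑ v ∈ nb E u, (((cn E u v).card : ℝ) - D)| ≤ 2 * E.card * (β * D) := by
    rw [two_card E hE, sum_mul]
    refine (abs_sum_le_sum_abs _ _).trans (sum_le_sum fun u _ => ?_)
    refine (abs_sum_le_sum_abs _ _).trans ?_
    rw [← nsmul_eq_mul, ← sum_const]
    exact sum_le_sum fun v hv => hA u v (mem_nb.1 hv)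
  rw [← h1, abs_le] at h2
  rw [abs_le]
  constructor <;> linarith [h2.1, h2.2]

theorem Ph1E_avg_ind (E : Gr n) :
    avg (tri3 n) (fun t => ind (t ∈ triangles E)) = (triangles E).card / N3 n := by
  rw [avg, drift_sum_ind, filter_mem_eq_inter, inter_eq_right.2 (triangles_subset E), card_tri3]

/-- the martingale increments -/
noncomputable def Ph1E_xi (n : ℕ) (β η : ℝ) (h : List (Finset (Fin n))) (t : Finset (Fin n)) : ℝ :=
  ind (ok n β η h) * 3 / pp n (h.length + 1) *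
    ((triangles (G n h)).card / N3 n - ind (t ∈ triangles (G n h)))

theorem Ph1E_q (hn : 4 ≤ n) (E : Gr n) :
    0 ≤ ((triangles E).card : ℝ) / N3 n ∧ ((triangles E).card : ℝ) / N3 n ≤ 1 := by
  have h := N3_pos hn
  refine ⟨by positivity, ?_⟩
  rw [div_le_one h, ← card_tri3]
  exact_mod_cast card_le_card (triangles_subset E)

theorem Ph1E_xi_avg (hn : 4 ≤ n) (β η : ℝ) (h : List (Finset (Fin n))) :
    avg (tri3 n) (Ph1E_xi n β η h) = 0 := by
  unfold Ph1E_xi
  rw [avg_mul_left, avg_sub, avg_const _ (tri3_nonempty (by omega)), Ph1E_avg_ind, sub_self,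
    mul_zero]

theorem Ph1E_xi_abs (hn : 4 ≤ n) (β η : ℝ) (h : List (Finset (Fin n))) (t : Finset (Fin n))
    {a : ℝ} (ha : 0 < a) (hp : 1 / a ≤ pp n (h.length + 1)) : |Ph1E_xi n β η h t| ≤ 3 * a := by
  unfold Ph1E_xi
  have hp0 := pp_pos hn (h.length + 1)
  obtain ⟨q0, q1⟩ := Ph1E_q hn (G n h)
  have h1 : |((triangles (G n h)).card : ℝ) / N3 n - ind (t ∈ triangles (G n h))| ≤ 1 := by
    rw [abs_le]
    constructor <;> linarith [ind_nonneg (t ∈ triangles (G n h)), ind_le_one (t ∈ triangles (G n h))]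
  have h0 := ind_nonneg (ok n β η h)
  have h2 : ind (ok n β η h) * 3 / pp n (h.length + 1) ≤ 3 * a := by
    rw [div_le_iff₀ hp0]
    rw [div_le_iff₀ ha] at hp
    nlinarith [ind_le_one (ok n β η h)]
  rw [abs_mul, abs_of_nonneg (by positivity)]
  calc _ ≤ 3 * a * 1 := by gcongr
    _ = _ := mul_one _

theorem Ph1E_choose_le (n : ℕ) : (n.choose 2 : ℝ) ≤ (n : ℝ) ^ 2 / 2 := by
  rw [Nat.cast_choose_two]
  nlinarith [Nat.cast_nonneg (α := ℝ) n]

theorem Ph1E_xi_sq (hn : 4 ≤ n) {β : ℝ} (hβ : β ≤ 1) (η : ℝ) (h : List (Finset (Fin n)))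
    {a : ℝ} (ha : 0 < a) (hp : 1 / a ≤ pp n (h.length + 1)) :
    avg (tri3 n) (fun t => Ph1E_xi n β η h t ^ 2) ≤ 3 * a ^ 2 * (n : ℝ) ^ 2 * hh n h.length := by
  have hh0 := hh_pos hn h.length
  by_cases hk : ok n β η h
  · have hp0 := pp_pos hn (h.length + 1)
    have hN := N3_pos hn
    have hD := DD_pos hn h.length
    obtain ⟨q0, q1⟩ := Ph1E_q hn (G n h)
    have hT := (abs_le.1 (Ph1E_tri_reg (G_subset h) (ok_now hk).1)).2
    have hm : ((G n h).card : ℝ) ≤ (n : ℝ) ^ 2 / 2 := by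
      refine le_trans ?_ (Ph1E_choose_le n)
      rw [← card_allEdges]
      exact_mod_cast card_le_card (G_subset h)
    have hm0 : (0 : ℝ) ≤ (G n h).card := Nat.cast_nonneg _
    have hq : ((triangles (G n h)).card : ℝ) / N3 n ≤ (n : ℝ) ^ 2 / 3 * hh n h.length := by
      rw [hh, ← mul_div_assoc]
      refine div_le_div_of_nonneg_right ?_ hN.le
      have e1 := mul_le_mul_of_nonneg_right hβ (mul_nonneg hm0 hD.le)
      have e2 := mul_le_mul_of_nonneg_right hm hD.le
      linarith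
    set q := ((triangles (G n h)).card : ℝ) / N3 n with hqdef
    have e : ∀ t, Ph1E_xi n β η h t ^ 2 = (3 / pp n (h.length + 1)) ^ 2 *
        (q ^ 2 + (1 - 2 * q) * ind (t ∈ triangles (G n h))) := by
      intro t
      unfold Ph1E_xi
      rw [ind_pos hk, ← hqdef]
      by_cases ht : t ∈ triangles (G n h)
      · rw [ind_pos ht]; ring
      · rw [ind_neg ht]; ring
    simp only [e]
    rw [avg_mul_left, avg_add, avg_mul_left, avg_const _ (tri3_nonempty (by omega)), Ph1E_avg_ind,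
      ← hqdef]
    have h2 : 3 / pp n (h.length + 1) ≤ 3 * a := by
      rw [div_le_iff₀ hp0]
      rw [div_le_iff₀ ha] at hp
      nlinarith
    calc _ ≤ (3 * a) ^ 2 * ((n : ℝ) ^ 2 / 3 * hh n h.length) := by
          refine mul_le_mul (by gcongr) (by nlinarith) (by nlinarith) (by positivity)
      _ = _ := by ring
  · have e : ∀ t, Ph1E_xi n β η h t ^ 2 = 0 := by
      intro t
      unfold Ph1E_xi
      rw [ind_neg hk]; simp
    simp only [e]
    rw [avg_zero]
    positivity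

theorem Ph1E_step (hn : 4 ≤ n) {β η : ℝ} (hβ : 0 ≤ β) {h : List (Finset (Fin n))}
    (hk : ok n β η h) (t : Finset (Fin n)) :
    |((G n (t :: h)).card : ℝ) / pp n (h.length + 1) - (G n h).card / pp n h.length -
      Ph1E_xi n β η h t| ≤ 2 * β * hh n h.length * ((G n h).card / pp n h.length) := by
  have hp0 := pp_pos hn h.length
  have hN := N3_pos hn
  have hD := DD_pos hn h.length
  have h0 := hh_pos hn h.length
  have h1 := hh_le_half hn h.length
  have hT := Ph1E_tri_reg (G_subset h) (ok_now hk).1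
  have hm0 : (0 : ℝ) ≤ (G n h).card := Nat.cast_nonneg _
  have h2 : 0 < 1 - hh n h.length := by linarith
  have e : ((G n (t :: h)).card : ℝ) / pp n (h.length + 1) - (G n h).card / pp n h.length -
      Ph1E_xi n β η h t = -((3 * ((triangles (G n h)).card : ℝ) - (G n h).card * DD n h.length) /
        (N3 n * (pp n h.length * (1 - hh n h.length)))) := by
    have hDD : DD n h.length = hh n h.length * N3 n := by rw [hh]; field_simp
    unfold Ph1E_xi
    rw [G, card_step _ (G_subset h), ind_pos hk, pp_succ, hDD]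
    field_simp
    ring
  rw [e, abs_neg, abs_div, abs_of_pos (mul_pos hN (mul_pos hp0 h2)),
    div_le_iff₀ (mul_pos hN (mul_pos hp0 h2))]
  refine hT.trans ?_
  have e2 : 2 * β * hh n h.length * ((G n h).card / pp n h.length) *
      (N3 n * (pp n h.length * (1 - hh n h.length))) =
      β * ((G n h).card * DD n h.length) * (2 * (1 - hh n h.length)) := by
    have hDD : DD n h.length = hh n h.length * N3 n := by rw [hh]; field_simp
    rw [hDD]
    field_simp
  rw [e2]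
  exact le_mul_of_one_le_right (by positivity) (by linarith)

theorem Ph1E_det (hn : 4 ≤ n) {β η μ S ε : ℝ} (hβ : 0 ≤ β) {i₀ : ℕ}
    (hS : ∑ i ∈ range i₀, hh n i ≤ S) (hε : ε ≤ 1)
    (hμ : μ + 4 * β * S * (n.choose 2 : ℝ) ≤ ε * (n.choose 2 : ℝ)) (h : List (Finset (Fin n)))
    (hl : h.length ≤ i₀) (hk : ok n β η h)
    (hm : ¬ ever (fun h' => μ ≤ |mart (Ph1E_xi n β η) h'|) h) :
    |((G n h).card : ℝ) / pp n h.length - (n.choose 2 : ℝ) - mart (Ph1E_xi n β η) h| ≤
        4 * β * (∑ i ∈ range h.length, hh n i) * (n.choose 2 : ℝ) ∧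
      |((G n h).card : ℝ) / pp n h.length - (n.choose 2 : ℝ)| ≤ ε * (n.choose 2 : ℝ) := by
  have hC : (0 : ℝ) ≤ (n.choose 2 : ℝ) := Nat.cast_nonneg _
  have second : ∀ h : List (Finset (Fin n)), h.length ≤ i₀ →
      ¬ ever (fun h' => μ ≤ |mart (Ph1E_xi n β η) h'|) h →
      |((G n h).card : ℝ) / pp n h.length - (n.choose 2 : ℝ) - mart (Ph1E_xi n β η) h| ≤
        4 * β * (∑ i ∈ range h.length, hh n i) * (n.choose 2 : ℝ) →
      |((G n h).card : ℝ) / pp n h.length - (n.choose 2 : ℝ)| ≤ ε * (n.choose 2 : ℝ) := by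
    intro h hl hm h1
    have h2 : |mart (Ph1E_xi n β η) h| < μ := not_le.1 fun hc => hm ⟨h, List.suffix_refl _, hc⟩
    have h3 : ∑ i ∈ range h.length, hh n i ≤ S :=
      (sum_le_sum_of_subset_of_nonneg (range_mono hl) fun i _ _ => (hh_pos hn i).le).trans hS
    have h4 : 4 * β * (∑ i ∈ range h.length, hh n i) * (n.choose 2 : ℝ) ≤
        4 * β * S * (n.choose 2 : ℝ) := by gcongr
    rw [abs_le] at h1 ⊢
    rw [abs_lt] at h2
    constructor <;> linarith [h1.1, h1.2, h2.1, h2.2]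
  induction h with
  | nil =>
    have h1 : |((G n []).card : ℝ) / pp n ([] : List (Finset (Fin n))).length - (n.choose 2 : ℝ) -
        mart (Ph1E_xi n β η) []| ≤
        4 * β * (∑ i ∈ range ([] : List (Finset (Fin n))).length, hh n i) * (n.choose 2 : ℝ) := by
      simp [G, pp, mart, card_allEdges]
    exact ⟨h1, second _ hl hm h1⟩
  | cons t h ih =>
    have hm' : ¬ ever (fun h' => μ ≤ |mart (Ph1E_xi n β η) h'|) h := fun ⟨h', hs, hp⟩ =>
      hm ⟨h', hs.trans (List.suffix_cons t h), hp⟩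
    obtain ⟨i1, i2⟩ := ih (by simp at hl; omega) hk.1 hm'
    have hs := Ph1E_step hn hβ hk.1 t
    have hX : ((G n h).card : ℝ) / pp n h.length ≤ 2 * (n.choose 2 : ℝ) := by
      have := (abs_le.1 i2).2
      nlinarith
    have h0 := (hh_pos hn h.length).le
    have h5 : 2 * β * hh n h.length * ((G n h).card / pp n h.length) ≤
        2 * β * hh n h.length * (2 * (n.choose 2 : ℝ)) := by gcongr
    have h1 : |((G n (t :: h)).card : ℝ) / pp n (t :: h).length - (n.choose 2 : ℝ) -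
        mart (Ph1E_xi n β η) (t :: h)| ≤
        4 * β * (∑ i ∈ range (t :: h).length, hh n i) * (n.choose 2 : ℝ) := by
      rw [List.length_cons, sum_range_succ, mart]
      rw [abs_le] at i1 hs ⊢
      constructor <;> linarith [i1.1, i1.2, hs.1, hs.2]
    exact ⟨h1, second _ hl hm h1⟩

theorem ph1E (hP : Par n y z) {i₀ : ℕ} (hi : I0 n (z ^ 8) i₀) :
    Ex (tri3 n) i₀ (fun h => ind (ok n (1 / z ^ 2) (20 / y ^ 2) h ∧
      2 / z * ((n.choose 2 : ℝ) * pp n h.length) <
        |((G n h).card : ℝ) - (n.choose 2 : ℝ) * pp n h.length|)) ≤ 1 / (n : ℝ) ^ 3 := by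
  obtain ⟨-, t2, t3, -, t5, -⟩ := traj hP hi
  have hn := hP.four_le
  have hn' : (4 : ℝ) ≤ n := by exact_mod_cast hn
  have hy := hP.hy
  have hz : (100 : ℝ) ≤ z := le_trans (by norm_num) hP.z_ge
  have hz0 : 0 < z := by linarith
  have hy0 : 0 < y := by linarith
  have hyz : y ≤ z := by
    rw [hP.hz]; exact le_self_pow₀ (by linarith) (by norm_num)
  have hl1 := hP.one_le_log
  have hl2 : 100 * Real.log n ≤ y := by nlinarith [hP.log_le]
  have hz4 : 4 * z ^ 3 ≤ z ^ 1200 := by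
    calc 4 * z ^ 3 ≤ z * z ^ 3 := by gcongr; linarith
      _ = z ^ 4 := by ring
      _ ≤ z ^ 1200 := pow_le_pow_right₀ (by linarith) (by norm_num)
  have hna : (n : ℝ) = (z ^ 1200) ^ 2 := by rw [hP.hn, ← pow_mul]
  have hexp := hP.exp_ge
  generalize z ^ 1200 = a at t5 hz4 hna
  have hz3 : 1 ≤ z ^ 3 := one_le_pow₀ (by linarith)
  have ha1 : 1 ≤ a := by linarith
  have ha : 0 < a := by linarith
  have hβ1 : 1 / z ^ 2 ≤ 1 := by
    rw [div_le_one (by positivity)]; exact one_le_pow₀ (by linarith)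
  have hA := tri3_nonempty (n := n) (by omega)
  set ξ := Ph1E_xi n (1 / z ^ 2) (20 / y ^ 2) with hξ
  set μ : ℝ := a ^ 3 * y * z with hμ
  have hC : a ^ 4 / 4 ≤ (n.choose 2 : ℝ) := by
    have : a ^ 4 = (n : ℝ) ^ 2 := by rw [hna]; ring
    rw [this, Nat.cast_choose_two]
    nlinarith
  have hC0 : (0 : ℝ) ≤ (n.choose 2 : ℝ) := Nat.cast_nonneg _
  have hμle : μ + 4 * (1 / z ^ 2) * (Real.log n / 2) * (n.choose 2 : ℝ) ≤
      2 / z * (n.choose 2 : ℝ) := by
    have h1 : μ ≤ 1 / z * (n.choose 2 : ℝ) := by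
      rw [one_div_mul_eq_div, le_div_iff₀ hz0]
      calc μ * z = a ^ 3 * (y * z ^ 2) := by rw [hμ]; ring
        _ ≤ a ^ 3 * (z * z ^ 2) := by gcongr
        _ = a ^ 3 * (4 * z ^ 3) / 4 := by ring
        _ ≤ a ^ 3 * a / 4 := by gcongr
        _ = a ^ 4 / 4 := by ring
        _ ≤ _ := hC
    have h2 : 4 * (1 / z ^ 2) * (Real.log n / 2) ≤ 1 / z := by
      rw [le_div_iff₀ hz0]
      have : 4 * (1 / z ^ 2) * (Real.log n / 2) * z = 2 * Real.log n / z := by field_simp; ring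
      rw [this, div_le_one hz0]
      linarith
    have h3 := mul_le_mul_of_nonneg_right h2 hC0
    have h4 : 2 / z * (n.choose 2 : ℝ) = 1 / z * (n.choose 2 : ℝ) + 1 / z * (n.choose 2 : ℝ) := by
      ring
    linarith
  have step1 : Ex (tri3 n) i₀ (fun h => ind (ok n (1 / z ^ 2) (20 / y ^ 2) h ∧
      2 / z * ((n.choose 2 : ℝ) * pp n h.length) <
        |((G n h).card : ℝ) - (n.choose 2 : ℝ) * pp n h.length|)) ≤
      Ex (tri3 n) i₀ (fun h => ind (ever (fun h' => μ ≤ |mart ξ h'|) h)) := by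
    refine Ex_mono _ _ fun l hl _ => ind_mono ?_
    rintro ⟨hk, hlt⟩
    by_contra hm
    have h2 := (Ph1E_det hn (by positivity) t3 (ε := 2 / z)
      (by rw [div_le_one hz0]; linarith) hμle l hl.le hk hm).2
    have hp := pp_pos hn l.length
    have e : ((G n l).card : ℝ) - (n.choose 2 : ℝ) * pp n l.length =
        (((G n l).card : ℝ) / pp n l.length - (n.choose 2 : ℝ)) * pp n l.length := by
      field_simp
    rw [e, abs_mul, abs_of_pos hp, ← mul_assoc] at hlt
    exact absurd (mul_le_mul_of_nonneg_right h2 hp.le) (not_le.2 hlt)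
  have step2 : ∀ i ∈ range (i₀ + 1), Ex (tri3 n) i (fun h => ind (μ ≤ |mart ξ h|)) ≤
      2 * Real.exp (-z + 1) := by
    intro i hii
    have hii' : i ≤ i₀ := Nat.lt_succ_iff.1 (mem_range.1 hii)
    refine (freedman (tri3 n) hA ξ (fun j => 3 * a ^ 2 * (n : ℝ) ^ 2 * hh n j) (1 / (a ^ 3 * y)) μ i
      (by positivity) (fun h _ => Ph1E_xi_avg hn _ _ h) (fun h hl t _ => ?_)
      (fun h hl => Ph1E_xi_sq hn hβ1 _ h ha (t5 _ (by omega)))).trans ?_
    · have h1 := Ph1E_xi_abs hn (1 / z ^ 2) (20 / y ^ 2) h t ha (t5 _ (by omega))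
      rw [one_div_mul_eq_div, div_le_one (by positivity)]
      refine h1.trans ?_
      have : a ≤ a ^ 3 := le_self_pow₀ ha1 (by norm_num)
      nlinarith
    · have h1 : 1 / (a ^ 3 * y) * μ = z := by rw [hμ]; field_simp
      have h3 : ∑ j ∈ range i, hh n j ≤ Real.log n / 2 :=
        (sum_le_sum_of_subset_of_nonneg (range_mono hii') fun i _ _ => (hh_pos hn i).le).trans t3
      have h2 : (1 / (a ^ 3 * y)) ^ 2 * ∑ j ∈ range i, 3 * a ^ 2 * (n : ℝ) ^ 2 * hh n j ≤ 1 := by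
        rw [← mul_sum, ← mul_assoc]
        have e : (1 / (a ^ 3 * y)) ^ 2 * (3 * a ^ 2 * (n : ℝ) ^ 2) = 3 / y ^ 2 := by
          rw [hna]; field_simp
        rw [e, div_mul_eq_mul_div, div_le_one (by positivity)]
        nlinarith
      rw [h1]
      gcongr
  refine step1.trans ((Ex_ever_le _ hA _ _).trans ((sum_le_sum step2).trans ?_))
  rw [sum_const, card_range, nsmul_eq_mul, le_div_iff₀ (by positivity)]
  have h1 : Real.exp (-z + 1) * (n : ℝ) ^ 8 ≤ 1 := by
    calc _ ≤ Real.exp (-z + 1) * Real.exp (z / 10) := by gcongr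
      _ = Real.exp (-z + 1 + z / 10) := (Real.exp_add _ _).symm
      _ ≤ 1 := Real.exp_le_one_iff.2 (by linarith)
  have h2 : ((i₀ + 1 : ℕ) : ℝ) * 2 * (n : ℝ) ^ 3 ≤ (n : ℝ) ^ 8 := by
    have h3 : (1 : ℝ) ≤ (n : ℝ) ^ 3 := one_le_pow₀ (by linarith)
    have h4 : ((i₀ + 1 : ℕ) : ℝ) ≤ 2 * (n : ℝ) ^ 3 := by push_cast; linarith
    calc _ ≤ 2 * (n : ℝ) ^ 3 * 2 * (n : ℝ) ^ 3 := by gcongr
      _ = 4 * 1 * (n : ℝ) ^ 6 := by ring
      _ ≤ n * n * (n : ℝ) ^ 6 := by gcongr; linarith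
      _ = _ := by ring
  have h3 := Real.exp_pos (-z + 1)
  calc _ = Real.exp (-z + 1) * (((i₀ + 1 : ℕ) : ℝ) * 2 * (n : ℝ) ^ 3) := by ring
    _ ≤ Real.exp (-z + 1) * (n : ℝ) ^ 8 := by gcongr
    _ ≤ 1 := h1

end Crest.Agent.R30
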