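import Crest.Agent.R30.Surv
import Crest.Agent.R30.Moment
import Crest.Agent.R30.Gap
import Crest.Agent.R30.Ph1A
import Crest.Agent.R30.Ph1E

set_option autoImplicit false
open Finset Crest.CombinatoricsR.TriangleRemoval

namespace Crest.Agent.R30

/-! # Phase 1: closed walks (Markov on the `⌈z²⌉`-th moment) and the assembly -/

variable {n : ℕ} {y z : ℝ}

theorem phase1_pow_le {x : ℝ} (k : ℕ) (hx : 0 ≤ x) (hk : k * x ≤ 1) :
    (1 + x) ^ k ≤ 1 + 2 * (k * x) := by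
  have h0 : 0 ≤ k * x := by positivity
  have h1 : (1 + x) ^ k ≤ Real.exp (k * x) := by
    rw [Real.exp_nat_mul]
    exact pow_le_pow_left₀ (by positivity) (by linarith [Real.add_one_le_exp x]) k
  have h2 := exp_le_quad (x := k * x) (by rwa [abs_of_nonneg h0])
  nlinarith

theorem phase1_second' {a r M c : ℝ} (k l : ℕ) (hr : 0 ≤ r) (hM : 0 ≤ M)
    (h : a ^ (k + (k + l)) * c ≤ r ^ l) :
    (a * r) ^ k * (a * M) ^ (k + l) * c ≤ (r * M) ^ (k + l) := by
  calc (a * r) ^ k * (a * M) ^ (k + l) * c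
      = a ^ (k + (k + l)) * c * (r ^ k * M ^ (k + l)) := by ring
    _ ≤ r ^ l * (r ^ k * M ^ (k + l)) := mul_le_mul_of_nonneg_right h (by positivity)
    _ = _ := by ring

theorem phase1_second {a r M z : ℝ} (ha : 1 ≤ a) (hz : 1 ≤ z) (hM : 0 < M)
    (hr : a ^ 4 * z ^ 5 ≤ r) :
    (a * r) ^ 301 * (a * M) ^ 600 * (a ^ 2 * (z ^ 1200 * z)) ≤ (r * M) ^ 600 := by
  have h0 : 0 ≤ a ^ 4 * z ^ 5 := by positivity
  refine phase1_second' 301 299 (h0.trans hr) hM.le (le_trans ?_ (pow_le_pow_left₀ h0 hr 299))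
  rw [mul_pow, ← pow_mul, ← pow_mul, ← mul_assoc, ← pow_add, ← pow_succ]
  exact mul_le_mul (pow_le_pow_right₀ ha (by norm_num)) (pow_le_pow_right₀ hz (by norm_num))
    (pow_nonneg (by linarith) _) (pow_nonneg (by linarith) _)

theorem phase1_lam1 {y z D A M : ℝ} (hy : 1000 ≤ y) (hz : 100000 * y ≤ z) (hD : z ^ 8 / 2 ≤ D)
    (hA0 : 0 ≤ A) (hA : A ≤ D * (1 + 4 * (y / z ^ 2))) (hM0 : 0 < M) (hM : M ≤ 1200 * z ^ 2) :
    (A + M) ^ 600 ≤ D ^ 600 * (1 + 1 / (4 * z)) := by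
  have hz1 : 100000000 ≤ z := by linarith
  have hz0 : 0 < z := by linarith
  have hz1' : 1 ≤ z := by linarith
  have hD0 : 0 < D := lt_of_lt_of_le (by positivity) hD
  have hx0 : 0 ≤ y / z ^ 2 := by positivity
  have hx : y / z ^ 2 ≤ 1 / (100000 * z) := by
    rw [div_le_div_iff₀ (by positivity) (by positivity)]
    nlinarith
  have hx' : 1 / (100000 * z) ≤ 1 / 100000 := by gcongr; linarith
  have hMD : M ≤ D * (y / z ^ 2) := by
    have h1 : z ^ 8 / 2 * (1000 / z ^ 2) ≤ D * (y / z ^ 2) := by gcongr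
    have h2 : z ^ 8 / 2 * (1000 / z ^ 2) = 500 * z ^ 4 * z ^ 2 := by field_simp; norm_num
    have h3 : (3 : ℝ) ≤ z ^ 4 := le_trans (by linarith) (le_self_pow₀ hz1' (by norm_num))
    have h4 : 1200 * z ^ 2 ≤ 500 * z ^ 4 * z ^ 2 := by gcongr; linarith
    linarith
  have h2 : A + M ≤ D * (1 + 5 * (y / z ^ 2)) := by linarith
  have h3 : 1 / (100000 * z) = 1 / (4 * z) / 25000 := by field_simp; norm_num
  have h4 : 0 < 1 / (4 * z) := by positivity
  have h5 : ((600 : ℕ) : ℝ) * (5 * (y / z ^ 2)) ≤ 1 := by push_cast; linarith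
  have h6 : 1 + 2 * (((600 : ℕ) : ℝ) * (5 * (y / z ^ 2))) ≤ 1 + 1 / (4 * z) := by
    push_cast; linarith
  refine (pow_le_pow_left₀ (add_nonneg hA0 hM0.le) h2 600).trans ?_
  rw [mul_pow]
  exact mul_le_mul_of_nonneg_left ((phase1_pow_le 600 (by positivity) h5).trans h6)
    (pow_nonneg hD0.le _)

theorem phase1_lam2 {y z D A M P : ℝ} (hy : 1000 ≤ y) (hz : 100000 * y ≤ z) (hD : z ^ 8 / 2 ≤ D)
    (hA0 : 0 ≤ A) (hA : A ≤ D * (1 + 4 * (y / z ^ 2))) (hM0 : 0 < M) (hM : M ≤ 1200 * z ^ 2) :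
    1 / z ^ 1200 ≤ P → (A / M) ^ 301 * (2 * M) ^ 600 / P ≤ D ^ 600 * (1 / (4 * z)) := by
  have hz1 : 100000000 ≤ z := by linarith
  have hz0 : 0 < z := by linarith
  have hz1' : 1 ≤ z := by linarith
  have hD0 : 0 < D := lt_of_lt_of_le (by positivity) hD
  have hx : y / z ^ 2 ≤ 1 / 4 := by
    rw [div_le_div_iff₀ (by positivity) (by positivity)]
    nlinarith
  have h3 : A / M ≤ 2 * (D / M) := by
    rw [← mul_div_assoc]
    refine div_le_div_of_nonneg_right ?_ hM0.le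
    nlinarith
  have h4 : 2 ^ 4 * z ^ 5 ≤ D / M := by
    rw [le_div_iff₀ hM0]
    calc 2 ^ 4 * z ^ 5 * M ≤ 2 ^ 4 * z ^ 5 * (1200 * z ^ 2) := by gcongr
      _ = 38400 * z ^ 7 / 2 := by ring
      _ ≤ z * z ^ 7 / 2 := by gcongr; linarith
      _ = z ^ 8 / 2 := by ring
      _ ≤ D := hD
  have h7 : (0 : ℝ) < 4 * z := by positivity
  have h8 : (0 : ℝ) ≤ 2 * M := by positivity
  intro hP
  have h5 := phase1_second one_le_two hz1' hM0 h4
  have hz3 : 0 < z ^ 1200 := pow_pos hz0 _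
  have h9 := pow_le_pow_left₀ (div_nonneg hA0 hM0.le) h3 301
  have h10 := pow_nonneg (div_nonneg hA0 hM0.le) 301
  have h11 := pow_nonneg h8 600
  rw [div_mul_cancel₀ _ hM0.ne'] at h5
  generalize (A / M) ^ 301 = a, (2 * (D / M)) ^ 301 = a', (2 * M) ^ 600 = b, z ^ 1200 = c,
    D ^ 600 = d at hP h5 hz3 h9 h10 h11 ⊢
  have h6 : P⁻¹ ≤ c := by
    rw [one_div] at hP
    exact inv_le_of_inv_le₀ hz3 hP
  have hP0 : 0 < P := lt_of_lt_of_le (by positivity) hP
  rw [mul_one_div, le_div_iff₀ h7, div_eq_mul_inv]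
  calc a * b * P⁻¹ * (4 * z) ≤ a' * b * c * (4 * z) := by
        gcongr
        exact mul_nonneg (h10.trans h9) h11
    _ = a' * b * (2 ^ 2 * (c * z)) := by ring
    _ ≤ d := h5

theorem phase1_lam {y z D A M P : ℝ} (hy : 1000 ≤ y) (hz : 100000 * y ≤ z) (hD : z ^ 8 / 2 ≤ D)
    (hA0 : 0 ≤ A) (hA : A ≤ D * (1 + 4 * (y / z ^ 2))) (hM0 : 0 < M) (hM : M ≤ 1200 * z ^ 2) :
    1 / z ^ 1200 ≤ P → (A + M) ^ 600 + (A / M) ^ 301 * (2 * M) ^ 600 / P ≤
      (1 + 1 / z) * D ^ 600 * Real.exp (-(1 / (4 * z))) := by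
  have hz1 : 100000000 ≤ z := by linarith
  have hz0 : 0 < z := by linarith
  have hD0 : 0 < D := lt_of_lt_of_le (by positivity) hD
  have h3 : 1 - 1 / (2 * z) ≤ Real.exp (-(1 / (4 * z))) - 1 / (4 * z) := by
    have : 1 / (2 * z) = 1 / (4 * z) + 1 / (4 * z) := by field_simp; norm_num
    linarith [Real.add_one_le_exp (-(1 / (4 * z)))]
  have h4 : 1 + 1 / (4 * z) + 1 / (4 * z) ≤ (1 + 1 / z) * Real.exp (-(1 / (4 * z))) := by
    have h5 : 1 / z = 4 * (1 / (4 * z)) := by field_simp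
    have h6 : 0 < 1 / (4 * z) := by positivity
    have h7 : 1 / (4 * z) ≤ 1 / 4 := by gcongr; linarith
    have h8 := Real.add_one_le_exp (-(1 / (4 * z)))
    rw [h5]
    nlinarith
  intro hP
  refine (add_le_add (phase1_lam1 hy hz hD hA0 hA hM0 hM)
    (phase1_lam2 hy hz hD hA0 hA hM0 hM hP)).trans ?_
  rw [← mul_add, mul_comm (1 + 1 / z), mul_assoc]
  exact mul_le_mul_of_nonneg_left h4 (pow_nonneg hD0.le _)

theorem phase1_yz (hP : Par n y z) : 100000 * y ≤ z := by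
  have h1 := hP.big
  have h2 := hP.hy
  have h3 : y ≤ y ^ 4 := le_self_pow₀ (by linarith) (by norm_num)
  have h4 : (100000 : ℝ) ≤ 10 ^ 200 := by norm_num
  exact le_trans (mul_le_mul h4 h3 (by linarith) (by positivity)) h1

theorem phase1_A (hP : Par n y z) (i : ℕ) :
    n * (min 1 (pp n i * (1 + y / z ^ 2))) ^ 2 ≤ DD n i * (1 + 4 * (y / z ^ 2)) := by
  have hy := hP.hy
  have hyz := phase1_yz hP
  have hz1 : 100000000 ≤ z := by linarith
  have hz0 : 0 < z := by linarith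
  have hn4 := hP.four_le
  have hn4' : (4 : ℝ) ≤ n := by exact_mod_cast hn4
  have hp0 := pp_pos hn4 i
  have hD0 := DD_pos hn4 i
  have hx0 : 0 ≤ y / z ^ 2 := by positivity
  have hx : y / z ^ 2 ≤ 1 / 10 := by
    rw [div_le_div_iff₀ (by positivity) (by positivity)]
    nlinarith
  have h1 : (n : ℝ) ≤ (n - 2) * (1 + y / z ^ 2) := by
    have h2 : z ^ 2 ≤ n := by
      rw [hP.hn]
      exact pow_le_pow_right₀ (by linarith) (by norm_num)
    have h3 : 4 ≤ n * (y / z ^ 2) := by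
      rw [← mul_div_assoc, le_div_iff₀ (by positivity)]
      nlinarith
    nlinarith
  have h2 : (min 1 (pp n i * (1 + y / z ^ 2))) ^ 2 ≤ (pp n i * (1 + y / z ^ 2)) ^ 2 :=
    pow_le_pow_left₀ (by positivity) (min_le_right _ _) 2
  have h3 : (1 + y / z ^ 2) ^ 3 ≤ 1 + 4 * (y / z ^ 2) := by
    generalize y / z ^ 2 = x at hx hx0
    nlinarith [mul_nonneg hx0 hx0]
  calc _ ≤ (n - 2) * (1 + y / z ^ 2) * (pp n i * (1 + y / z ^ 2)) ^ 2 :=
        mul_le_mul h1 h2 (by positivity) (le_trans (by positivity) h1)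
    _ = DD n i * (1 + y / z ^ 2) ^ 3 := by unfold DD; ring
    _ ≤ _ := by gcongr

theorem phase1_markov {α : Type} (A : Finset α) (i m : ℕ) (p : List α → Prop) (c : List α → ℝ)
    (hc : ∀ h, 0 ≤ c h) {T e : ℝ} (hT : 0 < T)
    (h : Ex A i (fun h => ind (p h) * c h ^ m) ≤ (T * e) ^ m) :
    Ex A i (fun h => ind (p h ∧ T < c h)) ≤ e ^ m := by
  calc _ ≤ Ex A i (fun h => (T ^ m)⁻¹ * (ind (p h) * c h ^ m)) := by
        refine Ex_mono _ _ fun l _ _ => ?_
        by_cases hl : p l ∧ T < c l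
        · rw [ind_pos hl, ind_pos hl.1, one_mul, le_inv_mul_iff₀ (by positivity), mul_one]
          exact pow_le_pow_left₀ hT.le hl.2.le m
        · rw [ind_neg hl]
          have := ind_nonneg (p l)
          have := hc l
          positivity
    _ ≤ _ := by
        rw [Ex_mul_left, inv_mul_le_iff₀ (by positivity), ← mul_pow]
        exact h

theorem ph1T (hP : Par n y z) {i₀ : ℕ} (hi : I0 n (z ^ 8) i₀) {i : ℕ} (hii : i ≤ i₀) (u : Fin n) :
    Ex (tri3 n) i (fun h => ind (okb n (1 / z ^ 2) (20 / y ^ 2) h ∧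
      (1 + 1 / z) * DD n i ^ 600 < ((cw (G n h) u 599).card : ℝ))) ≤ Real.exp (-(z / 4)) := by
  have hy := hP.hy
  have hyz := phase1_yz hP
  have hz1 : 100000000 ≤ z := by linarith
  have hz0 : 0 < z := by linarith
  have hn4 := hP.four_le
  have hn4' : (4 : ℝ) ≤ n := by exact_mod_cast hn4
  have hD := (traj hP hi).2.2.2.1 i hii
  have hp0 := pp_pos hn4 i
  have hp1 := pp_le_one hn4 i
  have hD0 := DD_pos hn4 i
  have hA := phase1_A hP i
  have hx0 : 0 ≤ y / z ^ 2 := by positivity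
  obtain ⟨m, hm1, hm2⟩ : ∃ m : ℕ, z ^ 2 ≤ m ∧ (m : ℝ) ≤ 2 * z ^ 2 := by
    have h1 : 1 ≤ z ^ 2 := one_le_pow₀ (by linarith)
    have h2 := Nat.ceil_lt_add_one (a := z ^ 2) (by positivity)
    exact ⟨⌈z ^ 2⌉₊, Nat.le_ceil _, by linarith⟩
  have hz2 : 0 < z ^ 2 := by positivity
  have hS := fun S hS => surv_par hP hi hii S hS
  have hP1 : pp n i ≤ min 1 (pp n i * (1 + y / z ^ 2)) :=
    le_min hp1 (le_mul_of_one_le_right hp0.le (by linarith))
  have hP2 : min 1 (pp n i * (1 + y / z ^ 2)) ≤ 1 := min_le_left _ _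
  generalize min 1 (pp n i * (1 + y / z ^ 2)) = P at hA hS hP1 hP2
  have hP0 : 0 < P := hp0.trans_le hP1
  have hM : (((599 + 1) * m : ℕ) : ℝ) ≤ 1200 * z ^ 2 := by push_cast; linarith
  have hM0 : (0 : ℝ) < ((599 + 1) * m : ℕ) := by push_cast; linarith
  have hMA : (((599 + 1) * m : ℕ) : ℝ) ≤ n * P ^ 2 := by
    have h1 : DD n i ≤ n * P ^ 2 := by
      unfold DD
      exact mul_le_mul (by linarith) (by gcongr) (by positivity) (by positivity)
    have h2 : 2400 ≤ z ^ 6 := le_trans (by linarith) (le_self_pow₀ (by linarith) (by norm_num))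
    have h3 : 1200 * z ^ 2 ≤ z ^ 8 / 2 := by
      calc 1200 * z ^ 2 = 2400 * z ^ 2 / 2 := by ring
        _ ≤ z ^ 6 * z ^ 2 / 2 := by gcongr
        _ = _ := by ring
    linarith
  have he : Real.exp (-(1 / (4 * z))) ^ m ≤ Real.exp (-(z / 4)) := by
    rw [← Real.exp_nat_mul]
    refine Real.exp_le_exp.2 ?_
    have : z / 4 = z ^ 2 * (1 / (4 * z)) := by field_simp
    rw [this, mul_neg, neg_le_neg_iff]
    gcongr
  have hA0 : 0 ≤ n * P ^ 2 := by positivity
  have h1z : 0 < 1 + 1 / z := by positivity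
  have hmom := moment u 599 m P hP0 hP2
    (fun E => Ex (tri3 n) i (fun h => ind (okb n (1 / z ^ 2) (20 / y ^ 2) h) * ind (G n h = E)))
    (fun E => Ex_nonneg _ _ fun l _ _ => mul_nonneg (ind_nonneg _) (ind_nonneg _))
    (fun S hS' => by
      rw [← Ex_weights (tri3 n) i _ (G n) (fun E => ind (S ⊆ E))]
      simp only [← ind_and]
      refine hS S ?_
      have : (S.card : ℝ) ≤ ((2 * (599 + 1) * m : ℕ) : ℝ) := by exact_mod_cast hS'
      push_cast at this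
      linarith) hMA
  rw [← Ex_weights (tri3 n) i _ (G n) (fun E => ((cw E u 599).card : ℝ) ^ m)] at hmom
  have hlam := phase1_lam hy hyz hD hA0 hA hM0 hM (((traj hP hi).2.2.2.2.1 i hii).trans hP1)
  have h0 : 0 ≤ (n * P ^ 2 + (((599 + 1) * m : ℕ) : ℝ)) ^ 600 +
      (n * P ^ 2 / (((599 + 1) * m : ℕ) : ℝ)) ^ 301 * (2 * (((599 + 1) * m : ℕ) : ℝ)) ^ 600 / P :=
    add_nonneg (pow_nonneg (add_nonneg hA0 hM0.le) _) (div_nonneg (mul_nonneg
      (pow_nonneg (div_nonneg hA0 hM0.le) _) (pow_nonneg (mul_nonneg two_pos.le hM0.le) _)) hP0.le)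
  exact (phase1_markov _ i m _ (fun h => ((cw (G n h) u 599).card : ℝ))
    (fun _ => Nat.cast_nonneg _) (mul_pos h1z (pow_pos hD0 _))
    (hmom.trans (pow_le_pow_left₀ h0 hlam m))).trans he

theorem phase1_first {β η : ℝ} {h : List (Finset (Fin n))} (hk : ¬ ok n β η h) :
    ∃ h', h' <:+ h ∧ okb n β η h' ∧
      ¬ (Areg (G n h') (DD n h'.length) β ∧ Gap (G n h') (DD n h'.length) η) := by
  induction h with
  | nil => exact ⟨[], List.suffix_refl _, trivial, hk⟩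
  | cons t h ih =>
    by_cases h1 : ok n β η h
    · exact ⟨t :: h, List.suffix_refl _, h1, fun h2 => hk ⟨h1, h2⟩⟩
    · obtain ⟨h', h2, h3⟩ := ih h1
      exact ⟨h', h2.trans (List.suffix_cons _ _), h3⟩

theorem phase1_gap (hP : Par n y z) (E : Gr n) {D : ℝ} (hD : 0 < D) (hA : Areg E D (1 / z ^ 2))
    (hT : ∀ u, ((cw E u 599).card : ℝ) ≤ (1 + 1 / z) * D ^ 600) : Gap E D (20 / y ^ 2) := by
  have hy := hP.hy
  have hyz := phase1_yz hP
  have hz1 : 100000000 ≤ z := by linarith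
  have hy0 : 0 < y := by linarith
  have h := gap_of_trace E D (1 / z ^ 2) (1 / z) (2 / y ^ 2) 599 (by decide) hD (by positivity)
    (by gcongr <;> linarith) (by
      rw [div_le_div_iff₀ (by positivity) (by positivity)]
      nlinarith) (by
      have h1 : (2 : ℝ) ≤ 2 ^ (599 + 1) := le_self_pow₀ one_le_two (by norm_num)
      have h2 : (y ^ 2) ^ (599 + 1) = z := by rw [← pow_mul, hP.hz]
      rw [div_pow, h2]
      refine le_trans ?_ (div_le_div_of_nonneg_right h1 (by linarith))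
      have h3 : (600 : ℝ) * (1 / z ^ 2) ≤ 1 / z := by
        rw [mul_one_div, div_le_div_iff₀ (by positivity) (by positivity)]
        nlinarith
      have h4 : 2 / z = 1 / z + 1 / z := by ring
      push_cast
      linarith) hA hT
  rwa [show 10 * (2 / y ^ 2) = 20 / y ^ 2 by ring] at h

theorem phase1 (hP : Par n y z) {i₀ : ℕ} (hi : I0 n (z ^ 8) i₀) :
    Ex (tri3 n) i₀ (fun h => ind (¬ Good n y z h)) ≤ 1 / (n : ℝ) ^ 2 := by
  have hn4 := hP.four_le
  have hn4' : (4 : ℝ) ≤ n := by exact_mod_cast hn4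
  have hn0 : (0 : ℝ) < n := by linarith
  have hz0 : 0 < z := by linarith [phase1_yz hP, hP.hy]
  have h1 := ph1A hP hi
  have h2 := ph1E hP hi
  have h3 : Ex (tri3 n) i₀ (fun h => ind (ever (fun h' => ∃ u ∈ (univ : Finset (Fin n)),
      okb n (1 / z ^ 2) (20 / y ^ 2) h' ∧
        (1 + 1 / z) * DD n h'.length ^ 600 < ((cw (G n h') u 599).card : ℝ)) h)) ≤
      1 / (n : ℝ) ^ 3 := by
    refine (Ex_ever_le _ (tri3_nonempty (by omega)) _ _).trans ?_
    have h4 : ∀ i ∈ range (i₀ + 1), Ex (tri3 n) i (fun h' => ind (∃ u ∈ (univ : Finset (Fin n)),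
        okb n (1 / z ^ 2) (20 / y ^ 2) h' ∧
          (1 + 1 / z) * DD n h'.length ^ 600 < ((cw (G n h') u 599).card : ℝ))) ≤
        n * Real.exp (-(z / 4)) := by
      intro i hii
      calc _ ≤ Ex (tri3 n) i (fun h' => ∑ u : Fin n, ind (okb n (1 / z ^ 2) (20 / y ^ 2) h' ∧
            (1 + 1 / z) * DD n i ^ 600 < ((cw (G n h') u 599).card : ℝ))) := by
            refine Ex_mono _ _ fun l hl _ => ?_
            rw [hl]
            exact ind_exists_le _ _
        _ ≤ ∑ _u : Fin n, Real.exp (-(z / 4)) := by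
            rw [Ex_sum]
            exact sum_le_sum fun u _ => ph1T hP hi (Nat.lt_succ_iff.1 (mem_range.1 hii)) u
        _ = _ := by simp
    refine (sum_le_card_nsmul _ _ _ h4).trans ?_
    have h5 : (i₀ : ℝ) ≤ (n : ℝ) ^ 3 := (traj hP hi).2.1
    have h6 : Real.exp (-(z / 4)) ≤ 1 / (n : ℝ) ^ 8 := by
      rw [Real.exp_neg, one_div]
      exact inv_anti₀ (by positivity) (hP.exp_ge.trans (Real.exp_le_exp.2 (by linarith)))
    have h7 : (1 : ℝ) ≤ (n : ℝ) ^ 3 := one_le_pow₀ (by linarith)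
    rw [card_range, nsmul_eq_mul]
    push_cast
    calc ((i₀ : ℝ) + 1) * (n * Real.exp (-(z / 4)))
        ≤ ((n : ℝ) * (n : ℝ) ^ 3) * (n * (1 / (n : ℝ) ^ 8)) := by
          gcongr
          nlinarith
      _ = _ := by field_simp
  have h4 := add_le_add (add_le_add h1 h3) h2
  rw [← Ex_add, ← Ex_add] at h4
  refine le_trans (Ex_mono _ _ fun l _ _ => ?_) (h4.trans ?_)
  · refine le_trans (ind_mono fun hl => ?_)
      ((ind_or_le _ _).trans (add_le_add (ind_or_le _ _) le_rfl))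
    by_cases hk : ok n (1 / z ^ 2) (20 / y ^ 2) l
    · exact Or.inr ⟨hk, not_le.1 fun h5 => hl ⟨hk, h5⟩⟩
    · obtain ⟨h', h5, h6, h7⟩ := phase1_first hk
      by_cases hA : Areg (G n h') (DD n h'.length) (1 / z ^ 2)
      · refine Or.inl (Or.inr ⟨h', h5, ?_⟩)
        by_contra h8
        refine h7 ⟨hA, phase1_gap hP _ (DD_pos hn4 _) hA fun u => not_lt.1 fun h9 => ?_⟩
        exact h8 ⟨u, mem_univ _, h6, h9⟩
      · exact Or.inl (Or.inl ⟨h', h5, h6, hA⟩)
  · rw [← add_div, ← add_div, div_le_div_iff₀ (by positivity) (by positivity)]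
    nlinarith [pow_pos hn0 2]

end Crest.Agent.R30
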