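import Crest.Agent.R30.GoodG
import Crest.Agent.R30.Phase1
import Crest.Agent.R30.Count

set_option autoImplicit false
open Finset Crest.CombinatoricsR.TriangleRemoval

namespace Crest.Agent.R30

/-! # Assembly -/

variable {n : ℕ} {y z : ℝ}

theorem col_par (hP : Par n y z) {i₀ : ℕ} (hi : I0 n (z ^ 8) i₀) :
    Ex (tri3 n) i₀ (fun h => ind (Good n y z h) * Col (G n h) (20 * DD n i₀) (n ^ 8)) ≤
      (n : ℝ) * z ^ 26 := by
  have hz := hP.z_ge
  have hz1 : (100000 : ℝ) ≤ z := le_trans (by norm_num) hz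
  have hz0 : 0 < z := by linarith
  have hn4 := hP.four_le
  have hN : (4 : ℝ) ≤ n := by exact_mod_cast hn4
  have hD1 := (traj hP hi).2.2.2.1 i₀ le_rfl
  have hD2 := hi.1
  have hz8 : 4 * z ≤ z ^ 8 := by
    calc 4 * z ≤ z ^ 2 := by nlinarith
      _ ≤ z ^ 8 := pow_le_pow_right₀ (by linarith) (by norm_num)
  have hp := pp_pos hn4 i₀
  have hy := hP.hy
  have hyz : y / z ^ 2 ≤ 2 / 5 := by
    have h1 := hP.big
    have h2 : y ≤ y ^ 4 := le_self_pow₀ (by linarith) (by norm_num)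
    have h3 : y ^ 4 ≤ 10 ^ 200 * y ^ 4 := le_mul_of_one_le_left (by positivity) (by norm_num)
    rw [div_le_iff₀ (by positivity)]
    nlinarith
  have hyz0 : 0 ≤ y / z ^ 2 := by positivity
  set P := min 1 (pp n i₀ * (1 + y / z ^ 2)) with hPdef
  have hP0 : 0 ≤ P := le_min zero_le_one (by positivity)
  have hP2 : (n : ℝ) * P ^ 2 ≤ 4 * DD n i₀ := by
    have h1 : P ≤ pp n i₀ * (1 + y / z ^ 2) := min_le_right _ _
    have h2 : P ^ 2 ≤ pp n i₀ ^ 2 * 2 := by
      refine (pow_le_pow_left₀ hP0 h1 2).trans ?_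
      rw [mul_pow]
      exact mul_le_mul_of_nonneg_left (by nlinarith) (sq_nonneg _)
    unfold DD
    nlinarith [sq_nonneg (pp n i₀)]
  have hR : (⌈z⌉₊ : ℝ) ≤ z + 1 := (Nat.ceil_lt_add_one hz0.le).le
  have hne := tri3_nonempty (n := n) (by omega)
  rw [Ex_weights (tri3 n) i₀ (fun h => ind (Good n y z h)) (G n)
    fun E => Col E (20 * DD n i₀) (n ^ 8)]
  refine (col_bound _ (fun E => Ex_nonneg _ _ fun l _ _ => mul_nonneg (ind_nonneg _) (ind_nonneg _))
    ?_ (DD n i₀) P ⌈z⌉₊ (n ^ 8) (by linarith) hP0 (min_le_left _ _) (fun E hE u v h => ?_)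
    (fun S hS => ?_) (by linarith)).trans ?_
  · have := Ex_weights (tri3 n) i₀ (fun h => ind (Good n y z h)) (G n) fun _ => 1
    simp only [mul_one] at this
    rw [← this, ← Ex_const (tri3 n) hne i₀ 1]
    exact Ex_mono _ _ fun l _ _ => ind_le_one _
  · obtain ⟨l, hl, h1, h2⟩ : ∃ l : List (Finset (Fin n)), l.length = i₀ ∧ Good n y z l ∧
        G n l = E := by
      by_contra hc
      refine hE ?_
      rw [← Ex_zero (tri3 n) i₀]
      refine Ex_congr _ _ fun l hl _ => ?_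
      rw [← ind_and]
      exact ind_neg fun h => hc ⟨l, hl, h⟩
    have hA := (ok_now h1.1).1
    rw [h2, hl] at hA
    have h3 := (abs_le.1 (hA u v h)).2
    have h4 : 1 / z ^ 2 ≤ 1 := by rw [div_le_one (by positivity)]; nlinarith
    nlinarith
  · rw [← Ex_weights (tri3 n) i₀ (fun h => ind (Good n y z h)) (G n) fun E => ind (S ⊆ E)]
    refine le_trans (Ex_mono _ _ fun l _ _ => ?_) (surv_par hP hi le_rfl S ?_)
    · rw [← ind_and]
      exact ind_mono fun h => ⟨ok_okb h.1.1, h.2⟩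
    · have : (S.card : ℝ) ≤ 2 * (⌈z⌉₊ : ℝ) + 7 := by exact_mod_cast hS
      nlinarith
  · have h1 : (n : ℝ) ≤ 2 ^ ⌈z⌉₊ := by
      have h2 : Real.exp (1 / 10) ≤ 2 :=
        (Real.exp_bound_div_one_sub_of_interval (by norm_num) (by norm_num)).trans (by norm_num)
      calc (n : ℝ) ≤ (n : ℝ) ^ 8 := le_self_pow₀ (by linarith) (by norm_num)
        _ ≤ Real.exp (z / 10) := hP.exp_ge
        _ ≤ Real.exp (⌈z⌉₊ * (1 / 10)) := Real.exp_le_exp.2 (by linarith [Nat.le_ceil z])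
        _ = Real.exp (1 / 10) ^ ⌈z⌉₊ := Real.exp_nat_mul _ _
        _ ≤ 2 ^ ⌈z⌉₊ := pow_le_pow_left₀ (Real.exp_pos _).le h2 _
    have h2 : (n : ℝ) * (1 / 2 ^ ⌈z⌉₊) ≤ 1 := by
      rw [mul_one_div, div_le_one (by positivity)]; exact h1
    have hD0 : 0 ≤ DD n i₀ := by linarith
    have h3 : (n : ℝ) * P ^ 2 * (⌈z⌉₊ + 3) ≤ 4 * z ^ 8 * (2 * z) :=
      mul_le_mul (by linarith) (by linarith) (by positivity) (by positivity)
    have h4 : 1 ≤ z ^ 9 := one_le_pow₀ (by linarith)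
    calc 10000 * DD n i₀ ^ 2 * (n : ℝ) ^ 2 * (P ^ 2 * (⌈z⌉₊ + 3) + 1 / 2 ^ ⌈z⌉₊)
        = 10000 * DD n i₀ ^ 2 * n * ((n : ℝ) * P ^ 2 * (⌈z⌉₊ + 3) + n * (1 / 2 ^ ⌈z⌉₊)) := by ring
      _ ≤ 10000 * (z ^ 8) ^ 2 * n * (4 * z ^ 8 * (2 * z) + z ^ 9) := by
          gcongr
          exact h2.trans h4
      _ = (n : ℝ) * (90000 * z ^ 25) := by ring
      _ ≤ (n : ℝ) * (z * z ^ 25) := by gcongr; linarith
      _ = _ := by ring

theorem V_par (hP : Par n y z) : V (phi n) (allEdges n) ≤ 5 / z := by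
  obtain ⟨i₀, hi⟩ := exists_I0 hP
  have hz := hP.z_ge
  have hz1 : (100 : ℝ) ≤ z := le_trans (by norm_num) hz
  have hz0 : 0 < z := by linarith
  have hn4 := hP.four_le
  have hN : (4 : ℝ) ≤ n := by exact_mod_cast hn4
  have hne := tri3_nonempty (n := n) (by omega)
  have h1 : V (phi n) (allEdges n) ≤ Ex (tri3 n) i₀ fun h => 3 / z +
      (1 / (z ^ 211 * (n : ℝ)) * (ind (Good n y z h) * Col (G n h) (20 * DD n i₀) (n ^ 8)) +
        4 * (n : ℝ) * ind (¬ Good n y z h)) := by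
    rw [V_eq_Ex (phi n) (by omega) i₀]
    refine Ex_mono _ _ fun l hl _ => ?_
    by_cases h : Good n y z l
    · have h2 := ok_now h.1
      have h3 := h.2
      rw [hl] at h2 h3
      have := good_graph hP hi (G n l) (G_subset l) h2.1 h2.2 h3
      rw [ind_pos h, ind_neg (not_not.2 h), one_mul, mul_zero, add_zero, one_div_mul_eq_div]
      exact this
    · have := V_le (phi n) (G n l) (4 * n) fun k hk => (le_abs_self _).trans
        (phi_le (by omega) k (hk.trans (card_le_sq _ (G_subset l))))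
      rw [ind_neg h, ind_pos h, zero_mul, mul_zero, zero_add, mul_one]
      have : 0 ≤ 3 / z := by positivity
      linarith
  rw [Ex_add, Ex_add, Ex_mul_left, Ex_mul_left, Ex_const _ hne] at h1
  have h2 : 1 / (z ^ 211 * (n : ℝ)) * ((n : ℝ) * z ^ 26) ≤ 1 / z := by
    rw [one_div_mul_eq_div, div_le_div_iff₀ (by positivity) hz0, mul_assoc, ← pow_succ, one_mul,
      mul_comm]
    exact mul_le_mul_of_nonneg_right (pow_le_pow_right₀ (by linarith) (by norm_num)) (by linarith)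
  have h3 : 4 * (n : ℝ) * (1 / (n : ℝ) ^ 2) ≤ 1 / z := by
    have h6 : 4 * z ≤ n := by
      rw [hP.hn]
      calc 4 * z ≤ z ^ 2 := by nlinarith
        _ ≤ z ^ 2400 := pow_le_pow_right₀ (by linarith) (by norm_num)
    rw [mul_one_div, div_le_div_iff₀ (by positivity) hz0]
    nlinarith
  have h4 := mul_le_mul_of_nonneg_left (col_par hP hi)
    (by positivity : 0 ≤ 1 / (z ^ 211 * (n : ℝ)))
  have h5 := mul_le_mul_of_nonneg_left (phase1 hP hi) (by positivity : 0 ≤ 4 * (n : ℝ))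
  have e : 5 / z = 3 / z + 1 / z + 1 / z := by ring
  linarith

theorem main : Filter.Tendsto (fun n : ℕ => V (phi n) (allEdges n)) Filter.atTop (nhds 0) := by
  rw [Metric.tendsto_nhds]
  intro ε hε
  filter_upwards [par_eventually (10 / ε)] with n hn
  obtain ⟨y, z, hP, hB⟩ := hn
  have h0 : 0 ≤ V (phi n) (allEdges n) := V_ge _ _ 0 fun k _ => sq_nonneg _
  have hz0 : 0 < z := lt_of_lt_of_le (by positivity) hB
  rw [Real.dist_eq, sub_zero, abs_of_nonneg h0]
  refine (V_par hP).trans_lt ?_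
  rw [div_le_iff₀ hε] at hB
  rw [div_lt_iff₀ hz0]
  nlinarith

end Crest.Agent.R30
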