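import Crest.Agent.R30.Explore
import Crest.Agent.R30.Cavity
import Crest.Agent.R30.Cross

set_option autoImplicit false
open Finset Crest.CombinatoricsR.TriangleRemoval

namespace Crest.Agent.R30

/-! # Phase 2 from a good graph -/

variable {n : ℕ} {y z : ℝ}

theorem goodG_c_pos : (0 : ℝ) < 1 / (2 * Real.sqrt 2) := by positivity

theorem goodG_c_sq : (1 / (2 * Real.sqrt 2) : ℝ) ^ 2 = 1 / 8 := by
  rw [div_pow, mul_pow, Real.sq_sqrt (by norm_num)]; norm_num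

theorem goodG_c_le : (1 / (2 * Real.sqrt 2) : ℝ) ≤ 1 := by
  nlinarith [goodG_c_sq, goodG_c_pos]

theorem phi_le (hn : 1 ≤ n) (k : ℕ) (hk : k ≤ n ^ 2) : |phi n k| ≤ 4 * (n : ℝ) := by
  have hN : (1 : ℝ) ≤ n := by exact_mod_cast hn
  have hk' : (k : ℝ) ≤ (n : ℝ) ^ 2 := by exact_mod_cast hk
  obtain ⟨s, hs1, hs⟩ : ∃ s : ℝ, 1 ≤ s ∧ (n : ℝ) = s ^ 2 :=
    ⟨Real.sqrt n, Real.one_le_sqrt.mpr hN, (Real.sq_sqrt (by linarith)).symm⟩
  have h3 : (n : ℝ) ^ ((3 : ℝ) / 2) = s ^ 3 := by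
    rw [hs, ← Real.rpow_natCast, ← Real.rpow_mul (by linarith), ← Real.rpow_natCast]
    norm_num
  have h4 : (k : ℝ) / s ^ 3 ≤ s := by
    rw [div_le_iff₀ (by positivity)]
    rw [hs] at hk'
    nlinarith
  have h5 : 0 ≤ (k : ℝ) / s ^ 3 := by positivity
  rw [phi, abs_of_nonneg (sq_nonneg _), h3, hs]
  have := goodG_c_pos
  have := goodG_c_le
  nlinarith

theorem card_le_sq (E : Gr n) (hE : E ⊆ allEdges n) : E.card ≤ n ^ 2 :=
  (card_le_card hE).trans (by rw [card_allEdges]; exact Nat.choose_le_pow n 2)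

theorem goodG_ind_nonneg (k : Finset (Fin n)) (c : Node n) : 0 ≤ dk k c := ind_nonneg _

theorem goodG_desc_nonneg (E : Gr n) {f : Node n → ℝ} (hf : ∀ c, 0 ≤ f c) (i : ℕ) (c : Node n) :
    0 ≤ desc E f i c := by
  induction i generalizing c with
  | zero => exact hf c
  | succ i ih => exact sum_nonneg fun c' _ => ih c'

theorem goodG_nu0_nonneg (E : Gr n) {lam : ℝ} (hl : 0 ≤ lam) (W : ℕ) {f : Node n → ℝ}
    (hf : ∀ c, 0 ≤ f c) (c : Node n) : 0 ≤ nu0 E lam W f c :=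
  sum_nonneg fun i _ => div_nonneg (goodG_desc_nonneg E hf i c) (pow_nonneg hl _)

theorem goodG_Col_nonneg (E : Gr n) {lam : ℝ} (hl : 0 ≤ lam) (W : ℕ) : 0 ≤ Col E lam W := by
  refine sum_nonneg fun u _ => sum_nonneg fun v _ => goodG_nu0_nonneg E hl W (fun c => ?_) _
  refine add_nonneg (sum_nonneg fun c₁ _ => sum_nonneg fun c₂ _ => sum_nonneg fun k _ =>
    mul_nonneg (goodG_nu0_nonneg E hl W (goodG_ind_nonneg k) _)
      (goodG_nu0_nonneg E hl W (goodG_ind_nonneg k) _)) (sum_nonneg fun c₁ _ => ?_)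
  exact sum_nonneg fun i _ => div_nonneg (goodG_desc_nonneg E (goodG_ind_nonneg _) _ _)
    (pow_nonneg hl _)

theorem goodG_close {c X0 X1 X2 δ : ℝ} (hc : 0 < c) (hc1 : c ≤ 1) (hδ : 0 ≤ δ) (hδ1 : δ ≤ 1 / 10)
    (h0 : 0 ≤ X0) (h1 : |X0 ^ 2 - c ^ 2| ≤ δ * c ^ 2) (h2 : |X1 - X0| ≤ 2 * δ * X0)
    (h3 : |X2 - X1| ≤ δ * X1) : |X2 - c| ≤ 5 * δ := by
  have h4 : |X0 - c| ≤ δ * c := by
    have e : |X0 ^ 2 - c ^ 2| = |X0 - c| * (X0 + c) := by
      rw [sq_sub_sq, abs_mul, abs_of_nonneg (by linarith), mul_comm]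
    rw [e] at h1
    refine le_of_mul_le_mul_right ?_ hc
    nlinarith [abs_nonneg (X0 - c)]
  have h5 : δ * c ≤ δ := by nlinarith
  have h6 : X0 ≤ 11 / 10 := by linarith [(abs_le.1 h4).2]
  have h7 : 2 * δ * X0 ≤ 22 / 10 * δ := by nlinarith
  have h8 : X1 ≤ 14 / 10 := by linarith [(abs_le.1 h2).2]
  have h9 : δ * X1 ≤ 14 / 10 * δ := by nlinarith
  rw [abs_le] at *
  constructor <;> linarith [h4.1, h4.2, h2.1, h2.2, h3.1, h3.2]

theorem goodG_X0 {N p q D z : ℝ} (hN : 4 ≤ N) (hz : 1 ≤ z) (hzN : z ≤ N) (hD : D = (N - 2) * p ^ 2)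
    (hzD : z ≤ D) (hq : 0 < q) (h1 : 1 + 2 * D ≤ 1 / q ^ 2) (h2 : 1 / q ^ 2 ≤ 2 + 2 * D) :
    |(N * (N - 1) / 2 * p * q) ^ 2 / N ^ 3 - 1 / 8| ≤ 1 / z * (1 / 8) := by
  have hq2 : 0 < q ^ 2 := by positivity
  rw [le_div_iff₀ hq2] at h1
  rw [div_le_iff₀ hq2] at h2
  have hN2 : 0 < N - 2 := by linarith
  have e : (N * (N - 1) / 2 * p * q) ^ 2 / N ^ 3 =
      (1 + 1 / (N * (N - 2))) * (2 * D * q ^ 2) / 8 := by
    rw [hD]; field_simp; ring
  have h3 : 1 / (N * (N - 2)) ≤ 1 / z := one_div_le_one_div_of_le (by linarith) (by nlinarith)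
  have h4 : 0 ≤ 1 / (N * (N - 2)) := by positivity
  have h5 : 2 * D * q ^ 2 ≤ 1 := by nlinarith
  have h6 : 2 * q ^ 2 ≤ 1 / z := by
    rw [le_div_iff₀ (by linarith)]; nlinarith
  have h7 : 1 - 1 / z ≤ 2 * D * q ^ 2 := by nlinarith
  have h8 : 0 ≤ 2 * D * q ^ 2 := by have : 0 ≤ D := by linarith
                                    positivity
  rw [e, abs_le]
  constructor <;> nlinarith

theorem goodG_mean (hP : Par n y z) {i₀ : ℕ} (hi : I0 n (z ^ 8) i₀) (E : Gr n)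
    (hE : E ⊆ allEdges n) (hA : Areg E (DD n i₀) (1 / z ^ 2)) (hG : Gap E (DD n i₀) (20 / y ^ 2))
    (hc : |(E.card : ℝ) - (n.choose 2 : ℝ) * pp n i₀| ≤ 2 / z * ((n.choose 2 : ℝ) * pp n i₀)) :
    |SS E (n ^ 8) / (2 * z ^ 3600) - 1 / (2 * Real.sqrt 2)| ≤ 5 * (1 / z) := by
  have hz := hP.z_ge
  have hz1 : (10 : ℝ) ≤ z := le_trans (by norm_num) hz
  have hz0 : 0 < z := by linarith
  have hD1 := (traj hP hi).2.2.2.1 i₀ le_rfl
  have hD2 := hi.1
  have hz8 : 2 * z ≤ z ^ 8 := by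
    calc 2 * z ≤ z ^ 2 := by nlinarith
      _ ≤ z ^ 8 := pow_le_pow_right₀ (by linarith) (by norm_num)
  have hN : (4 : ℝ) ≤ n := by exact_mod_cast hP.four_le
  have hL : 4 * DD n i₀ ^ 2 ≤ ((n ^ 8 : ℕ) : ℝ) := by
    push_cast
    rw [hP.hn]
    calc 4 * DD n i₀ ^ 2 ≤ z * (z ^ 8) ^ 2 := by
          have : 0 ≤ DD n i₀ := by linarith
          gcongr; linarith
      _ = z ^ 17 := by ring
      _ ≤ z ^ (2400 * 8) := pow_le_pow_right₀ (by linarith) (by norm_num)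
      _ = _ := pow_mul _ _ _
  obtain ⟨q1, q2, q3, -⟩ := qb_facts (DD n i₀) (n ^ 8) (by linarith) hL
  have hq := (q1 (n ^ 8)).1
  set q := qb (DD n i₀) (n ^ 8) (n ^ 8) with hqdef
  have hp := pp_pos hP.four_le i₀
  have hM : 0 < z ^ 3600 := by positivity
  have hM2 : (z ^ 3600) ^ 2 = (n : ℝ) ^ 3 := by rw [hP.hn, ← pow_mul, ← pow_mul]
  have hch : (n.choose 2 : ℝ) = (n : ℝ) * (n - 1) / 2 := Nat.cast_choose_two ℝ n
  refine goodG_close (X0 := (n.choose 2 : ℝ) * pp n i₀ * q / z ^ 3600)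
    (X1 := (E.card : ℝ) * q / z ^ 3600) goodG_c_pos goodG_c_le (by positivity)
    (one_div_le_one_div_of_le (by norm_num) hz1) (by positivity) ?_ ?_ ?_
  · rw [goodG_c_sq, div_pow, hM2, hch]
    refine goodG_X0 (D := DD n i₀) hN (by linarith) ?_ rfl (by linarith) hq q2 q3
    rw [hP.hn]
    exact le_self_pow₀ (by linarith) (by norm_num)
  · rw [← sub_div, ← sub_mul, abs_div, abs_mul, abs_of_pos hq, abs_of_pos hM]
    calc _ ≤ 2 / z * ((n.choose 2 : ℝ) * pp n i₀) * q / z ^ 3600 := by gcongr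
      _ = _ := by ring
  · have h1 := (cavity hP E (DD n i₀) hD1 hD2 hA hG).1 (n ^ 8) le_rfl
    have h2 : 2 * (E.card : ℝ) * q = ∑ u, ∑ v ∈ nb E u, q := by
      rw [two_card E hE, sum_mul]
      exact sum_congr rfl fun u _ => by rw [sum_const, nsmul_eq_mul]
    have h3 : |SS E (n ^ 8) - 2 * (E.card : ℝ) * q| ≤ 1 / z * (2 * (E.card : ℝ) * q) := by
      rw [h2, SS, ← sum_sub_distrib, mul_sum]
      refine (abs_sum_le_sum_abs _ _).trans (sum_le_sum fun u _ => ?_)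
      rw [← sum_sub_distrib, mul_sum]
      exact (abs_sum_le_sum_abs _ _).trans (sum_le_sum fun v hv => h1 u v (mem_nb.1 hv))
    have e : SS E (n ^ 8) / (2 * z ^ 3600) - (E.card : ℝ) * q / z ^ 3600 =
        (SS E (n ^ 8) - 2 * (E.card : ℝ) * q) / (2 * z ^ 3600) := by
      generalize z ^ 3600 = M at hM
      field_simp
    rw [e, abs_div, abs_of_pos (by positivity : (0 : ℝ) < 2 * z ^ 3600)]
    calc _ ≤ 1 / z * (2 * (E.card : ℝ) * q) / (2 * z ^ 3600) := by gcongr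
      _ = _ := by
        generalize z ^ 3600 = M at hM
        field_simp

theorem goodG_var (hP : Par n y z) {i₀ : ℕ} (hi : I0 n (z ^ 8) i₀) (E : Gr n)
    (hE : E ⊆ allEdges n) (hA : Areg E (DD n i₀) (1 / z ^ 2)) (hG : Gap E (DD n i₀) (20 / y ^ 2))
    (hc : |(E.card : ℝ) - (n.choose 2 : ℝ) * pp n i₀| ≤ 2 / z * ((n.choose 2 : ℝ) * pp n i₀)) :
    avg univ (fun ω : Finset (Fin n) → Fin (n ^ 8) =>
      (2 * ((run E ω (n ^ 8)).card : ℝ) - SS E (n ^ 8)) ^ 2) / (2 * (n : ℝ) ^ 3) ≤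
      1 / z + Col E (20 * DD n i₀) (n ^ 8) / (z ^ 211 * (n : ℝ)) := by
  have hz := hP.z_ge
  have hz1 : (10 : ℝ) ≤ z := le_trans (by norm_num) hz
  have hz0 : 0 < z := by linarith
  have hD1 := (traj hP hi).2.2.2.1 i₀ le_rfl
  have hpp := (traj hP hi).2.2.2.2.2
  have hD2 := hi.1
  have hz8 : 2 * z ≤ z ^ 8 := by
    calc 2 * z ≤ z ^ 2 := by nlinarith
      _ ≤ z ^ 8 := pow_le_pow_right₀ (by linarith) (by norm_num)
  have hN : (4 : ℝ) ≤ n := by exact_mod_cast hP.four_le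
  have hL : 4 * DD n i₀ ^ 2 ≤ ((n ^ 8 : ℕ) : ℝ) := by
    push_cast
    rw [hP.hn]
    calc 4 * DD n i₀ ^ 2 ≤ z * (z ^ 8) ^ 2 := by
          have : 0 ≤ DD n i₀ := by linarith
          gcongr; linarith
      _ = z ^ 17 := by ring
      _ ≤ z ^ (2400 * 8) := pow_le_pow_right₀ (by linarith) (by norm_num)
      _ = _ := pow_mul _ _ _
  obtain ⟨q1, q2, q3, q4⟩ := qb_facts (DD n i₀) (n ^ 8) (by linarith) hL
  obtain ⟨-, c2, c3⟩ := cavity hP E (DD n i₀) hD1 hD2 hA hG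
  have hp := pp_pos hP.four_le i₀
  set D := DD n i₀ with hD
  have hD0 : 0 ≤ D := by linarith
  have hL0 : 0 < n ^ 8 := pow_pos (by have := hP.four_le; omega) 8
  have h1 := explore_var E hE (n ^ 8) hL0 (fun r => 4 * qb D (n ^ 8) r ^ 2 / ((n ^ 8 : ℕ) : ℝ))
    (20 * D) ((4 * z ^ 8) ^ 40) (by linarith) (fun r => by positivity)
    (fun r hr c hc => div_le_div_of_nonneg_right (by linarith [c3 r hr c hc]) (Nat.cast_nonneg _))
    c2 (by
      have e : 20 * D * ∑ r ∈ range (n ^ 8), 4 * qb D (n ^ 8) r ^ 2 / ((n ^ 8 : ℕ) : ℝ) =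
          (80 : ℕ) * ∑ r ∈ range (n ^ 8), D * qb D (n ^ 8) r ^ 2 / ((n ^ 8 : ℕ) : ℝ) := by
        rw [mul_sum, mul_sum]
        exact sum_congr rfl fun r _ => by push_cast; ring
      rw [e, Real.exp_nat_mul]
      calc _ ≤ (1 / qb D (n ^ 8) (n ^ 8)) ^ 80 := pow_le_pow_left₀ (Real.exp_pos _).le q4 80
        _ = (1 / qb D (n ^ 8) (n ^ 8) ^ 2) ^ 40 := by rw [← one_div_pow, ← pow_mul]
        _ ≤ (4 * z ^ 8) ^ 40 := pow_le_pow_left₀ (by positivity) (by linarith) 40)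
  have hcod : ∀ u v, adj E u v → ((cn E u v).card : ℝ) ≤ 2 * D := fun u v h => by
    have h2 := (abs_le.1 (hA u v h)).2
    have h3 : 1 / z ^ 2 ≤ 1 := by rw [div_le_one (by positivity)]; nlinarith
    nlinarith
  have h2 := cross_bound E D (by linarith) (n ^ 8) hcod
  have h3 := goodG_Col_nonneg E (lam := 20 * D) (by linarith) (n ^ 8)
  have h4 : (E.card : ℝ) ≤ (n : ℝ) ^ 2 * (2 / z ^ 1196) := by
    have h5 := (abs_le.1 hc).2
    have h6 : 2 / z ≤ 1 := by rw [div_le_one hz0]; linarith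
    have h7 : (n.choose 2 : ℝ) = (n : ℝ) * (n - 1) / 2 := Nat.cast_choose_two ℝ n
    have h8 : 0 ≤ (n.choose 2 : ℝ) * pp n i₀ := by positivity
    calc (E.card : ℝ) ≤ 2 * ((n.choose 2 : ℝ) * pp n i₀) := by nlinarith
      _ = (n : ℝ) * (n - 1) * pp n i₀ := by rw [h7]; ring
      _ ≤ (n : ℝ) ^ 2 * (2 / z ^ 1196) := mul_le_mul (by nlinarith) hpp hp.le (by positivity)
  have hN0 : (0 : ℝ) < n := by linarith
  rw [div_le_iff₀ (by positivity)]
  refine h1.trans ?_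
  rw [add_mul, add_comm]
  refine add_le_add ?_ ?_
  · calc ((4 * z ^ 8) ^ 40 * (20 * D)) ^ 2 * Cross E (20 * D) (n ^ 8)
        ≤ ((4 * z ^ 8) ^ 40 * (20 * z ^ 8)) ^ 2 * (100 * (n : ℝ) ^ 2 * z ^ 8) := by
          refine le_trans (mul_le_mul_of_nonneg_left h2 (sq_nonneg _)) ?_
          gcongr
      _ = (4 ^ 80 * 20000) * z ^ 664 * (2 * (n : ℝ) ^ 2) := by ring
      _ ≤ z * z ^ 664 * (2 * (n : ℝ) ^ 2) := by
          gcongr
          exact le_trans (by norm_num) hz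
      _ ≤ z ^ 2399 * (2 * (n : ℝ) ^ 2) := by
          rw [← pow_succ']
          exact mul_le_mul_of_nonneg_right (pow_le_pow_right₀ (by linarith) (by norm_num))
            (by positivity)
      _ = 1 / z * (2 * (n : ℝ) ^ 3) := by
          have : z ^ 2399 = 1 / z * n := by
            rw [hP.hn, pow_succ' z 2399, ← mul_assoc, one_div_mul_cancel hz0.ne', one_mul]
          rw [this]; ring
  · calc 8 * (E.card : ℝ) * (((4 * z ^ 8) ^ 40) ^ 3 * (20 * D) ^ 3 * Col E (20 * D) (n ^ 8))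
        ≤ 8 * ((n : ℝ) ^ 2 * (2 / z ^ 1196)) *
          (((4 * z ^ 8) ^ 40) ^ 3 * (20 * z ^ 8) ^ 3 * Col E (20 * D) (n ^ 8)) := by gcongr
      _ = (4 ^ 120 * 64000) * (z ^ 984 / z ^ 1196) * (2 * (n : ℝ) ^ 2 * Col E (20 * D) (n ^ 8)) := by
          ring
      _ ≤ z * (z ^ 984 / z ^ 1196) * (2 * (n : ℝ) ^ 2 * Col E (20 * D) (n ^ 8)) := by
          gcongr
          exact le_trans (by norm_num) hz
      _ = _ := by
          have : z * (z ^ 984 / z ^ 1196) = 1 / z ^ 211 := by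
            rw [← mul_div_assoc, ← pow_succ', div_eq_div_iff (by positivity) (by positivity),
              ← pow_add, one_mul]
          rw [this]
          generalize z ^ 211 = w
          by_cases hw : w = 0
          · simp [hw]
          · field_simp

theorem good_graph (hP : Par n y z) {i₀ : ℕ} (hi : I0 n (z ^ 8) i₀) (E : Gr n)
    (hE : E ⊆ allEdges n) (hA : Areg E (DD n i₀) (1 / z ^ 2)) (hG : Gap E (DD n i₀) (20 / y ^ 2))
    (hc : |(E.card : ℝ) - (n.choose 2 : ℝ) * pp n i₀| ≤ 2 / z * ((n.choose 2 : ℝ) * pp n i₀)) :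
    V (phi n) E ≤ 3 / z + Col E (20 * DD n i₀) (n ^ 8) / (z ^ 211 * (n : ℝ)) := by
  have hz := hP.z_ge
  have hz1 : (100 : ℝ) ≤ z := le_trans (by norm_num) hz
  have hz0 : 0 < z := by linarith
  have hn4 := hP.four_le
  have hN : (4 : ℝ) ≤ n := by exact_mod_cast hn4
  have hL0 : 0 < n ^ 8 := pow_pos (by omega) 8
  have h1 := labels (phi n) E (n ^ 8) hL0 (4 * n) fun k hk =>
    phi_le (by omega) k (hk.trans (card_le_sq E hE))
  have h2 := goodG_mean hP hi E hE hA hG hc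
  have h3 := goodG_var hP hi E hE hA hG hc
  have h4 : ((triangles E).card : ℝ) ≤ (n : ℝ) ^ 3 := by
    have : (triangles E).card ≤ n ^ 3 := (card_le_card (triangles_subset E)).trans (by
      rw [tri3, card_powersetCard, card_univ, Fintype.card_fin]; exact Nat.choose_le_pow n 3)
    exact_mod_cast this
  have h5 : 2 * (4 * (n : ℝ)) * ((triangles E).card : ℝ) ^ 2 / ((n ^ 8 : ℕ) : ℝ) ≤ 1 / z := by
    have h6 : 8 * z ≤ n := by
      rw [hP.hn]
      calc 8 * z ≤ z ^ 2 := by nlinarith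
        _ ≤ z ^ 2400 := pow_le_pow_right₀ (by linarith) (by norm_num)
    push_cast
    rw [div_le_div_iff₀ (by positivity) hz0]
    calc 2 * (4 * (n : ℝ)) * ((triangles E).card : ℝ) ^ 2 * z
        ≤ 2 * (4 * (n : ℝ)) * ((n : ℝ) ^ 3) ^ 2 * z := by gcongr
      _ = (n : ℝ) ^ 7 * (8 * z) := by ring
      _ ≤ (n : ℝ) ^ 7 * n := by gcongr
      _ = _ := by ring
  have hM : (n : ℝ) ^ ((3 : ℝ) / 2) = z ^ 3600 := by
    rw [hP.hn, ← Real.rpow_natCast, ← Real.rpow_mul hz0.le, ← Real.rpow_natCast]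
    norm_num
  have hM2 : (z ^ 3600) ^ 2 = (n : ℝ) ^ 3 := by rw [hP.hn, ← pow_mul, ← pow_mul]
  have hM0 : 0 < z ^ 3600 := by positivity
  have h6 : ∀ k : ℕ, phi n k ≤
      (2 * (k : ℝ) - SS E (n ^ 8)) ^ 2 * (1 / (2 * (n : ℝ) ^ 3)) + 1 / z := fun k => by
    rw [phi, hM, ← hM2]
    have h7 : (SS E (n ^ 8) / (2 * z ^ 3600) - 1 / (2 * Real.sqrt 2)) ^ 2 ≤ (5 * (1 / z)) ^ 2 :=
      sq_le_sq' (by linarith [(abs_le.1 h2).1]) (abs_le.1 h2).2
    have h8 : 2 * (5 * (1 / z)) ^ 2 ≤ 1 / z := by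
      have : 1 / z ≤ 1 / 100 := one_div_le_one_div_of_le (by norm_num) hz1
      have : 0 < 1 / z := by positivity
      nlinarith
    generalize z ^ 3600 = M at *
    have e1 : (k : ℝ) / M = (2 * (k : ℝ) - SS E (n ^ 8)) / (2 * M) + SS E (n ^ 8) / (2 * M) := by
      field_simp; ring
    have e2 : (2 * (k : ℝ) - SS E (n ^ 8)) ^ 2 * (1 / (2 * M ^ 2)) =
        2 * ((2 * (k : ℝ) - SS E (n ^ 8)) / (2 * M)) ^ 2 := by
      field_simp
    rw [e1, e2]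
    nlinarith [sq_nonneg ((2 * (k : ℝ) - SS E (n ^ 8)) / (2 * M) -
      (SS E (n ^ 8) / (2 * M) - 1 / (2 * Real.sqrt 2)))]
  have : Nonempty (Fin (n ^ 8)) := ⟨⟨0, hL0⟩⟩
  have h7 := avg_mono (univ : Finset (Finset (Fin n) → Fin (n ^ 8)))
    fun ω _ => h6 (run E ω (n ^ 8)).card
  rw [avg_add, avg_mul_right, avg_const _ univ_nonempty, mul_one_div] at h7
  have h8 := (abs_le.1 h1).1
  have e : 3 / z = 1 / z + 1 / z + 1 / z := by ring
  linarith

end Crest.Agent.R30
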