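import Crest.Agent.R30.Drift

set_option autoImplicit false
open Finset Crest.CombinatoricsR.TriangleRemoval

namespace Crest.Agent.R30

/-! # The linear recursion `x_i + ∑_{j<i} h_j A_j x_j = small` does not amplify errors -/

variable {n : ℕ}

/-- Functions of ordered pairs. -/
abbrev lin_V (n : ℕ) := Fin n → Fin n → ℝ

/-- The flip. -/
def lin_F : lin_V n →ₗ[ℝ] lin_V n where
  toFun x := fun u v => x v u
  map_add' _ _ := rfl
  map_smul' _ _ := rfl

/-- The mean over the neighbourhood of the first vertex. -/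
noncomputable def lin_P (E : Gr n) : lin_V n →ₗ[ℝ] lin_V n where
  toFun x := fun u _ => avg (nb E u) (x u)
  map_add' x y := by
    funext u v
    exact avg_add _ _ _
  map_smul' c x := by
    funext u v
    exact avg_mul_left _ _ _

/-- The error of the link operator. -/
noncomputable def lin_R (E : Gr n) (D : ℝ) : lin_V n →ₗ[ℝ] lin_V n where
  toFun x := fun u v => (∑ w ∈ cn E u v, x u w) / D - avg (nb E u) (x u)
  map_add' x y := by
    funext u v
    have := avg_add (nb E u) (x u) (y u)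
    simp only [Pi.add_apply, sum_add_distrib, add_div]
    change _ - avg (nb E u) (fun a => x u a + y u a) = _
    rw [this]
    ring
  map_smul' c x := by
    funext u v
    have := avg_mul_left (nb E u) c (x u)
    simp only [Pi.smul_apply, smul_eq_mul, RingHom.id_apply, ← mul_sum]
    change _ - avg (nb E u) (fun a => c * x u a) = _
    rw [this]
    ring

theorem lin_cn_comm (E : Gr n) (u v : Fin n) : cn E u v = cn E v u := by
  ext w
  simp only [mem_cn, and_comm]

theorem lin_Aop (E : Gr n) (D : ℝ) (x : lin_V n) :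
    Aop E D x = (lin_P E x + lin_F (lin_P E x)) + (lin_R E D x + lin_F (lin_R E D x)) := by
  funext u v
  change _ = (avg (nb E u) (x u) + avg (nb E v) (x v)) +
    ((∑ w ∈ cn E u v, x u w) / D - avg (nb E u) (x u) +
      ((∑ w ∈ cn E v u, x v w) / D - avg (nb E v) (x v)))
  rw [Aop, sum_add_distrib, lin_cn_comm E v u]
  ring

/-- The properties of the two seminorms that are used. -/
structure lin_Good (E : Gr n) (p : Seminorm ℝ (lin_V n)) : Prop where
  loc : ∀ x y : lin_V n, (∀ u v, adj E u v → x u v = y u v) → p x ≤ p y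
  flip : ∀ x, p (lin_F x) ≤ p x
  mean : ∀ x, p (lin_P E x) ≤ p x

theorem lin_sol_ex (E : ℕ → Gr n) (h : ℕ → ℝ) (g : ℕ → lin_V n) : ∃ s : ℕ → lin_V n, ∀ i,
    s i + ∑ j ∈ range i, h j • (lin_P (E j) (s j) + lin_F (lin_P (E j) (s j))) = g i := by
  let B : ℕ → lin_V n := fun i => Nat.rec 0
    (fun j b => b + h j • (lin_P (E j) (g j - b) + lin_F (lin_P (E j) (g j - b)))) i
  refine ⟨fun i => g i - B i, fun i => ?_⟩
  have : ∑ j ∈ range i, h j • (lin_P (E j) (g j - B j) + lin_F (lin_P (E j) (g j - B j))) =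
      B i := by
    induction i with
    | zero => rfl
    | succ i ih => rw [sum_range_succ, ih]
  rw [this, sub_add_cancel]

theorem lin_sol_le {I : ℕ} {E : ℕ → Gr n} {h : ℕ → ℝ} {τ : ℝ} (hh0 : ∀ i < I, 0 ≤ h i)
    (hh1 : ∀ i < I, h i ≤ 1) (hsum : ∑ i ∈ range I, h i ≤ τ) {p : ℕ → Seminorm ℝ (lin_V n)}
    (hp : ∀ i, lin_Good (E i) (p i)) (hmono : ∀ i < I, ∀ x, p (i + 1) x ≤ p i x)
    {s g : ℕ → lin_V n} (hs : ∀ i,
      s i + ∑ j ∈ range i, h j • (lin_P (E j) (s j) + lin_F (lin_P (E j) (s j))) = g i)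
    {c : ℝ} (hg : ∀ i ≤ I, p i (g i) ≤ c) : ∀ i ≤ I, p i (s i) ≤ (1 + 2 * τ) * c := by
  have hc : 0 ≤ c := (apply_nonneg _ _).trans (hg 0 (Nat.zero_le _))
  set Y : ℕ → lin_V n := fun i => ∑ j ∈ range i, h j • lin_P (E j) (s j) with hY
  have hsY : ∀ i, s i = g i - Y i - lin_F (Y i) := by
    intro i
    rw [← hs i]
    simp only [hY, map_sum, map_smul, smul_add, sum_add_distrib]
    abel
  have hYc : ∀ i u v w, Y i u v = Y i u w := by
    intro i u v w
    simp only [hY, Finset.sum_apply]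
    rfl
  have hYle : ∀ i ≤ I, p i (Y i) ≤ (∑ j ∈ range i, h j) * c := by
    intro i
    induction i with
    | zero => intro _; simp [hY]
    | succ i ih =>
      intro hi
      have hi' : i < I := hi
      have h0 := hh0 i hi'
      have h1 := hh1 i hi'
      have e1 : Y (i + 1) = Y i + h i • lin_P (E i) (g i - Y i - lin_F (Y i)) := by
        rw [← hsY]
        exact sum_range_succ _ _
      have e2 : p i (Y (i + 1)) ≤ p i ((1 - h i) • Y i + h i • lin_P (E i) (g i) -
          h i • lin_P (E i) (lin_F (Y i))) := by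
        refine (hp i).loc _ _ fun u v huv => ?_
        have e3 : lin_P (E i) (Y i) u v = Y i u v := by
          change avg (nb (E i) u) (Y i u) = _
          rw [avg_congr _ fun w _ => hYc i u w v, avg_const _ ⟨v, mem_nb.2 huv⟩]
        rw [e1]
        simp only [map_sub, Pi.add_apply, Pi.sub_apply, Pi.smul_apply, smul_eq_mul, e3]
        ring
      have e4 := map_sub_le_add (p i) ((1 - h i) • Y i + h i • lin_P (E i) (g i))
        (h i • lin_P (E i) (lin_F (Y i)))
      have e5 := map_add_le_add (p i) ((1 - h i) • Y i) (h i • lin_P (E i) (g i))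
      rw [map_smul_eq_mul, map_smul_eq_mul, Real.norm_of_nonneg h0,
        Real.norm_of_nonneg (sub_nonneg.2 h1)] at e5
      rw [map_smul_eq_mul, Real.norm_of_nonneg h0] at e4
      have e6 := mul_le_mul_of_nonneg_left (((hp i).mean _).trans (hg i hi'.le)) h0
      have e7 := mul_le_mul_of_nonneg_left (((hp i).mean _).trans ((hp i).flip (Y i))) h0
      have e8 := ih hi'.le
      have e9 := hmono i hi' (Y (i + 1))
      rw [sum_range_succ]
      linarith
  intro i hi
  have e1 : ∑ j ∈ range i, h j ≤ τ := (sum_le_sum_of_subset_of_nonneg (range_mono hi)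
    fun j hj _ => hh0 j (mem_range.1 hj)).trans hsum
  have e2 := (hYle i hi).trans (mul_le_mul_of_nonneg_right e1 hc)
  have e3 := map_sub_le_add (p i) (g i - Y i) (lin_F (Y i))
  have e4 := map_sub_le_add (p i) (g i) (Y i)
  have e5 := (hp i).flip (Y i)
  have e6 := hg i hi
  rw [hsY]
  linarith

theorem lin_T_le {I : ℕ} {E : ℕ → Gr n} {D h : ℕ → ℝ} {τ : ℝ} (hh0 : ∀ i < I, 0 ≤ h i)
    (hsum : ∑ i ∈ range I, h i ≤ τ) {p : ℕ → Seminorm ℝ (lin_V n)}
    (hp : ∀ i, lin_Good (E i) (p i)) (hmono : ∀ i < I, ∀ x, p (i + 1) x ≤ p i x)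
    {κ : ℝ} (hκ : 0 ≤ κ) (hR : ∀ i < I, ∀ x, p i (lin_R (E i) (D i) x) ≤ κ * p i x)
    {a : ℕ → lin_V n} {c : ℝ} (hc : 0 ≤ c) (ha : ∀ i < I, p i (a i) ≤ c) : ∀ i ≤ I,
      p i (∑ j ∈ range i, h j • (lin_R (E j) (D j) (a j) + lin_F (lin_R (E j) (D j) (a j)))) ≤
        τ * (2 * κ * c) := by
  have key : ∀ i ≤ I,
      p i (∑ j ∈ range i, h j • (lin_R (E j) (D j) (a j) + lin_F (lin_R (E j) (D j) (a j)))) ≤
        (∑ j ∈ range i, h j) * (2 * κ * c) := by
    intro i
    induction i with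
    | zero => intro _; simp
    | succ i ih =>
      intro hi
      have hi' : i < I := hi
      have h0 := hh0 i hi'
      rw [sum_range_succ, sum_range_succ]
      refine (hmono i hi' _).trans ((map_add_le_add _ _ _).trans ?_)
      rw [map_smul_eq_mul, Real.norm_of_nonneg h0, add_mul]
      refine add_le_add (ih hi'.le) (mul_le_mul_of_nonneg_left ?_ h0)
      have e1 := map_add_le_add (p i) (lin_R (E i) (D i) (a i)) (lin_F (lin_R (E i) (D i) (a i)))
      have e2 := (hp i).flip (lin_R (E i) (D i) (a i))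
      have e3 := (hR i hi' (a i)).trans (mul_le_mul_of_nonneg_left (ha i hi') hκ)
      linarith
  intro i hi
  have e1 : ∑ j ∈ range i, h j ≤ τ := (sum_le_sum_of_subset_of_nonneg (range_mono hi)
    fun j hj _ => hh0 j (mem_range.1 hj)).trans hsum
  exact (key i hi).trans (mul_le_mul_of_nonneg_right e1 (by positivity))

/-- Restriction to the edges. -/
noncomputable def lin_res (E : Gr n) : lin_V n →ₗ[ℝ] (Fin n × Fin n → ℝ) where
  toFun x := fun e => if adj E e.1 e.2 then x e.1 e.2 else 0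
  map_add' x y := by
    funext e
    simp only [Pi.add_apply]
    split_ifs <;> simp
  map_smul' c x := by
    funext e
    simp only [Pi.smul_apply, RingHom.id_apply]
    split_ifs <;> simp

/-- The supremum over the edges. -/
noncomputable def lin_sup (E : Gr n) : Seminorm ℝ (lin_V n) :=
  (normSeminorm ℝ (Fin n × Fin n → ℝ)).comp (lin_res E)

/-- The Euclidean norm over the ordered edges. -/
noncomputable def lin_two (E : Gr n) : Seminorm ℝ (lin_V n) :=
  (normSeminorm ℝ (EuclideanSpace ℝ (Fin n × Fin n))).comp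
    ((WithLp.linearEquiv 2 ℝ (Fin n × Fin n → ℝ)).symm.toLinearMap ∘ₗ lin_res E)

theorem lin_sup_le {E : Gr n} {x : lin_V n} {c : ℝ} (hc : 0 ≤ c)
    (h : ∀ u v, adj E u v → |x u v| ≤ c) : lin_sup E x ≤ c := by
  refine (pi_norm_le_iff_of_nonneg hc).2 fun e => ?_
  change |if adj E e.1 e.2 then x e.1 e.2 else 0| ≤ c
  split_ifs with he
  · exact h _ _ he
  · simpa using hc

theorem lin_le_sup {E : Gr n} (x : lin_V n) {u v : Fin n} (h : adj E u v) :
    |x u v| ≤ lin_sup E x := by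
  have := norm_le_pi_norm (lin_res E x) (u, v)
  change |if adj E u v then x u v else 0| ≤ _ at this
  rwa [if_pos h] at this

theorem lin_two_sq (E : Gr n) (x : lin_V n) :
    lin_two E x ^ 2 = ∑ u, ∑ v ∈ nb E u, x u v ^ 2 := by
  change ‖(WithLp.toLp 2 (lin_res E x) : EuclideanSpace ℝ (Fin n × Fin n))‖ ^ 2 = _
  rw [EuclideanSpace.real_norm_sq_eq, Fintype.sum_prod_type]
  refine sum_congr rfl fun u _ => ?_
  rw [nb, sum_filter]
  refine sum_congr rfl fun v _ => ?_
  change (if adj E u v then x u v else 0) ^ 2 = _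
  split_ifs <;> simp

theorem lin_two_le {E : Gr n} {x : lin_V n} {c : ℝ} (hc : 0 ≤ c)
    (h : ∑ u, ∑ v ∈ nb E u, x u v ^ 2 ≤ c ^ 2) : lin_two E x ≤ c :=
  (pow_le_pow_iff_left₀ (apply_nonneg _ _) hc two_ne_zero).1 (by rwa [lin_two_sq])

theorem lin_le_two {E : Gr n} (x : lin_V n) {u v : Fin n} (h : adj E u v) :
    |x u v| ≤ lin_two E x := by
  refine abs_le_of_sq_le_sq' ?_ (apply_nonneg _ _) |> abs_le.2
  rw [lin_two_sq]
  exact (single_le_sum (f := fun v => x u v ^ 2) (fun _ _ => sq_nonneg _) (mem_nb.2 h)).trans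
    (single_le_sum (f := fun u => ∑ v ∈ nb E u, x u v ^ 2)
      (fun _ _ => sum_nonneg fun _ _ => sq_nonneg _) (mem_univ u))

theorem lin_avg_abs {α : Type} (A : Finset α) (f : α → ℝ) {c : ℝ} (hc : 0 ≤ c)
    (h : ∀ a ∈ A, |f a| ≤ c) : |avg A f| ≤ c := by
  rw [avg, abs_div, Nat.abs_cast]
  refine div_le_of_le_mul₀ (Nat.cast_nonneg _) hc ?_
  refine (abs_sum_le_sum_abs _ _).trans ((sum_le_sum h).trans ?_)
  rw [sum_const, nsmul_eq_mul, mul_comm]

theorem lin_good_sup (E : Gr n) : lin_Good E (lin_sup E) where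
  loc _ y h := lin_sup_le (apply_nonneg _ _) fun u v huv => h u v huv ▸ lin_le_sup y huv
  flip x := lin_sup_le (apply_nonneg _ _) fun _ _ huv => lin_le_sup x (adj_symm huv)
  mean x := lin_sup_le (apply_nonneg _ _) fun _ _ _ =>
    lin_avg_abs _ _ (apply_nonneg _ _) fun _ hw => lin_le_sup x (mem_nb.1 hw)

theorem lin_good_two (E : Gr n) : lin_Good E (lin_two E) where
  loc x y h := lin_two_le (apply_nonneg _ _) (by
    rw [lin_two_sq]
    exact le_of_eq (sum_congr rfl fun u _ => sum_congr rfl fun v hv => by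
      rw [h u v (mem_nb.1 hv)]))
  flip x := lin_two_le (apply_nonneg _ _) (by
    rw [lin_two_sq]
    refine le_of_eq (sum_comm' fun u v => ?_)
    simp only [mem_univ, true_and, and_true, mem_nb]
    exact ⟨adj_symm, adj_symm⟩)
  mean x := lin_two_le (apply_nonneg _ _) (by
    rw [lin_two_sq]
    refine sum_le_sum fun u _ => ?_
    change ∑ _v ∈ nb E u, avg (nb E u) (x u) ^ 2 ≤ _
    rw [sum_const, nsmul_eq_mul, avg]
    rcases Nat.eq_zero_or_pos (nb E u).card with h0 | h0
    · rw [h0, Nat.cast_zero, zero_mul]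
      exact sum_nonneg fun _ _ => sq_nonneg _
    · have h1 : (0 : ℝ) < (nb E u).card := by exact_mod_cast h0
      have h2 := sq_sum_le_card_mul_sum_sq (s := nb E u) (f := x u)
      rw [div_pow, ← mul_div_assoc, div_le_iff₀ (by positivity)]
      nlinarith)

theorem lin_R_sup {E : Gr n} {D : ℝ} (hD : 0 < D)
    (hcod : ∀ u v, adj E u v → ((cn E u v).card : ℝ) ≤ 2 * D) (x : lin_V n) :
    lin_sup E (lin_R E D x) ≤ 3 * lin_sup E x := by
  have hc : 0 ≤ lin_sup E x := apply_nonneg _ _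
  refine lin_sup_le (by positivity) fun u v huv => ?_
  change |(∑ w ∈ cn E u v, x u w) / D - avg (nb E u) (x u)| ≤ _
  have e1 := lin_avg_abs (nb E u) (x u) hc fun _ hw => lin_le_sup x (mem_nb.1 hw)
  have e2 : |(∑ w ∈ cn E u v, x u w) / D| ≤ 2 * lin_sup E x := by
    rw [abs_div, abs_of_pos hD, div_le_iff₀ hD]
    refine (abs_sum_le_sum_abs _ _).trans
      ((sum_le_sum fun w hw => lin_le_sup x (mem_cn.1 hw).1).trans ?_)
    rw [sum_const, nsmul_eq_mul]
    have := mul_le_mul_of_nonneg_right (hcod u v huv) hc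
    linarith
  have e3 := abs_sub ((∑ w ∈ cn E u v, x u w) / D) (avg (nb E u) (x u))
  linarith

theorem lin_R_two {E : Gr n} {D η : ℝ} (hη : 0 ≤ η) (hgap : Gap E D η) (x : lin_V n) :
    lin_two E (lin_R E D x) ≤ η * lin_two E x := by
  refine lin_two_le (mul_nonneg hη (apply_nonneg _ _)) ?_
  rw [mul_pow, lin_two_sq, mul_sum]
  exact sum_le_sum fun u _ => hgap u (x u)

theorem lin_graph (I J : ℕ) (hJ : 1 ≤ J) (E : ℕ → Gr n) (D h : ℕ → ℝ)
    (x : ℕ → Fin n → Fin n → ℝ) (τ η μ : ℝ) (hτ : 1 ≤ τ) (hη : 0 ≤ η) (hμ : 0 ≤ μ)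
    (hE : ∀ i < I, E (i + 1) ⊆ E i)
    (hh0 : ∀ i < I, 0 ≤ h i) (hh1 : ∀ i < I, h i ≤ 1) (hsum : ∑ i ∈ range I, h i ≤ τ)
    (hD : ∀ i < I, 0 < D i)
    (hcod : ∀ i < I, ∀ u v, adj (E i) u v → ((cn (E i) u v).card : ℝ) ≤ 2 * D i)
    (hgap : ∀ i < I, Gap (E i) (D i) η)
    (hx : ∀ i < I, ∀ u v, adj (E i) u v → |x i u v| ≤ 1)
    (heq : ∀ i ≤ I, ∀ u v, adj (E i) u v →
      |x i u v + ∑ j ∈ range i, h j * Aop (E j) (D j) (x j) u v| ≤ μ) :
    ∀ u v, adj (E I) u v → |x I u v| ≤
      μ * (1 + (J : ℝ) * (6 * (τ * (1 + 2 * τ))) ^ J) +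
        2 * (n : ℝ) * (2 * η * (τ * (1 + 2 * τ))) ^ J := by
  have hmono1 : ∀ i < I, ∀ y, lin_sup (E (i + 1)) y ≤ lin_sup (E i) y := fun i hi y =>
    lin_sup_le (apply_nonneg _ _) fun u v huv => lin_le_sup y (adj_mono (hE i hi) huv)
  have hmono2 : ∀ i < I, ∀ y, lin_two (E (i + 1)) y ≤ lin_two (E i) y := fun i hi y =>
    lin_two_le (apply_nonneg _ _) (by
      rw [lin_two_sq]
      refine sum_le_sum fun u _ => sum_le_sum_of_subset_of_nonneg (fun v hv => ?_)
        fun _ _ _ => sq_nonneg _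
      exact mem_nb.2 (adj_mono (hE i hi) (mem_nb.1 hv)))
  set m : ℕ → lin_V n := fun i => x i + ∑ j ∈ range i, h j • Aop (E j) (D j) (x j) with hm
  have hmle : ∀ i ≤ I, lin_sup (E i) (m i) ≤ μ := fun i hi => lin_sup_le hμ fun u v huv => by
    have := heq i hi u v huv
    simpa only [hm, Pi.add_apply, Finset.sum_apply, Pi.smul_apply, smul_eq_mul] using this
  set K := τ * (1 + 2 * τ) with hK
  have hK0 : 0 ≤ K := by positivity
  have step : ∀ (α β : ℝ), 0 ≤ α → 0 ≤ β → ∀ a b : ℕ → lin_V n, (∀ i, x i = a i + b i) →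
      (∀ i < I, lin_sup (E i) (a i) ≤ α) → (∀ i < I, lin_two (E i) (b i) ≤ β) →
      ∃ a' b' : ℕ → lin_V n, (∀ i, x i = a' i + b' i) ∧
        (∀ i ≤ I, lin_sup (E i) (a' i) ≤ (1 + 2 * τ) * μ + 6 * K * α) ∧
        ∀ i ≤ I, lin_two (E i) (b' i) ≤ 2 * η * K * β := by
    intro α β hα hβ a b hab ha hb
    have hTa := lin_T_le hh0 hsum (fun i => lin_good_sup (E i)) hmono1 (κ := 3) (by norm_num)
      (fun i hi => lin_R_sup (hD i hi) (hcod i hi)) hα ha
    have hTb := lin_T_le hh0 hsum (fun i => lin_good_two (E i)) hmono2 hη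
      (fun i hi => lin_R_two hη (hgap i hi)) hβ hb
    obtain ⟨s, hs⟩ := lin_sol_ex E h fun i => -∑ j ∈ range i,
      h j • (lin_R (E j) (D j) (b j) + lin_F (lin_R (E j) (D j) (b j)))
    refine ⟨fun i => x i - s i, s, fun i => (sub_add_cancel _ _).symm, fun i hi => ?_,
      fun i hi => ?_⟩
    · have := lin_sol_le hh0 hh1 hsum (fun i => lin_good_sup (E i)) hmono1
        (s := fun i => x i - s i) (g := fun i => m i - ∑ j ∈ range i,
          h j • (lin_R (E j) (D j) (a j) + lin_F (lin_R (E j) (D j) (a j))))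
        (c := μ + τ * (2 * 3 * α)) (fun i => ?_)
        (fun i hi => (map_sub_le_add _ _ _).trans (add_le_add (hmle i hi) (hTa i hi))) i hi
      · refine this.trans (le_of_eq ?_)
        rw [hK]
        ring
      · have e1 := hs i
        have e2 : ∀ j, lin_R (E j) (D j) (x j) =
            lin_R (E j) (D j) (a j) + lin_R (E j) (D j) (b j) := fun j => by
          rw [hab j, map_add]
        rw [eq_neg_iff_add_eq_zero] at e1
        rw [← sub_eq_zero, ← neg_eq_zero, ← e1]
        simp only [hm, lin_Aop, e2, map_add, map_sub, smul_add, smul_sub, sum_add_distrib,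
          sum_sub_distrib]
        abel
    · have := lin_sol_le hh0 hh1 hsum (fun i => lin_good_two (E i)) hmono2 hs
        (c := τ * (2 * η * β)) (fun i hi => by rw [map_neg_eq_map]; exact hTb i hi) i hi
      refine this.trans (le_of_eq ?_)
      rw [hK]
      ring
  have hK1 : 1 + 2 * τ ≤ 6 * K := by nlinarith
  have hK2 : 1 ≤ 6 * K := by linarith
  have hnum : ∀ k : ℕ, (1 + 2 * τ) * μ + 6 * K * (μ * (k * (6 * K) ^ k)) ≤
      μ * ((k + 1 : ℕ) * (6 * K) ^ (k + 1)) := by
    intro k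
    have e1 : 1 + 2 * τ ≤ (6 * K) ^ (k + 1) :=
      hK1.trans (le_self_pow₀ hK2 (Nat.succ_ne_zero k))
    have e2 := mul_le_mul_of_nonneg_right e1 hμ
    push_cast
    rw [pow_succ] at e2 ⊢
    linarith
  have iter : ∀ k : ℕ, ∃ a b : ℕ → lin_V n, (∀ i, x i = a i + b i) ∧
      (∀ i < I, lin_sup (E i) (a i) ≤ μ * (k * (6 * K) ^ k)) ∧
      ∀ i < I, lin_two (E i) (b i) ≤ n * (2 * η * K) ^ k := by
    intro k
    induction k with
    | zero =>
      refine ⟨0, x, fun i => (zero_add _).symm, fun i _ => by simp, fun i hi => ?_⟩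
      rw [pow_zero, mul_one]
      refine lin_two_le (Nat.cast_nonneg _) ?_
      calc _ ≤ ∑ _u : Fin n, ∑ _v : Fin n, (1 : ℝ) := by
            refine sum_le_sum fun u _ => (sum_le_sum fun v hv => ?_).trans
              (sum_le_sum_of_subset_of_nonneg (subset_univ _) fun _ _ _ => zero_le_one)
            exact (sq_le_one_iff_abs_le_one _).2 (hx i hi u v (mem_nb.1 hv))
        _ = _ := by simp [sq]
    | succ k ih =>
      obtain ⟨a, b, hab, ha, hb⟩ := ih
      obtain ⟨a', b', h1, h2, h3⟩ := step _ _ (by positivity) (by positivity) a b hab ha hb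
      refine ⟨a', b', h1, fun i hi => (h2 i hi.le).trans (hnum k),
        fun i hi => (h3 i hi.le).trans (le_of_eq ?_)⟩
      ring
  obtain ⟨k, rfl⟩ : ∃ k, J = k + 1 := ⟨J - 1, by omega⟩
  obtain ⟨a, b, hab, ha, hb⟩ := iter k
  obtain ⟨a', b', h1, h2, h3⟩ := step _ _ (by positivity) (by positivity) a b hab ha hb
  intro u v huv
  have e1 := (lin_le_sup (a' I) huv).trans ((h2 I le_rfl).trans (hnum k))
  have e2 := (lin_le_two (b' I) huv).trans (h3 I le_rfl)
  have e3 := abs_add_le (a' I u v) (b' I u v)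
  have e4 : 0 ≤ (n : ℝ) * (2 * η * K) ^ (k + 1) := by positivity
  have e5 : 2 * η * K * (n * (2 * η * K) ^ k) = n * (2 * η * K) ^ (k + 1) := by ring
  rw [h1 I, Pi.add_apply, Pi.add_apply]
  linarith

end Crest.Agent.R30
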