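import Crest.Agent.R30.Lin

set_option autoImplicit false
open Finset Crest.CombinatoricsR.TriangleRemoval

namespace Crest.Agent.R30

/-! # Parameters and deterministic trajectories -/

variable {n : ℕ} {y z : ℝ}

theorem Par.big (hP : Par n y z) : (10 : ℝ) ^ 200 * y ^ 4 ≤ z := by
  have hy := hP.hy
  rw [hP.hz, show 1200 = 1196 + 4 from rfl, pow_add]
  refine mul_le_mul_of_nonneg_right ?_ (by positivity)
  calc (10 : ℝ) ^ 200 ≤ 1000 ^ 67 := by norm_num
    _ ≤ y ^ 67 := pow_le_pow_left₀ (by norm_num) hy 67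
    _ ≤ y ^ 1196 := pow_le_pow_right₀ (by linarith) (by norm_num)

theorem Par.z_ge (hP : Par n y z) : (10 : ℝ) ^ 200 ≤ z := by
  have hy := hP.hy
  exact le_trans (le_mul_of_one_le_right (by positivity) (one_le_pow₀ (by linarith))) hP.big

theorem Par.y_le_z (hP : Par n y z) : y ≤ z := by
  have hy := hP.hy
  rw [hP.hz]
  exact le_self_pow₀ (by linarith) (by norm_num)

theorem Par.z_le_n (hP : Par n y z) : z ≤ n := by
  have hz : (1 : ℝ) ≤ z := le_trans (by norm_num) hP.z_ge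
  rw [hP.hn]
  exact le_self_pow₀ hz (by norm_num)

theorem Par.one_le_log (hP : Par n y z) : 1 ≤ Real.log n := by
  have h := hP.z_le_n
  have hz : (3 : ℝ) ≤ z := le_trans (by norm_num) hP.z_ge
  rw [Real.le_log_iff_exp_le (by linarith)]
  linarith [Real.exp_one_lt_d9]

theorem Par.K_le (hP : Par n y z) : 60 * (Real.log n * (1 + 2 * Real.log n)) ≤ y := by
  have h1 := hP.one_le_log
  have h2 := hP.hK
  have hJ : 10 ≤ JJ := by norm_num [JJ]
  have hJ' : (10 : ℝ) ≤ JJ := by exact_mod_cast hJ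
  have hK : 1 ≤ 6 * (Real.log n * (1 + 2 * Real.log n)) := by nlinarith
  have h3 := le_self_pow₀ hK (n := JJ) (by omega)
  have h4 := mul_le_mul hJ' h3 (by linarith) (by linarith)
  linarith

theorem Par.log_le (hP : Par n y z) : 100 * Real.log n ^ 2 ≤ y := by
  have h := hP.K_le
  have := hP.one_le_log
  nlinarith

theorem Par.exp_ge (hP : Par n y z) : (n : ℝ) ^ 8 ≤ Real.exp (z / 10) := by
  have h1 := hP.log_le
  have h2 := hP.one_le_log
  have h3 := hP.y_le_z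
  have h4 := hP.z_le_n
  have hz : (1 : ℝ) ≤ z := le_trans (by norm_num) hP.z_ge
  calc (n : ℝ) ^ 8 = Real.exp ((8 : ℕ) * Real.log n) := by
        rw [Real.exp_nat_mul, Real.exp_log (by linarith)]
    _ ≤ _ := Real.exp_le_exp.2 (by push_cast; nlinarith)

theorem Par.four_le (hP : Par n y z) : 4 ≤ n := by
  have h := hP.z_le_n
  have hz : (4 : ℝ) ≤ z := le_trans (by norm_num) hP.z_ge
  exact_mod_cast hz.trans h

theorem par_aux (J : ℕ) {s : ℝ} (hs : 0 < s) : ∀ᶠ x : ℝ in Filter.atTop,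
    1 + (J : ℝ) * (6 * (Real.log x * (1 + 2 * Real.log x))) ^ J ≤ x ^ s := by
  have hC : (0 : ℝ) < 1 + J * 18 ^ J := by positivity
  have h1 := (isLittleO_log_rpow_rpow_atTop ((2 * J : ℕ) : ℝ) hs).bound (inv_pos.2 hC)
  filter_upwards [h1, Real.tendsto_log_atTop.eventually_ge_atTop 1,
    Filter.eventually_ge_atTop (0 : ℝ)] with x h1 h2 h3
  rw [Real.rpow_natCast, Real.norm_of_nonneg (by positivity), Real.norm_of_nonneg (by positivity),
    ← div_eq_inv_mul, le_div_iff₀ hC] at h1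
  refine le_trans ?_ h1
  have h4 : (6 * (Real.log x * (1 + 2 * Real.log x))) ^ J ≤ (18 * Real.log x ^ 2) ^ J :=
    pow_le_pow_left₀ (by positivity) (by nlinarith) J
  rw [mul_pow 18, ← pow_mul] at h4
  have h5 : 1 ≤ Real.log x ^ (2 * J) := one_le_pow₀ h2
  have h6 := mul_le_mul_of_nonneg_left h4 (Nat.cast_nonneg (α := ℝ) J)
  nlinarith

theorem par_eventually (B : ℝ) : ∀ᶠ n : ℕ in Filter.atTop, ∃ y z : ℝ, Par n y z ∧ B ≤ z := by
  have hs : (0 : ℝ) < 1 / 2880000 := by norm_num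
  have h1 := (tendsto_natCast_atTop_atTop (R := ℝ)).eventually (par_aux JJ hs)
  have h2 := ((tendsto_rpow_atTop hs).comp (tendsto_natCast_atTop_atTop (R := ℝ))).eventually_ge_atTop
    (max 1000 B)
  filter_upwards [h1, h2] with n h1 h2
  have h3 : (1000 : ℝ) ≤ (n : ℝ) ^ (1 / 2880000 : ℝ) := (le_max_left _ _).trans h2
  refine ⟨(n : ℝ) ^ (1 / 2880000 : ℝ), _, ⟨h3, rfl, ?_, h1⟩, ((le_max_right _ _).trans h2).trans
    (le_self_pow₀ (le_trans (by norm_num) h3) (by norm_num))⟩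
  rw [← pow_mul, ← Real.rpow_natCast, ← Real.rpow_mul (Nat.cast_nonneg n)]
  norm_num

/-- `lin_graph` with the parameters (`J = JJ`, `τ = log n`, `η = 20 / y ^ 2`). -/
theorem lin_par (hP : Par n y z) (I : ℕ) (E : ℕ → Gr n) (D h : ℕ → ℝ)
    (x : ℕ → Fin n → Fin n → ℝ) (μ : ℝ) (hμ : 0 ≤ μ)
    (hE : ∀ i < I, E (i + 1) ⊆ E i)
    (hh0 : ∀ i < I, 0 ≤ h i) (hh1 : ∀ i < I, h i ≤ 1) (hsum : ∑ i ∈ range I, h i ≤ Real.log n)
    (hD : ∀ i < I, 0 < D i)
    (hcod : ∀ i < I, ∀ u v, adj (E i) u v → ((cn (E i) u v).card : ℝ) ≤ 2 * D i)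
    (hgap : ∀ i < I, Gap (E i) (D i) (20 / y ^ 2))
    (hx : ∀ i < I, ∀ u v, adj (E i) u v → |x i u v| ≤ 1)
    (heq : ∀ i ≤ I, ∀ u v, adj (E i) u v →
      |x i u v + ∑ j ∈ range i, h j * Aop (E j) (D j) (x j) u v| ≤ μ) :
    ∀ u v, adj (E I) u v → |x I u v| ≤ μ * y + 2 / z ^ 4 := by
  intro u v huv
  have hy := hP.hy
  have hz : (1 : ℝ) ≤ z := le_trans (by norm_num) hP.z_ge
  have hτ := hP.one_le_log
  refine (lin_graph I JJ (by norm_num [JJ]) E D h x (Real.log n) (20 / y ^ 2) μ hτ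
    (by positivity) hμ hE hh0 hh1 hsum hD hcod hgap hx heq u v huv).trans
    (add_le_add (mul_le_mul_of_nonneg_left hP.hK hμ) ?_)
  have h1 : 2 * (20 / y ^ 2) * (Real.log n * (1 + 2 * Real.log n)) ≤ 1 / y := by
    have := hP.K_le
    rw [show 2 * (20 / y ^ 2) * (Real.log n * (1 + 2 * Real.log n)) =
      40 * (Real.log n * (1 + 2 * Real.log n)) / y ^ 2 by ring,
      div_le_div_iff₀ (by positivity) (by linarith)]
    nlinarith
  have h2 : y ^ JJ = z ^ 2404 := by rw [hP.hz, ← pow_mul]; rfl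
  have h3 := pow_le_pow_left₀ (by positivity) h1 JJ
  rw [one_div_pow, h2] at h3
  refine (mul_le_mul_of_nonneg_left h3 (by positivity)).trans (le_of_eq ?_)
  rw [hP.hn, show 2404 = 2400 + 4 from rfl, pow_add]
  have : 0 < z ^ 2400 := by positivity
  generalize z ^ 2400 = w at this
  field_simp

theorem N3_eq (n : ℕ) : N3 n = (n : ℝ) * ((n : ℝ) - 1) * ((n : ℝ) - 2) / 6 := by
  unfold N3
  induction n with
  | zero => simp
  | succ n ih =>
    rw [Nat.choose_succ_succ' n 2, Nat.cast_add, ih, Nat.cast_choose_two]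
    push_cast
    ring

theorem N3_pos (hn : 4 ≤ n) : 0 < N3 n := by
  have hN : (4 : ℝ) ≤ n := by exact_mod_cast hn
  rw [N3_eq]
  have : (0 : ℝ) < n - 1 := by linarith
  have : (0 : ℝ) < n - 2 := by linarith
  positivity

theorem pp_succ (n i : ℕ) : pp n (i + 1) = pp n i * (1 - hh n i) := rfl

theorem DD_succ (n i : ℕ) : DD n (i + 1) = DD n i * (1 - hh n i) ^ 2 := by
  unfold DD; rw [pp_succ]; ring

theorem par_hh (hn : 4 ≤ n) (i : ℕ) (h0 : 0 < pp n i) (h1 : pp n i ≤ 1) :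
    0 < hh n i ∧ hh n i ≤ 6 / ((n : ℝ) * (n - 1)) := by
  have hN : (4 : ℝ) ≤ n := by exact_mod_cast hn
  have h2 : (0 : ℝ) < n - 2 := by linarith
  have h3 : (0 : ℝ) < n - 1 := by linarith
  refine ⟨div_pos (by unfold DD; positivity) (N3_pos hn), ?_⟩
  unfold hh DD
  rw [div_le_div_iff₀ (N3_pos hn) (by positivity), N3_eq]
  have h4 : pp n i ^ 2 ≤ 1 := pow_le_one₀ h0.le h1
  have h5 : 0 < (n : ℝ) * (n - 1) * (n - 2) := by positivity
  nlinarith

theorem par_six (hn : 4 ≤ n) : 6 / ((n : ℝ) * (n - 1)) ≤ 1 / 2 := by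
  have hN : (4 : ℝ) ≤ n := by exact_mod_cast hn
  rw [div_le_div_iff₀ (by nlinarith) (by norm_num)]
  nlinarith

theorem par_pp (hn : 4 ≤ n) (i : ℕ) : 0 < pp n i ∧ pp n i ≤ 1 := by
  induction i with
  | zero => exact ⟨one_pos, le_rfl⟩
  | succ i ih =>
    obtain ⟨h1, h2⟩ := par_hh hn i ih.1 ih.2
    have := par_six hn
    rw [pp_succ]
    exact ⟨mul_pos ih.1 (by linarith), by nlinarith [ih.1, ih.2]⟩

theorem pp_pos (hn : 4 ≤ n) (i : ℕ) : 0 < pp n i := by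
  exact (par_pp hn i).1

theorem pp_le_one (hn : 4 ≤ n) (i : ℕ) : pp n i ≤ 1 := by
  exact (par_pp hn i).2

theorem DD_pos (hn : 4 ≤ n) (i : ℕ) : 0 < DD n i := by
  have hN : (4 : ℝ) ≤ n := by exact_mod_cast hn
  exact mul_pos (by linarith) (pow_pos (pp_pos hn i) 2)

theorem hh_pos (hn : 4 ≤ n) (i : ℕ) : 0 < hh n i := by
  exact (par_hh hn i (pp_pos hn i) (pp_le_one hn i)).1

theorem hh_le_half (hn : 4 ≤ n) (i : ℕ) : hh n i ≤ 1 / 2 := by
  exact (par_hh hn i (pp_pos hn i) (pp_le_one hn i)).2.trans (par_six hn)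

theorem hh_le (hn : 4 ≤ n) (i : ℕ) : hh n i ≤ 12 / (n : ℝ) ^ 2 := by
  have hN : (4 : ℝ) ≤ n := by exact_mod_cast hn
  refine (par_hh hn i (pp_pos hn i) (pp_le_one hn i)).2.trans ?_
  rw [div_le_div_iff₀ (by nlinarith) (by positivity)]
  nlinarith

theorem par_inv_DD (hn : 4 ≤ n) (i : ℕ) : 2 * (i : ℝ) / N3 n ≤ 1 / DD n i := by
  induction i with
  | zero => simpa using (DD_pos hn 0).le
  | succ i ih =>
    have h1 := hh_pos hn i
    have h2 := hh_le_half hn i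
    have h3 := DD_pos hn i
    have h4 : 2 / N3 n = 2 * hh n i / DD n i := by
      unfold hh; field_simp
    have h5 : (1 + 2 * hh n i) / DD n i ≤ 1 / DD n (i + 1) := by
      rw [div_le_div_iff₀ h3 (DD_pos hn _), DD_succ]
      have : (1 + 2 * hh n i) * (1 - hh n i) ^ 2 ≤ 1 := by nlinarith [sq_nonneg (hh n i)]
      nlinarith
    rw [add_div] at h5
    push_cast
    rw [mul_add, add_div, mul_one, h4]
    linarith

theorem par_pp_exp (hn : 4 ≤ n) (i : ℕ) : pp n i ≤ Real.exp (-∑ j ∈ range i, hh n j) := by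
  induction i with
  | zero => simp [pp]
  | succ i ih =>
    rw [pp_succ, sum_range_succ, neg_add, Real.exp_add]
    exact mul_le_mul ih (by linarith [Real.add_one_le_exp (-hh n i)])
      (by linarith [hh_le_half hn i]) (Real.exp_pos _).le

theorem exists_I0 (hP : Par n y z) : ∃ i₀, I0 n (z ^ 8) i₀ := by
  have hn := hP.four_le
  have hz : (1 : ℝ) ≤ z := le_trans (by norm_num) hP.z_ge
  have h8 : 1 ≤ z ^ 8 := one_le_pow₀ hz
  have h : ∃ i, DD n i ≤ z ^ 8 := by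
    refine ⟨⌈N3 n⌉₊, ?_⟩
    have h1 := par_inv_DD hn ⌈N3 n⌉₊
    have h2 : 1 ≤ 2 * (⌈N3 n⌉₊ : ℝ) / N3 n := by
      rw [le_div_iff₀ (N3_pos hn)]
      linarith [Nat.le_ceil (N3 n), N3_pos hn]
    have h3 := h2.trans h1
    rw [le_div_iff₀ (DD_pos hn _)] at h3
    linarith
  exact ⟨Nat.find h, Nat.find_spec h, fun i hi => not_le.1 (Nat.find_min h hi)⟩

theorem traj (hP : Par n y z) {i₀ : ℕ} (hi : I0 n (z ^ 8) i₀) :
    (i₀ : ℝ) / N3 n ≤ 1 / z ^ 8 ∧ (i₀ : ℝ) ≤ (n : ℝ) ^ 3 ∧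
      ∑ i ∈ range i₀, hh n i ≤ Real.log n / 2 ∧
      (∀ i ≤ i₀, z ^ 8 / 2 ≤ DD n i) ∧ (∀ i ≤ i₀, 1 / z ^ 1200 ≤ pp n i) ∧
      pp n i₀ ≤ 2 / z ^ 1196 := by
  have hn := hP.four_le
  have hz : (100 : ℝ) ≤ z := le_trans (by norm_num) hP.z_ge
  have hz0 : 0 < z := by linarith
  have h8 : 100 ≤ z ^ 8 := hz.trans (le_self_pow₀ (by linarith) (by norm_num))
  have hzn : z ^ 8 ≤ n := by
    rw [hP.hn]; exact pow_le_pow_right₀ (by linarith) (by norm_num)
  have hN3 := N3_pos hn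
  have hN3' : 2 * (n : ℝ) ≤ N3 n := by
    rw [N3_eq]
    have : (12 : ℝ) ≤ ((n : ℝ) - 1) * ((n : ℝ) - 2) := by nlinarith
    nlinarith
  have h1 : (i₀ : ℝ) / N3 n ≤ 1 / z ^ 8 := by
    rcases Nat.eq_zero_or_pos i₀ with rfl | h
    · simp; positivity
    obtain ⟨j, rfl⟩ : ∃ j, i₀ = j + 1 := ⟨i₀ - 1, by omega⟩
    have a1 := (par_inv_DD hn j).trans (one_div_le_one_div_of_le (by positivity)
      (hi.2 j (by omega)).le)
    have a2 : 2 / N3 n ≤ 1 / z ^ 8 := by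
      rw [div_le_div_iff₀ hN3 (by positivity)]; linarith
    push_cast
    have e : ((j : ℝ) + 1) / N3 n = (2 * j / N3 n + 2 / N3 n) / 2 := by ring
    rw [e]; linarith
  have h4 : ∀ i ≤ i₀, z ^ 8 / 2 ≤ DD n i := by
    intro i hle
    rcases Nat.eq_zero_or_pos i with rfl | h
    · simp only [DD, pp]; linarith
    obtain ⟨j, rfl⟩ : ∃ j, i = j + 1 := ⟨i - 1, by omega⟩
    have a1 := hi.2 j (by omega)
    have a2 : hh n j ≤ 1 / 4 := (hh_le hn j).trans (by
      rw [div_le_div_iff₀ (by positivity) (by norm_num)]; nlinarith)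
    have a3 := hh_pos hn j
    have a4 : 1 / 2 ≤ (1 - hh n j) ^ 2 := by nlinarith
    rw [DD_succ]
    nlinarith
  have h5 : ∀ i ≤ i₀, 1 / z ^ 1200 ≤ pp n i := by
    intro i hle
    refine (pow_le_pow_iff_left₀ (by positivity) (pp_pos hn i).le two_ne_zero).1 ?_
    rw [one_div_pow, ← pow_mul, ← hP.hn, div_le_iff₀ (by linarith)]
    have := h4 i hle
    unfold DD at this
    nlinarith [sq_nonneg (pp n i)]
  refine ⟨h1, ?_, ?_, h4, h5, ?_⟩
  · have a1 : (i₀ : ℝ) / N3 n ≤ 1 := h1.trans (by rw [div_le_one (by positivity)]; linarith)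
    rw [div_le_one hN3, N3_eq] at a1
    have : (0 : ℝ) ≤ n := Nat.cast_nonneg n
    nlinarith [sq_nonneg (n : ℝ), mul_nonneg this (sq_nonneg (n : ℝ))]
  · have a1 := Real.log_le_log (by positivity) ((h5 i₀ le_rfl).trans (par_pp_exp hn i₀))
    rw [Real.log_exp, one_div, Real.log_inv, Real.log_pow] at a1
    rw [hP.hn, Real.log_pow]
    push_cast at a1 ⊢
    linarith
  · refine (pow_le_pow_iff_left₀ (pp_pos hn _).le (by positivity) two_ne_zero).1 ?_
    have a1 := hi.1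
    unfold DD at a1
    have a2 : (n : ℝ) = z ^ 8 * z ^ (1196 * 2) := by rw [hP.hn, ← pow_add]
    rw [div_pow, ← pow_mul, le_div_iff₀ (by positivity)]
    refine le_of_mul_le_mul_left ?_ (by positivity : 0 < z ^ 8)
    rw [mul_left_comm, ← a2]
    nlinarith [sq_nonneg (pp n i₀)]

theorem qb_facts (D : ℝ) (L : ℕ) (hD : 2 ≤ D) (hL : 4 * D ^ 2 ≤ (L : ℝ)) :
    (∀ r, 0 < qb D L r ∧ qb D L r ≤ 1) ∧
      1 + 2 * D ≤ 1 / qb D L L ^ 2 ∧ 1 / qb D L L ^ 2 ≤ 2 + 2 * D ∧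
      Real.exp (∑ r ∈ range L, D * qb D L r ^ 2 / (L : ℝ)) ≤ 1 / qb D L L := by
  have hL0 : (0 : ℝ) < L := by nlinarith
  have hDL : D / L ≤ 1 / 8 := by
    rw [div_le_div_iff₀ hL0 (by norm_num)]; nlinarith
  have hb : ∀ q : ℝ, 0 < q → q ≤ 1 → 0 < D * q ^ 2 / L ∧ D * q ^ 2 / L ≤ D / L := fun q h0 h1 =>
    ⟨by have : 0 < D := by linarith
        positivity,
      div_le_div_of_nonneg_right (by nlinarith [pow_le_one₀ h0.le h1 (n := 2)]) hL0.le⟩
  have h1 : ∀ r, 0 < qb D L r ∧ qb D L r ≤ 1 := by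
    intro r
    induction r with
    | zero => exact ⟨one_pos, le_rfl⟩
    | succ r ih =>
      obtain ⟨a1, a2⟩ := hb _ ih.1 ih.2
      simp only [qb]
      exact ⟨mul_pos ih.1 (by linarith), by nlinarith [ih.1, ih.2]⟩
  have h2 : ∀ r : ℕ, 1 + r * (2 * D / L) ≤ 1 / qb D L r ^ 2 ∧
      1 / qb D L r ^ 2 ≤ 1 + r * (2 * D / L + 1 / L) := by
    intro r
    induction r with
    | zero => simp [qb]
    | succ r ih =>
      obtain ⟨q0, q1⟩ := h1 r
      obtain ⟨a1, a2⟩ := hb _ q0 q1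
      have hq2 : 0 < qb D L r ^ 2 := by positivity
      have e1 : 2 * D / L = 2 * (D * qb D L r ^ 2 / L) / qb D L r ^ 2 := by field_simp
      have e2 : 4 * (D * qb D L r ^ 2 / L) ^ 2 / qb D L r ^ 2 ≤ 1 / L := by
        rw [show 4 * (D * qb D L r ^ 2 / L) ^ 2 / qb D L r ^ 2 =
          4 * D ^ 2 * qb D L r ^ 2 / L / L by field_simp]
        refine div_le_div_of_nonneg_right ?_ hL0.le
        rw [div_le_one hL0]
        nlinarith [pow_le_one₀ q0.le q1 (n := 2), sq_nonneg D]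
      simp only [qb]
      generalize D * qb D L r ^ 2 / L = h at *
      have hh1 : 0 < 1 - h := by linarith
      have b1 : (1 + 2 * h) / qb D L r ^ 2 ≤ 1 / (qb D L r * (1 - h)) ^ 2 := by
        rw [div_le_div_iff₀ hq2 (by positivity), mul_pow]
        have : (1 + 2 * h) * (1 - h) ^ 2 ≤ 1 := by nlinarith [sq_nonneg h]
        nlinarith
      have b2 : 1 / (qb D L r * (1 - h)) ^ 2 ≤ (1 + 2 * h + 4 * h ^ 2) / qb D L r ^ 2 := by
        rw [div_le_div_iff₀ (by positivity) hq2, mul_pow]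
        have : 1 ≤ (1 + 2 * h + 4 * h ^ 2) * (1 - h) ^ 2 := by
          nlinarith [sq_nonneg h, mul_nonneg (sq_nonneg h) (by linarith : 0 ≤ 1 / 8 - h),
            sq_nonneg (h ^ 2)]
        nlinarith
      rw [add_div] at b1
      rw [add_div, add_div] at b2
      push_cast
      constructor <;> linarith [ih.1, ih.2]
  have h3 : ∀ r, qb D L r ≤ Real.exp (-∑ j ∈ range r, D * qb D L j ^ 2 / (L : ℝ)) := by
    intro r
    induction r with
    | zero => simp [qb]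
    | succ r ih =>
      obtain ⟨a1, a2⟩ := hb _ (h1 r).1 (h1 r).2
      rw [sum_range_succ, neg_add, Real.exp_add]
      simp only [qb]
      exact mul_le_mul ih (by linarith [Real.add_one_le_exp (-(D * qb D L r ^ 2 / L))])
        (by linarith) (Real.exp_pos _).le
  refine ⟨h1, ?_, ?_, ?_⟩
  · have := (h2 L).1
    rwa [mul_div_cancel₀ _ hL0.ne'] at this
  · have := (h2 L).2
    rw [mul_add, mul_div_cancel₀ _ hL0.ne', mul_div_cancel₀ _ hL0.ne'] at this
    linarith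
  · have := h3 L
    rw [Real.exp_neg, le_inv_comm₀ (h1 L).1 (Real.exp_pos _)] at this
    rwa [one_div]

end Crest.Agent.R30
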