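import Crest.Agent.R30.Defs

set_option autoImplicit false
open Finset Crest.CombinatoricsR.TriangleRemoval

namespace Crest.Agent.R30

/-! # Finite probability: `avg`, `Ex`, union bound, Freedman's inequality -/

variable {α : Type}

theorem ind_pos {p : Prop} (h : p) : ind p = 1 := by simp [ind, h]
theorem ind_neg {p : Prop} (h : ¬ p) : ind p = 0 := by simp [ind, h]
theorem ind_nonneg (p : Prop) : 0 ≤ ind p := by unfold ind; split_ifs <;> norm_num
theorem ind_le_one (p : Prop) : ind p ≤ 1 := by unfold ind; split_ifs <;> norm_num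
theorem ind_mono {p q : Prop} (h : p → q) : ind p ≤ ind q := by
  by_cases hp : p
  · rw [ind_pos hp, ind_pos (h hp)]
  · rw [ind_neg hp]; exact ind_nonneg q
theorem ind_congr {p q : Prop} (h : p ↔ q) : ind p = ind q := by rw [propext h]
theorem ind_and (p q : Prop) : ind (p ∧ q) = ind p * ind q := by
  by_cases hp : p <;> by_cases hq : q <;> simp [ind, hp, hq]
theorem ind_or_le (p q : Prop) : ind (p ∨ q) ≤ ind p + ind q := by
  by_cases hp : p <;> by_cases hq : q <;> simp [ind, hp, hq]
theorem ind_exists_le {ι : Type} (s : Finset ι) (p : ι → Prop) :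
    ind (∃ i ∈ s, p i) ≤ ∑ i ∈ s, ind (p i) := by
  by_cases h : ∃ i ∈ s, p i
  · obtain ⟨i, hi, hp⟩ := h
    rw [ind_pos ⟨i, hi, hp⟩, ← ind_pos hp]
    exact single_le_sum (f := fun i => ind (p i)) (fun j _ => ind_nonneg _) hi
  · rw [ind_neg h]; exact sum_nonneg (fun j _ => ind_nonneg _)

theorem avg_add (A : Finset α) (f g : α → ℝ) :
    avg A (fun a => f a + g a) = avg A f + avg A g := by
  simp only [avg, sum_add_distrib, add_div]
theorem avg_sub (A : Finset α) (f g : α → ℝ) :
    avg A (fun a => f a - g a) = avg A f - avg A g := by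
  simp only [avg, sum_sub_distrib, sub_div]
theorem avg_mul_left (A : Finset α) (c : ℝ) (f : α → ℝ) :
    avg A (fun a => c * f a) = c * avg A f := by
  simp only [avg, ← mul_sum, mul_div_assoc]
theorem avg_mul_right (A : Finset α) (c : ℝ) (f : α → ℝ) :
    avg A (fun a => f a * c) = avg A f * c := by
  simp only [avg, ← sum_mul]; ring
theorem avg_const (A : Finset α) (hA : A.Nonempty) (c : ℝ) : avg A (fun _ => c) = c := by
  have : (A.card : ℝ) ≠ 0 := by exact_mod_cast hA.card_pos.ne'
  simp only [avg, sum_const, nsmul_eq_mul]; field_simp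
theorem avg_zero (A : Finset α) : avg A (fun _ => (0 : ℝ)) = 0 := by simp [avg]
theorem avg_mono (A : Finset α) {f g : α → ℝ} (h : ∀ a ∈ A, f a ≤ g a) : avg A f ≤ avg A g :=
  div_le_div_of_nonneg_right (sum_le_sum h) (Nat.cast_nonneg _)
theorem avg_congr (A : Finset α) {f g : α → ℝ} (h : ∀ a ∈ A, f a = g a) : avg A f = avg A g := by
  unfold avg; rw [sum_congr rfl h]
theorem avg_nonneg (A : Finset α) {f : α → ℝ} (h : ∀ a ∈ A, 0 ≤ f a) : 0 ≤ avg A f :=
  div_nonneg (sum_nonneg h) (Nat.cast_nonneg _)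
theorem avg_sum {ι : Type} (A : Finset α) (s : Finset ι) (f : ι → α → ℝ) :
    avg A (fun a => ∑ i ∈ s, f i a) = ∑ i ∈ s, avg A (f i) := by
  simp only [avg]; rw [sum_comm, sum_div]

theorem Ex_add (A : Finset α) (N : ℕ) (f g : List α → ℝ) :
    Ex A N (fun h => f h + g h) = Ex A N f + Ex A N g := by
  induction N generalizing f g with
  | zero => rfl
  | succ N ih => simp only [Ex, avg_add]; exact ih _ _

theorem Ex_mul_left (A : Finset α) (N : ℕ) (c : ℝ) (f : List α → ℝ) :
    Ex A N (fun h => c * f h) = c * Ex A N f := by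
  induction N generalizing f with
  | zero => rfl
  | succ N ih => simp only [Ex, avg_mul_left]; exact ih _

theorem Ex_zero (A : Finset α) (N : ℕ) : Ex A N (fun _ => (0 : ℝ)) = 0 := by
  induction N with
  | zero => rfl
  | succ N ih => simp only [Ex, avg_zero]; exact ih

theorem Ex_sum {ι : Type} (A : Finset α) (N : ℕ) (s : Finset ι) (f : ι → List α → ℝ) :
    Ex A N (fun h => ∑ i ∈ s, f i h) = ∑ i ∈ s, Ex A N (f i) := by
  induction N generalizing f with
  | zero => rfl
  | succ N ih => simp only [Ex, avg_sum]; exact ih _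

theorem Ex_const (A : Finset α) (hA : A.Nonempty) (N : ℕ) (c : ℝ) : Ex A N (fun _ => c) = c := by
  induction N with
  | zero => rfl
  | succ N ih => simp only [Ex, avg_const A hA]; exact ih

/-- Monotonicity; only histories of length `N` with entries in `A` matter. -/
theorem Ex_mono (A : Finset α) (N : ℕ) {f g : List α → ℝ}
    (h : ∀ l : List α, l.length = N → (∀ a ∈ l, a ∈ A) → f l ≤ g l) : Ex A N f ≤ Ex A N g := by
  induction N generalizing f g with
  | zero => exact h [] rfl (by simp)
  | succ N ih =>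
    refine ih (fun l hl hA => avg_mono A (fun a ha => h _ (by simp [hl]) ?_))
    intro b hb
    rcases List.mem_cons.1 hb with rfl | hb
    · exact ha
    · exact hA b hb

theorem Ex_congr (A : Finset α) (N : ℕ) {f g : List α → ℝ}
    (h : ∀ l : List α, l.length = N → (∀ a ∈ l, a ∈ A) → f l = g l) : Ex A N f = Ex A N g :=
  le_antisymm (Ex_mono A N (fun l h1 h2 => (h l h1 h2).le))
    (Ex_mono A N (fun l h1 h2 => (h l h1 h2).ge))

theorem Ex_nonneg (A : Finset α) (N : ℕ) {f : List α → ℝ}
    (h : ∀ l : List α, l.length = N → (∀ a ∈ l, a ∈ A) → 0 ≤ f l) : 0 ≤ Ex A N f := by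
  rw [← Ex_zero A N]; exact Ex_mono A N h

/-- The law of a statistic `g` on the event weighted by `F`, as weights. -/
theorem Ex_weights {β : Type} [Fintype β] (A : Finset α) (N : ℕ) (F : List α → ℝ)
    (g : List α → β) (f : β → ℝ) :
    Ex A N (fun h => F h * f (g h)) = ∑ b, Ex A N (fun h => F h * ind (g h = b)) * f b := by
  have h1 : ∀ b, Ex A N (fun h => F h * ind (g h = b)) * f b =
      Ex A N (fun h => f b * (F h * ind (g h = b))) := by
    intro b; rw [Ex_mul_left, mul_comm]
  simp only [h1]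
  rw [← Ex_sum]
  refine Ex_congr A N (fun l _ _ => ?_)
  rw [sum_eq_single (g l)]
  · rw [ind_pos rfl]; ring
  · intro b _ hb; rw [ind_neg (Ne.symm hb)]; ring
  · intro hb; exact absurd (mem_univ _) hb

/-- Union bound over time. -/
theorem Ex_ever_le (A : Finset α) (hA : A.Nonempty) (N : ℕ) (P : List α → Prop) :
    Ex A N (fun h => ind (ever P h)) ≤ ∑ i ∈ range (N + 1), Ex A i (fun h => ind (P h)) := by
  induction N with
  | zero =>
    simp only [Ex, zero_add, range_one, sum_singleton]
    refine ind_mono ?_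
    rintro ⟨h', hs, hp⟩
    rwa [List.suffix_nil.1 hs] at hp
  | succ N ih =>
    rw [sum_range_succ]
    have h1 : Ex A (N + 1) (fun h => ind (ever P h)) ≤
        Ex A (N + 1) (fun h => ind (ever P h.tail) + ind (P h)) := by
      refine Ex_mono A _ (fun l hl _ => ?_)
      refine le_trans (ind_mono ?_) (ind_or_le _ _)
      rintro ⟨h', hs, hp⟩
      cases l with
      | nil => simp at hl
      | cons a l =>
        rcases List.suffix_cons_iff.1 hs with rfl | hs
        · exact Or.inr hp
        · exact Or.inl ⟨h', hs, hp⟩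
    rw [Ex_add] at h1
    have h2 : Ex A (N + 1) (fun h => ind (ever P h.tail)) = Ex A N (fun h => ind (ever P h)) := by
      simp only [Ex, List.tail_cons, avg_const A hA]
    linarith

theorem exp_le_quad {x : ℝ} (hx : |x| ≤ 1) : Real.exp x ≤ 1 + x + x ^ 2 := by
  have := Real.abs_exp_sub_one_sub_id_le hx
  have := (abs_le.1 this).2
  linarith

theorem Ex_exp_mart (A : Finset α) (hA : A.Nonempty) (ξ : List α → α → ℝ) (v : ℕ → ℝ)
    (θ : ℝ) (N : ℕ)
    (h0 : ∀ h : List α, h.length < N → avg A (ξ h) = 0)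
    (h1 : ∀ h : List α, h.length < N → ∀ a ∈ A, |θ * ξ h a| ≤ 1)
    (h2 : ∀ h : List α, h.length < N → avg A (fun a => ξ h a ^ 2) ≤ v h.length) :
    Ex A N (fun h => Real.exp (θ * mart ξ h)) ≤ Real.exp (θ ^ 2 * ∑ i ∈ range N, v i) := by
  induction N with
  | zero => simp [Ex, mart]
  | succ N ih =>
    have ih' := ih (fun h hl => h0 h (by omega)) (fun h hl => h1 h (by omega))
      (fun h hl => h2 h (by omega))
    have step : Ex A (N + 1) (fun h => Real.exp (θ * mart ξ h)) ≤
        Ex A N (fun h => Real.exp (θ ^ 2 * v N) * Real.exp (θ * mart ξ h)) := by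
      simp only [Ex]
      refine Ex_mono A N (fun l hl _ => ?_)
      have e1 : avg A (fun a => Real.exp (θ * mart ξ (a :: l))) =
          avg A (fun a => Real.exp (θ * ξ l a)) * Real.exp (θ * mart ξ l) := by
        rw [← avg_mul_right]
        refine avg_congr A (fun a _ => ?_)
        simp only [mart]; rw [← Real.exp_add]; ring_nf
      rw [e1]
      refine mul_le_mul_of_nonneg_right ?_ (Real.exp_pos _).le
      have e2 : avg A (fun a => Real.exp (θ * ξ l a)) ≤
          avg A (fun a => 1 + θ * ξ l a + θ ^ 2 * ξ l a ^ 2) := by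
        refine avg_mono A (fun a ha => ?_)
        have := exp_le_quad (h1 l (by omega) a ha)
        rw [mul_pow] at this; exact this
      rw [avg_add, avg_add, avg_mul_left, avg_mul_left, avg_const A hA, h0 l (by omega)] at e2
      have e3 := h2 l (by omega)
      rw [hl] at e3
      have e4 : θ ^ 2 * avg A (fun a => ξ l a ^ 2) ≤ θ ^ 2 * v N :=
        mul_le_mul_of_nonneg_left e3 (sq_nonneg _)
      have e5 := Real.add_one_le_exp (θ ^ 2 * v N)
      linarith
    rw [Ex_mul_left] at step
    refine step.trans ?_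
    rw [sum_range_succ, mul_add, Real.exp_add, mul_comm]
    exact mul_le_mul_of_nonneg_right ih' (Real.exp_pos _).le

theorem mart_neg (ξ : List α → α → ℝ) (h : List α) :
    mart (fun h a => - ξ h a) h = - mart ξ h := by
  induction h with
  | nil => simp [mart]
  | cons a h ih => simp only [mart, ih]; ring

/-- Freedman's inequality at a fixed time. -/
theorem freedman (A : Finset α) (hA : A.Nonempty) (ξ : List α → α → ℝ) (v : ℕ → ℝ)
    (θ μ : ℝ) (N : ℕ) (hθ : 0 ≤ θ)
    (h0 : ∀ h : List α, h.length < N → avg A (ξ h) = 0)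
    (h1 : ∀ h : List α, h.length < N → ∀ a ∈ A, θ * |ξ h a| ≤ 1)
    (h2 : ∀ h : List α, h.length < N → avg A (fun a => ξ h a ^ 2) ≤ v h.length) :
    Ex A N (fun h => ind (μ ≤ |mart ξ h|)) ≤
      2 * Real.exp (-(θ * μ) + θ ^ 2 * ∑ i ∈ range N, v i) := by
  have hp := Ex_exp_mart A hA ξ v θ N h0
    (fun h hl a ha => by rw [abs_mul, abs_of_nonneg hθ]; exact h1 h hl a ha) h2
  have hm := Ex_exp_mart A hA ξ v (-θ) N h0
    (fun h hl a ha => by rw [abs_mul, abs_neg, abs_of_nonneg hθ]; exact h1 h hl a ha) h2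
  have key : Ex A N (fun h => ind (μ ≤ |mart ξ h|)) ≤
      Ex A N (fun h => Real.exp (-(θ * μ)) * Real.exp (θ * mart ξ h) +
        Real.exp (-(θ * μ)) * Real.exp (-θ * mart ξ h)) := by
    refine Ex_mono A N (fun l _ _ => ?_)
    by_cases hμ : μ ≤ |mart ξ l|
    · rw [ind_pos hμ, ← Real.exp_add, ← Real.exp_add]
      have p1 := (Real.exp_pos (-(θ * μ) + θ * mart ξ l)).le
      have p2 := (Real.exp_pos (-(θ * μ) + -θ * mart ξ l)).le
      rcases le_abs.1 hμ with h | h
      · have : 0 ≤ -(θ * μ) + θ * mart ξ l := by nlinarith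
        have := Real.one_le_exp this
        linarith
      · have : 0 ≤ -(θ * μ) + -θ * mart ξ l := by nlinarith
        have := Real.one_le_exp this
        linarith
    · rw [ind_neg hμ]; positivity
  rw [Ex_add, Ex_mul_left, Ex_mul_left] at key
  rw [neg_sq] at hm
  have e := (Real.exp_pos (-(θ * μ))).le
  rw [Real.exp_add]
  nlinarith [mul_le_mul_of_nonneg_left hp e, mul_le_mul_of_nonneg_left hm e]

end Crest.Agent.R30
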