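import Crest.Agent.R30.Prob

set_option autoImplicit false
open Finset Crest.CombinatoricsR.TriangleRemoval

namespace Crest.Agent.R30

/-! # Query programs: oracle versus fresh labels -/

theorem avg_comm {α β : Type} (A : Finset α) (B : Finset β) (f : α → β → ℝ) :
    avg A (fun a => avg B (fun b => f a b)) = avg B (fun b => avg A (fun a => f a b)) := by
  simp only [avg, ← sum_div]
  rw [sum_comm, div_div, div_div, mul_comm]

theorem avg_update {K Lb : Type} [Fintype K] [DecidableEq K] [Fintype Lb] [Nonempty Lb]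
    (k : K) (H : (K → Lb) → ℝ) :
    avg univ H = avg univ (fun ω : K → Lb => avg univ (fun l => H (Function.update ω k l))) := by
  have hc : ((univ : Finset Lb).card : ℝ) ≠ 0 := by
    exact_mod_cast (univ_nonempty (α := Lb)).card_pos.ne'
  have key : ∑ ω : K → Lb, ∑ l : Lb, H (Function.update ω k l) =
      ∑ ω : K → Lb, ∑ _l : Lb, H ω := by
    rw [← Fintype.sum_prod_type', ← Fintype.sum_prod_type']
    let e : (K → Lb) × Lb ≃ (K → Lb) × Lb :=
      { toFun := fun p => (Function.update p.1 k p.2, p.1 k)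
        invFun := fun p => (Function.update p.1 k p.2, p.1 k)
        left_inv := fun p => by simp
        right_inv := fun p => by simp }
    exact Fintype.sum_equiv e _ _ (fun p => rfl)
  simp only [avg, ← sum_div]
  rw [key]
  simp only [sum_const, nsmul_eq_mul, ← mul_sum]
  field_simp

namespace Prog
variable {K Lb α β : Type}

theorem orun_bind (ω : K → Lb) (p : Prog K Lb α) (f : α → Prog K Lb β) :
    (p.bind f).orun ω = (f (p.orun ω)).orun ω := by
  induction p with
  | ret a => rfl
  | ask k g ih => exact ih _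

section fin
variable [Fintype Lb]

theorem Ff_bind (F : β → ℝ) (p : Prog K Lb α) (f : α → Prog K Lb β) :
    (p.bind f).Ff F = p.Ff (fun a => (f a).Ff F) := by
  induction p with
  | ret a => rfl
  | ask k g ih => simp only [bind, Ff, ih]

theorem Ff_mono {F F' : α → ℝ} (h : ∀ a, F a ≤ F' a) (p : Prog K Lb α) : p.Ff F ≤ p.Ff F' := by
  induction p with
  | ret a => exact h a
  | ask k g ih => exact avg_mono _ (fun l _ => ih l)

theorem Ff_nonneg {F : α → ℝ} (h : ∀ a, 0 ≤ F a) (p : Prog K Lb α) : 0 ≤ p.Ff F := by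
  induction p with
  | ret a => exact h a
  | ask k g ih => exact avg_nonneg _ (fun l _ => ih l)

theorem Ff_add (F F' : α → ℝ) (p : Prog K Lb α) :
    p.Ff (fun a => F a + F' a) = p.Ff F + p.Ff F' := by
  induction p with
  | ret a => rfl
  | ask k g ih => simp only [Ff, ih, avg_add]

theorem Ff_mul_left (c : ℝ) (F : α → ℝ) (p : Prog K Lb α) :
    p.Ff (fun a => c * F a) = c * p.Ff F := by
  induction p with
  | ret a => rfl
  | ask k g ih => simp only [Ff, ih, avg_mul_left]

theorem Ff_mul_right (c : ℝ) (F : α → ℝ) (p : Prog K Lb α) :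
    p.Ff (fun a => F a * c) = p.Ff F * c := by
  induction p with
  | ret a => rfl
  | ask k g ih => simp only [Ff, ih, avg_mul_right]

theorem Ff_sum {ι : Type} (s : Finset ι) (F : ι → α → ℝ) (p : Prog K Lb α) :
    p.Ff (fun a => ∑ i ∈ s, F i a) = ∑ i ∈ s, p.Ff (F i) := by
  induction p with
  | ret a => rfl
  | ask k g ih => simp only [Ff, ih, avg_sum]

theorem Ff_const [Nonempty Lb] (c : ℝ) (p : Prog K Lb α) : p.Ff (fun _ => c) = c := by
  induction p with
  | ret a => rfl
  | ask k g ih => simp only [Ff, ih]; exact avg_const _ univ_nonempty c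

theorem Ff_le [Nonempty Lb] {F : α → ℝ} {c : ℝ} (h : ∀ a, F a ≤ c) (p : Prog K Lb α) :
    p.Ff F ≤ c := (Ff_mono h p).trans (Ff_const c p).le

theorem m_nonneg (k : K) (p : Prog K Lb α) : 0 ≤ p.m k := by
  induction p with
  | ret a => exact le_rfl
  | ask k' g ih => exact add_nonneg (ind_nonneg _) (avg_nonneg _ (fun l _ => ih l))

theorem d_nonneg (p : Prog K Lb α) : 0 ≤ p.d := by
  induction p with
  | ret a => exact le_rfl
  | ask k g ih => exact avg_nonneg _ (fun l _ => add_nonneg (ih l) (m_nonneg _ _))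

theorem m_bind (k : K) (p : Prog K Lb α) (f : α → Prog K Lb β) :
    (p.bind f).m k = p.m k + p.Ff (fun a => (f a).m k) := by
  induction p with
  | ret a => simp [bind, m, Ff]
  | ask k' g ih => simp only [bind, m, Ff, ih, avg_add]; ring

theorem d_bind [Nonempty Lb] [Fintype K] (p : Prog K Lb α) (f : α → Prog K Lb β) (M : K → ℝ)
    (hM : ∀ a k, (f a).m k ≤ M k) :
    (p.bind f).d ≤ p.d + p.Ff (fun a => (f a).d) + ∑ k, p.m k * M k := by
  induction p with
  | ret a => simp [bind, m, Ff, d]
  | ask k g ih =>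
    simp only [bind, m, Ff, d, add_mul, sum_add_distrib]
    have e1 : ∑ k', ind (k = k') * M k' = M k := by
      rw [sum_eq_single k]
      · rw [ind_pos rfl, one_mul]
      · intro b _ hb; rw [ind_neg (Ne.symm hb), zero_mul]
      · intro hb; exact absurd (mem_univ _) hb
    have e2 : ∑ k', avg univ (fun l => (g l).m k') * M k' =
        avg univ (fun l => ∑ k', (g l).m k' * M k') := by
      rw [avg_sum]; simp only [avg_mul_right]
    rw [e1, e2, ← avg_const (univ : Finset Lb) univ_nonempty (M k), ← avg_add, ← avg_add,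
      ← avg_add]
    refine avg_mono _ (fun l _ => ?_)
    have h1 := ih l
    have h2 : (g l).Ff (fun a => (f a).m k) ≤ M k := Ff_le (fun a => hM a k) _
    rw [m_bind]
    linarith

/-- Fresh semantics killed at the first repeated key. -/
noncomputable def FU [DecidableEq K] (F : α → ℝ) : Prog K Lb α → Finset K → ℝ
  | ret a, _ => F a
  | ask k g, U => if k ∈ U then 0 else avg univ (fun l => FU F (g l) (insert k U))

end fin

/-- Oracle semantics killed at the first repeated key. -/
def OU [DecidableEq K] (F : α → ℝ) (ω : K → Lb) : Prog K Lb α → Finset K → ℝ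
  | ret a, _ => F a
  | ask k g, U => if k ∈ U then 0 else OU F ω (g (ω k)) (insert k U)

theorem OU_update [DecidableEq K] (F : α → ℝ) (ω : K → Lb) (k : K) (l : Lb) (p : Prog K Lb α)
    (U : Finset K) (hk : k ∈ U) : OU F (Function.update ω k l) p U = OU F ω p U := by
  induction p generalizing U with
  | ret a => rfl
  | ask k' g ih =>
    simp only [OU]
    split_ifs with h
    · rfl
    · have : k' ≠ k := fun e => h (e ▸ hk)
      rw [Function.update_of_ne this]
      exact ih _ _ (mem_insert_of_mem hk)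

theorem avg_OU [Fintype K] [DecidableEq K] [Fintype Lb] [Nonempty Lb] (F : α → ℝ)
    (p : Prog K Lb α) (U : Finset K) :
    avg univ (fun ω : K → Lb => OU F ω p U) = FU F p U := by
  induction p generalizing U with
  | ret a => exact avg_const _ univ_nonempty _
  | ask k g ih =>
    simp only [OU, FU]
    split_ifs with h
    · exact avg_zero _
    · rw [avg_update k, avg_comm]
      refine avg_congr _ (fun l _ => ?_)
      rw [← ih l]
      refine avg_congr _ (fun ω _ => ?_)
      rw [Function.update_self]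
      exact OU_update F ω k l _ _ (mem_insert_self _ _)

theorem OU_bounds [DecidableEq K] (F : α → ℝ) (h0 : ∀ a, 0 ≤ F a) (h1 : ∀ a, F a ≤ 1)
    (ω : K → Lb) (p : Prog K Lb α) (U : Finset K) :
    OU F ω p U ≤ F (p.orun ω) ∧ F (p.orun ω) ≤ OU F ω p U + (1 - OU (fun _ => 1) ω p U) := by
  induction p generalizing U with
  | ret a => simp [OU, orun]
  | ask k g ih =>
    simp only [OU, orun]
    split_ifs with h
    · exact ⟨h0 _, by linarith [h1 ((g (ω k)).orun ω)]⟩
    · exact ih _ _

theorem FU_bounds [DecidableEq K] [Fintype Lb] [Nonempty Lb] (F : α → ℝ) (h0 : ∀ a, 0 ≤ F a)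
    (h1 : ∀ a, F a ≤ 1) (p : Prog K Lb α) (U : Finset K) :
    FU F p U ≤ p.Ff F ∧ p.Ff F ≤ FU F p U + (1 - FU (fun _ => 1) p U) := by
  induction p generalizing U with
  | ret a => simp [FU, Ff]
  | ask k g ih =>
    by_cases h : k ∈ U
    · simp only [FU, if_pos h]
      exact ⟨Ff_nonneg h0 _, by linarith [Ff_le h1 (ask k g)]⟩
    · simp only [FU, Ff, if_neg h]
      refine ⟨avg_mono _ (fun l _ => (ih l _).1), ?_⟩
      rw [← avg_const (univ : Finset Lb) univ_nonempty (1 : ℝ), ← avg_sub, ← avg_add]
      simp only [avg_const (univ : Finset Lb) univ_nonempty]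
      exact avg_mono _ (fun l _ => (ih l _).2)

theorem FU_one [DecidableEq K] [Fintype Lb] [Nonempty Lb] (p : Prog K Lb α) (U : Finset K) :
    1 - FU (fun _ => 1) p U ≤ p.d + ∑ k ∈ U, p.m k := by
  induction p generalizing U with
  | ret a => simp [FU, d, m]
  | ask k g ih =>
    by_cases h : k ∈ U
    · simp only [FU, if_pos h]
      have h1 : (ask k g).m k ≤ ∑ k' ∈ U, (ask k g).m k' :=
        single_le_sum (f := fun k' => (ask k g).m k') (fun k' _ => m_nonneg _ _) h
      have h2 : 1 ≤ (ask k g).m k := by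
        simp only [m, ind_pos trivial]
        linarith [avg_nonneg (univ : Finset Lb) (f := fun l => (g l).m k) (fun l _ => m_nonneg _ _)]
      linarith [d_nonneg (ask k g)]
    · simp only [FU, if_neg h, d, m, sum_add_distrib]
      have h1 : 0 ≤ ∑ k' ∈ U, ind (k = k') := sum_nonneg (fun _ _ => ind_nonneg _)
      have h2 : 1 - avg univ (fun l => FU (fun _ => (1 : ℝ)) (g l) (insert k U)) ≤
          avg univ (fun l => (g l).d + (g l).m k) + ∑ k' ∈ U, avg univ (fun l => (g l).m k') := by
        rw [← avg_sum, ← avg_add, ← avg_const (univ : Finset Lb) univ_nonempty (1 : ℝ), ← avg_sub]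
        simp only [avg_const (univ : Finset Lb) univ_nonempty]
        refine avg_mono _ (fun l _ => ?_)
        have := ih l (insert k U)
        rw [sum_insert h] at this
        linarith
      linarith

theorem couple [Fintype K] [DecidableEq K] [Fintype Lb] [Nonempty Lb] (p : Prog K Lb α)
    (F : α → ℝ) (h0 : ∀ a, 0 ≤ F a) (h1 : ∀ a, F a ≤ 1) :
    |avg univ (fun ω : K → Lb => F (p.orun ω)) - p.Ff F| ≤ p.d := by
  have a1 : FU F p ∅ ≤ avg univ (fun ω : K → Lb => F (p.orun ω)) := by
    rw [← avg_OU]; exact avg_mono _ (fun ω _ => (OU_bounds F h0 h1 ω p ∅).1)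
  have a2 : avg univ (fun ω : K → Lb => F (p.orun ω)) ≤
      FU F p ∅ + (1 - FU (fun _ => 1) p ∅) := by
    rw [← avg_OU, ← avg_OU, ← avg_const (univ : Finset (K → Lb)) univ_nonempty (1 : ℝ), ← avg_sub,
      ← avg_add]
    simp only [avg_const (univ : Finset (K → Lb)) univ_nonempty]
    exact avg_mono _ (fun ω _ => (OU_bounds F h0 h1 ω p ∅).2)
  have b := FU_bounds F h0 h1 p ∅
  have c := FU_one p ∅
  rw [sum_empty] at c
  rw [abs_le]; constructor <;> linarith [b.1, b.2]

end Prog

end Crest.Agent.R30
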