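import Crest.Agent.R30.Par

set_option autoImplicit false
open Finset Crest.CombinatoricsR.TriangleRemoval

namespace Crest.Agent.R30

/-! # Survival probabilities of edge sets in phase 1 -/

variable {n : ℕ} {y z : ℝ}

theorem surv_exp {h : ℝ} (h0 : 0 ≤ h) (h1 : h ≤ 1 / 2) :
    Real.exp (-h) ≤ (1 - h) * Real.exp (h ^ 2) := by
  have a1 := Real.quadratic_le_exp_of_nonneg (x := h + h ^ 2) (by positivity)
  have a2 : 1 ≤ (1 - h) * Real.exp (h + h ^ 2) := by
    refine le_trans ?_ (mul_le_mul_of_nonneg_left a1 (by linarith))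
    have : h ≤ (1 - h) * (1 + h) ^ 2 / 2 := by nlinarith [mul_nonneg h0 h0]
    nlinarith [mul_le_mul_of_nonneg_left this (sq_nonneg h)]
  have a3 : Real.exp (h ^ 2) = Real.exp (-h) * Real.exp (h + h ^ 2) := by
    rw [← Real.exp_add]; ring_nf
  rw [a3, mul_left_comm]
  exact le_mul_of_one_le_right (Real.exp_pos _).le a2

theorem surv_step (hn : 4 ≤ n) (β η : ℝ) (S : Gr n) (h : List (Finset (Fin n))) :
    avg (tri3 n) (fun t => ind (ok n β η h ∧ S ⊆ step (G n h) t)) ≤
      ((1 - hh n h.length) * Real.exp (β * hh n h.length + hh n h.length ^ 2 +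
        (S.card : ℝ) / N3 n)) ^ S.card * ind (okb n β η h ∧ S ⊆ G n h) := by
  have hh0 := (hh_pos hn h.length).le
  have hh1 := hh_le_half hn h.length
  have hN := N3_pos hn
  by_cases hk : ok n β η h ∧ S ⊆ G n h
  · rw [ind_pos (show okb n β η h ∧ S ⊆ G n h from ⟨ok_okb hk.1, hk.2⟩), mul_one]
    have a1 := hit_count (G n h) S (G_subset h) hk.2 ((1 - β) * DD n h.length) (by
      intro u v huv
      have := (abs_le.1 ((ok_now hk.1).1 u v huv)).1
      linarith)
    have a2 : avg (tri3 n) (fun t => ind (ok n β η h ∧ S ⊆ step (G n h) t)) =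
        1 - (∑ t ∈ tri3 n, ind (¬ S ⊆ step (G n h) t)) / N3 n := by
      rw [← card_tri3, ← avg_const (tri3 n) (tri3_nonempty (by omega)) 1]
      change _ = _ - avg (tri3 n) _
      rw [← avg_sub]
      refine avg_congr _ (fun t _ => ?_)
      by_cases ht : S ⊆ step (G n h) t
      · rw [ind_pos ⟨hk.1, ht⟩, ind_neg (not_not.2 ht)]; norm_num
      · rw [ind_neg (fun hc => ht hc.2), ind_pos ht]; norm_num
    rw [a2]
    have a3 := div_le_div_of_nonneg_right a1 hN.le
    have a4 := Real.add_one_le_exp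
      (-(((S.card : ℝ) * ((1 - β) * DD n h.length) - (S.card : ℝ) ^ 2) / N3 n))
    have a5 : -(((S.card : ℝ) * ((1 - β) * DD n h.length) - (S.card : ℝ) ^ 2) / N3 n) =
        (S.card : ℝ) * (-hh n h.length + (β * hh n h.length + (S.card : ℝ) / N3 n)) := by
      unfold hh; ring
    rw [a5, Real.exp_nat_mul, ← a5] at a4
    refine le_trans (by linarith) (a4.trans (pow_le_pow_left₀ (Real.exp_pos _).le ?_ _))
    rw [Real.exp_add]
    refine (mul_le_mul_of_nonneg_right (surv_exp hh0 hh1) (Real.exp_pos _).le).trans_eq ?_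
    rw [mul_assoc, ← Real.exp_add]; ring_nf
  · rw [avg_congr (g := fun _ => 0) _ (fun t _ => ind_neg
      (fun hc => hk ⟨hc.1, hc.2.trans (step_subset _ _)⟩)), avg_zero]
    exact mul_nonneg (pow_nonneg (mul_nonneg (by linarith) (Real.exp_pos _).le) _) (ind_nonneg _)

theorem surv (hn : 4 ≤ n) (β η : ℝ) (hβ : 0 ≤ β) (i : ℕ) (S : Gr n) :
    Ex (tri3 n) i (fun h => ind (okb n β η h ∧ S ⊆ G n h)) ≤
      (pp n i * Real.exp (∑ j ∈ range i,
        (β * hh n j + hh n j ^ 2 + (S.card : ℝ) / N3 n))) ^ S.card := by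
  induction i with
  | zero => simpa [Ex, pp] using ind_le_one _
  | succ i ih =>
    have a1 : Ex (tri3 n) (i + 1) (fun h => ind (okb n β η h ∧ S ⊆ G n h)) ≤
        Ex (tri3 n) i (fun h => ((1 - hh n i) * Real.exp (β * hh n i + hh n i ^ 2 +
          (S.card : ℝ) / N3 n)) ^ S.card * ind (okb n β η h ∧ S ⊆ G n h)) := by
      rw [Ex]
      refine Ex_mono _ _ (fun l hl _ => ?_)
      rw [← hl]
      exact surv_step hn β η S l
    rw [Ex_mul_left] at a1
    refine a1.trans ((mul_le_mul_of_nonneg_left ih (pow_nonneg (mul_nonneg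
      (by linarith [hh_le_half hn i]) (Real.exp_pos _).le) _)).trans_eq ?_)
    rw [← mul_pow, sum_range_succ, Real.exp_add (∑ j ∈ range i, _), pp_succ]
    ring

theorem surv_par (hP : Par n y z) {i₀ : ℕ} (hi : I0 n (z ^ 8) i₀) {i : ℕ} (hii : i ≤ i₀)
    (S : Gr n) (hS : (S.card : ℝ) ≤ 2400 * z ^ 2) :
    Ex (tri3 n) i (fun h => ind (okb n (1 / z ^ 2) (20 / y ^ 2) h ∧ S ⊆ G n h)) ≤
      (min 1 (pp n i * (1 + y / z ^ 2))) ^ S.card := by
  have hn := hP.four_le
  have hz : (100 : ℝ) ≤ z := le_trans (by norm_num) hP.z_ge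
  have hy := hP.hy
  have hyz := hP.y_le_z
  have hzn := hP.z_le_n
  have hlog := hP.log_le
  have hlog1 := hP.one_le_log
  have hN := N3_pos hn
  obtain ⟨t1, -, t3, -⟩ := traj hP hi
  rcases le_total 1 (pp n i * (1 + y / z ^ 2)) with hm | hm
  · rw [min_eq_left hm, one_pow, ← Ex_const (tri3 n) (tri3_nonempty (by omega)) i 1]
    exact Ex_mono _ _ (fun _ _ _ => ind_le_one _)
  rw [min_eq_right hm]
  refine (surv hn _ _ (by positivity) i S).trans (pow_le_pow_left₀
    (mul_nonneg (pp_pos hn i).le (Real.exp_pos _).le)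
    (mul_le_mul_of_nonneg_left ?_ (pp_pos hn i).le) _)
  have b1 : ∑ j ∈ range i, hh n j ≤ Real.log n / 2 :=
    (sum_le_sum_of_subset_of_nonneg (range_mono hii) (fun j _ _ => (hh_pos hn j).le)).trans t3
  have b2 : ∑ j ∈ range i, hh n j ^ 2 ≤ 12 / z ^ 2 * (Real.log n / 2) := by
    refine le_trans ?_ (mul_le_mul_of_nonneg_left b1 (by positivity))
    rw [mul_sum]
    refine sum_le_sum (fun j _ => ?_)
    rw [sq]
    refine mul_le_mul_of_nonneg_right ((hh_le hn j).trans ?_) (hh_pos hn j).le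
    gcongr
  have b3 : (i : ℝ) * ((S.card : ℝ) / N3 n) ≤ 1 / z ^ 2 := by
    have c1 : (i : ℝ) / N3 n ≤ 1 / z ^ 8 :=
      (div_le_div_of_nonneg_right (by exact_mod_cast hii) hN.le).trans t1
    calc (i : ℝ) * ((S.card : ℝ) / N3 n) = (i : ℝ) / N3 n * S.card := by ring
      _ ≤ 1 / z ^ 8 * (2400 * z ^ 2) := by gcongr
      _ = 2400 / z ^ 4 * (1 / z ^ 2) := by field_simp
      _ ≤ 1 * (1 / z ^ 2) := by
        gcongr
        rw [div_le_one (by positivity)]
        calc (2400 : ℝ) ≤ 100 ^ 4 := by norm_num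
          _ ≤ z ^ 4 := by gcongr
      _ = 1 / z ^ 2 := one_mul _
  have b4 : ∑ j ∈ range i, (1 / z ^ 2 * hh n j + hh n j ^ 2 + (S.card : ℝ) / N3 n) ≤
      y / z ^ 2 / 2 := by
    rw [sum_add_distrib, sum_add_distrib, ← mul_sum, sum_const, card_range, nsmul_eq_mul]
    have c1 := mul_le_mul_of_nonneg_left b1 (by positivity : 0 ≤ 1 / z ^ 2)
    have c2 : 13 * (Real.log n / 2) + 1 ≤ y / 2 := by nlinarith
    have c3 := mul_le_mul_of_nonneg_left c2 (by positivity : 0 ≤ 1 / z ^ 2)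
    have e1 : 12 / z ^ 2 = 12 * (1 / z ^ 2) := by ring
    have e2 : y / z ^ 2 / 2 = 1 / z ^ 2 * (y / 2) := by ring
    rw [e1] at b2
    rw [e2]
    nlinarith
  have b5 : y / z ^ 2 ≤ 1 := by
    rw [div_le_one (by positivity)]; nlinarith
  have b6 : 0 ≤ y / z ^ 2 := by positivity
  refine (Real.exp_le_exp.2 b4).trans ((exp_le_quad (x := y / z ^ 2 / 2)
    (by rw [abs_of_nonneg (by positivity)]; linarith)).trans ?_)
  nlinarith

end Crest.Agent.R30
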